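import Vale.Agent.P074.Cells

/-! Barycentre stability: the main estimate. -/

open MeasureTheory Set Filter Topology
open scoped ENNReal RealInnerProductSpace

namespace Vale.Agent.P074

variable {d : ℕ} {J : Type*}

lemma exp_le_of_le {t : ℝ} (ht : t ≤ 1 / 64) : Real.exp t ≤ 51 / 50 := by
  have h1 : Real.exp t ≤ Real.exp (1 / 64) := Real.exp_le_exp.2 ht
  have h2 : 1 - 1 / 64 ≤ Real.exp (-(1 / 64 : ℝ)) := by
    have := Real.add_one_le_exp (-(1 / 64 : ℝ)); linarith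
  rw [Real.exp_neg] at h2
  have h3 : 0 < Real.exp (1 / 64 : ℝ) := Real.exp_pos _
  have h4 : (63 / 64 : ℝ) * Real.exp (1 / 64) ≤ 1 := by
    have h5 := mul_le_mul_of_nonneg_right h2 h3.le
    rw [inv_mul_cancel₀ h3.ne'] at h5
    linarith
  nlinarith

lemma exp_lip {a b : ℝ} (ha : a ≤ 1 / 64) (hb : b ≤ 1 / 64) :
    |Real.exp a - Real.exp b| ≤ 51 / 50 * |a - b| := by
  wlog h : b ≤ a with H
  · rw [abs_sub_comm, abs_sub_comm a b]
    exact H hb ha (not_le.1 h).le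
  have h1 := Real.add_one_le_exp (b - a)
  have h2 := Real.exp_pos a
  have h3 : Real.exp b = Real.exp a * Real.exp (b - a) := by rw [← Real.exp_add]; ring_nf
  have h4 : 0 ≤ Real.exp a - Real.exp b := by
    have := Real.exp_le_exp.2 h; linarith
  rw [abs_of_nonneg h4, abs_of_nonneg (sub_nonneg.2 h)]
  have h5 := exp_le_of_le ha
  have h6 : Real.exp a * (b - a + 1) ≤ Real.exp b := by
    rw [h3]; gcongr
  nlinarith [sub_nonneg.2 h]

section

variable {R : ℝ} (hR : 0 < R)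

/-- The weight parameter. -/
noncomputable def ep (R : ℝ) : ℝ := 1 / (64 * R ^ 2)

include hR

lemma ep_pos : 0 < ep R := by unfold ep; positivity

lemma ep_norm {x : Eu d} (hx : ‖x‖ ≤ R) : ep R * ‖x‖ ^ 2 ≤ 1 / 64 := by
  unfold ep
  rw [div_mul_eq_mul_div, one_mul, div_le_div_iff₀ (by positivity) (by norm_num)]
  have : ‖x‖ ^ 2 ≤ R ^ 2 := by gcongr
  linarith

lemma u0_lip {x x' : Eu d} (hx : ‖x‖ ≤ R) (hx' : ‖x'‖ ≤ R) :
    |Real.exp (ep R * ‖x‖ ^ 2) - Real.exp (ep R * ‖x'‖ ^ 2)| ≤ 1 / (30 * R) * ‖x - x'‖ := by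
  have h1 := exp_lip (ep_norm hR hx) (ep_norm hR hx')
  have h2 : |ep R * ‖x‖ ^ 2 - ep R * ‖x'‖ ^ 2| ≤ ep R * (2 * R * ‖x - x'‖) := by
    rw [← mul_sub, abs_mul, abs_of_pos (ep_pos hR)]
    apply mul_le_mul_of_nonneg_left _ (ep_pos hR).le
    have e : ‖x‖ ^ 2 - ‖x'‖ ^ 2 = (‖x‖ + ‖x'‖) * (‖x‖ - ‖x'‖) := by ring
    rw [e, abs_mul, abs_of_nonneg (by positivity)]
    have h3 := abs_norm_sub_norm_le x x'
    calc (‖x‖ + ‖x'‖) * |‖x‖ - ‖x'‖| ≤ (R + R) * ‖x - x'‖ := by gcongr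
      _ = _ := by ring
  calc _ ≤ 51 / 50 * |ep R * ‖x‖ ^ 2 - ep R * ‖x'‖ ^ 2| := h1
    _ ≤ 51 / 50 * (ep R * (2 * R * ‖x - x'‖)) := by gcongr
    _ ≤ 1 / (30 * R) * ‖x - x'‖ := by
      have h4 : 51 / 50 * (ep R * (2 * R * ‖x - x'‖)) = (51 / 1600) / R * ‖x - x'‖ := by
        unfold ep; field_simp; ring
      have h5 : 1 / (30 * R) * ‖x - x'‖ = (1 / 30) / R * ‖x - x'‖ := by field_simp
      rw [h4, h5]
      have h6 : (51 / 1600 : ℝ) / R ≤ (1 / 30) / R :=
        div_le_div_of_nonneg_right (by norm_num) hR.le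
      exact mul_le_mul_of_nonneg_right h6 (norm_nonneg _)

lemma ue_lip {e x x' : Eu d} (he : ‖e‖ ≤ 1) (hx : ‖x‖ ≤ R) (hx' : ‖x'‖ ≤ R) :
    |⟪x, e⟫ * Real.exp (ep R * ‖x‖ ^ 2) - ⟪x', e⟫ * Real.exp (ep R * ‖x'‖ ^ 2)| ≤
      11 / 10 * ‖x - x'‖ := by
  have h1 := u0_lip hR hx hx'
  have h2 : |⟪x - x', e⟫| ≤ ‖x - x'‖ := by
    calc |⟪x - x', e⟫| ≤ ‖x - x'‖ * ‖e‖ := abs_real_inner_le_norm _ _
      _ ≤ ‖x - x'‖ * 1 := by gcongr
      _ = _ := mul_one _
  have h3 : |⟪x', e⟫| ≤ R := by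
    calc |⟪x', e⟫| ≤ ‖x'‖ * ‖e‖ := abs_real_inner_le_norm _ _
      _ ≤ R * 1 := by gcongr
      _ = _ := mul_one _
  have h4 := exp_le_of_le (ep_norm hR hx)
  have h5 := Real.exp_pos (ep R * ‖x‖ ^ 2)
  have e1 : ⟪x, e⟫ * Real.exp (ep R * ‖x‖ ^ 2) - ⟪x', e⟫ * Real.exp (ep R * ‖x'‖ ^ 2) =
      ⟪x - x', e⟫ * Real.exp (ep R * ‖x‖ ^ 2) +
      ⟪x', e⟫ * (Real.exp (ep R * ‖x‖ ^ 2) - Real.exp (ep R * ‖x'‖ ^ 2)) := by
    rw [inner_sub_left]; ring
  rw [e1]
  calc _ ≤ |⟪x - x', e⟫ * Real.exp (ep R * ‖x‖ ^ 2)| +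
      |⟪x', e⟫ * (Real.exp (ep R * ‖x‖ ^ 2) - Real.exp (ep R * ‖x'‖ ^ 2))| := abs_add_le _ _
    _ = |⟪x - x', e⟫| * Real.exp (ep R * ‖x‖ ^ 2) + |⟪x', e⟫| *
      |Real.exp (ep R * ‖x‖ ^ 2) - Real.exp (ep R * ‖x'‖ ^ 2)| := by
      rw [abs_mul, abs_mul, abs_of_pos h5]
    _ ≤ ‖x - x'‖ * (51 / 50) + R * (1 / (30 * R) * ‖x - x'‖) := by gcongr
    _ = (51 / 50 + 1 / 30) * ‖x - x'‖ := by field_simp
    _ ≤ 11 / 10 * ‖x - x'‖ := by
      gcongr
      norm_num

/-- Barycentre stability of Laguerre cells. -/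
lemma baryStab [Fintype J] [Nonempty J] {K : Set (Eu d)} (hKc : Convex ℝ K) (hK : IsCompact K)
    (hKR : K ⊆ Metric.closedBall 0 R) {y : J → Eu d} (hy : Function.Injective y) (c c' : J → ℝ)
    (v : J → Eu d) (m m' : J → ℝ) (hmdef : ∀ j, m j = ∫ _ in cell K y c j, (1 : ℝ))
    (hm'def : ∀ j, m' j = ∫ _ in cell K y c' j, (1 : ℝ))
    (hm : ∀ j, 0 < m j) (h1 : ∀ j, m j ≤ 2 * m' j) (h2 : ∀ j, m' j ≤ 2 * m j) :
    |∑ j, ((∫ x in cell K y c j, ⟪x, v j⟫) - ∫ x in cell K y c' j, ⟪x, v j⟫)| ≤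
      35 * R * Real.sqrt (∑ j, m j * ‖v j‖ ^ 2) * Real.sqrt (∑ j, (m j - m' j) ^ 2 / m j) := by
  classical
  have hKcl := hK.isClosed
  have hm' : ∀ j, 0 < m' j := fun j => by have := hm j; have := h1 j; linarith
  set ε := ep R with hε
  have hεpos : 0 < ε := ep_pos hR
  set cm : J → ℝ := fun k => (c k + c' k) / 2
  set V := fun j => cell K y c j with hV
  set V' := fun j => cell K y c' j with hV'
  set W := fun j => cell K y cm j with hW
  have bV : ∀ j, V j ⊆ Metric.closedBall 0 R := fun j => (cell_subset K y c j).trans hKR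
  have bV' : ∀ j, V' j ⊆ Metric.closedBall 0 R := fun j => (cell_subset K y c' j).trans hKR
  have bW : ∀ j, W j ⊆ Metric.closedBall 0 R := fun j => (cell_subset K y cm j).trans hKR
  have mV : ∀ j, MeasurableSet (V j) := fun j => cell_meas hKcl y c j
  have mV' : ∀ j, MeasurableSet (V' j) := fun j => cell_meas hKcl y c' j
  have mW : ∀ j, MeasurableSet (W j) := fun j => cell_meas hKcl y cm j
  have hmid : ∀ j, ∀ x ∈ V j, ∀ x' ∈ V' j, (1 / 2 : ℝ) • (x + x') ∈ W j :=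
    fun j x hx x' hx' => cell_mid hKc y c c' j hx hx'
  have nrm : ∀ {A : Set (Eu d)}, A ⊆ Metric.closedBall 0 R → ∀ x ∈ A, ‖x‖ ≤ R := by
    intro A hA x hx
    simpa using hA hx
  -- weighted masses
  set P := fun j => ∫ x in V j, Real.exp (-ε * ‖x‖ ^ 2) with hP
  set P' := fun j => ∫ x in V' j, Real.exp (-ε * ‖x‖ ^ 2) with hP'
  set Q := fun j => ∫ x in W j, Real.exp (-ε * ‖x‖ ^ 2) with hQ
  have massBound : ∀ (A : Set (Eu d)), MeasurableSet A → A ⊆ Metric.closedBall 0 R →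
      (∫ x in A, Real.exp (-ε * ‖x‖ ^ 2)) ≤ ∫ _ in A, (1 : ℝ) ∧
      (∫ _ in A, (1 : ℝ)) ≤ 51 / 50 * ∫ x in A, Real.exp (-ε * ‖x‖ ^ 2) := by
    intro A hA bA
    have i1 : IntegrableOn (fun x => Real.exp (-ε * ‖x‖ ^ 2)) A := intOn (by fun_prop) bA
    have i2 : IntegrableOn (fun _ : Eu d => (1 : ℝ)) A := intOn (by fun_prop) bA
    constructor
    · apply setIntegral_mono_on i1 i2 hA
      intro x hx
      rw [← Real.exp_zero]
      apply Real.exp_le_exp.2
      have : 0 ≤ ε * ‖x‖ ^ 2 := by positivity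
      linarith
    · rw [← integral_const_mul]
      apply setIntegral_mono_on i2 (i1.const_mul _) hA
      intro x hx
      have h3 := exp_le_of_le (ep_norm hR (nrm bA x hx))
      rw [← hε] at h3
      have h4 : Real.exp (ε * ‖x‖ ^ 2) * Real.exp (-ε * ‖x‖ ^ 2) = 1 := by
        rw [← Real.exp_add]; simp
      have h5 := Real.exp_pos (-ε * ‖x‖ ^ 2)
      nlinarith
  have mb : ∀ j, P j ≤ m j ∧ m j ≤ 51 / 50 * P j := fun j => by
    rw [hmdef]; exact massBound _ (mV j) (bV j)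
  have mb' : ∀ j, P' j ≤ m' j ∧ m' j ≤ 51 / 50 * P' j := fun j => by
    rw [hm'def]; exact massBound _ (mV' j) (bV' j)
  have Ppos : ∀ j, 0 < P j := fun j => by have := hm j; have := (mb j).2; linarith
  have P'pos : ∀ j, 0 < P' j := fun j => by have := hm' j; have := (mb' j).2; linarith
  -- total weighted mass
  have iexp : IntegrableOn (fun x : Eu d => Real.exp (-ε * ‖x‖ ^ 2)) K :=
    intOn (by fun_prop) hKR
  have sumP : ∑ j, P j = ∑ j, Q j := by
    rw [hP, hQ]; simp only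
    rw [cell_sum hKcl hy c iexp, cell_sum hKcl hy cm iexp]
  have sumP' : ∑ j, P' j = ∑ j, Q j := by
    rw [hP', hQ]; simp only
    rw [cell_sum hKcl hy c' iexp, cell_sum hKcl hy cm iexp]
  -- direction vectors
  set e : J → Eu d := fun j => ‖v j‖⁻¹ • v j with he
  have he1 : ∀ j, ‖e j‖ ≤ 1 := by
    intro j
    rw [he]; simp only
    rw [norm_smul, norm_inv, norm_norm]
    by_cases h : ‖v j‖ = 0
    · rw [h]; simp
    · rw [inv_mul_cancel₀ h]
  have hve : ∀ j, v j = ‖v j‖ • e j := by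
    intro j
    rw [he]; simp only
    by_cases h : ‖v j‖ = 0
    · rw [h, norm_eq_zero.1 h]; simp
    · rw [smul_smul, mul_inv_cancel₀ h, one_smul]
  set al := fun j => ∫ x in V j, ⟪x, e j⟫ with hal
  set al' := fun j => ∫ x in V' j, ⟪x, e j⟫ with hal'
  -- the two per-cell inequalities
  have cancel : ∀ x : Eu d, Real.exp (ε * ‖x‖ ^ 2) * Real.exp (-ε * ‖x‖ ^ 2) = 1 := by
    intro x; rw [← Real.exp_add]; simp
  have I0 : ∀ j, Real.sqrt (P j * P' j) * (1 + 900 / 256 * (m j / P j - m' j / P' j) ^ 2) ≤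
      Q j := by
    intro j
    have h3 := perCell (mV j) (mV' j) (mW j) (bV j) (bV' j) (bW j) (hmid j) hεpos
      (L := 1 / (30 * R)) (by positivity) (u := fun x => Real.exp (ε * ‖x‖ ^ 2)) (by fun_prop)
      (fun x hx x' hx' => u0_lip hR (nrm (bV j) x hx) (nrm (bV' j) x' hx')) (Ppos j) (P'pos j)
    simp only [cancel] at h3
    rw [← hmdef, ← hm'def] at h3
    have hk : ε / (4 * (1 / (30 * R)) ^ 2) = 900 / 256 := by
      rw [hε]; unfold ep; field_simp; norm_num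
    rw [hk] at h3
    exact h3
  have I1 : ∀ j, Real.sqrt (P j * P' j) * (1 + 1 / (310 * R ^ 2) *
      (al j / P j - al' j / P' j) ^ 2) ≤ Q j := by
    intro j
    have h3 := perCell (mV j) (mV' j) (mW j) (bV j) (bV' j) (bW j) (hmid j) hεpos
      (L := 11 / 10) (by norm_num) (u := fun x => ⟪x, e j⟫ * Real.exp (ε * ‖x‖ ^ 2))
      (by fun_prop)
      (fun x hx x' hx' => ue_lip hR (he1 j) (nrm (bV j) x hx) (nrm (bV' j) x' hx'))
      (Ppos j) (P'pos j)
    simp only [mul_assoc, cancel, mul_one] at h3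
    refine le_trans ?_ h3
    have hk : 1 / (310 * R ^ 2) ≤ ε / (4 * (11 / 10) ^ 2) := by
      rw [hε]; unfold ep
      rw [div_div, div_le_div_iff₀ (by positivity) (by positivity)]
      nlinarith [sq_nonneg R]
    apply mul_le_mul_of_nonneg_left _ (Real.sqrt_nonneg _)
    have h4 := mul_le_mul_of_nonneg_right hk (sq_nonneg (al j / P j - al' j / P' j))
    linarith
  -- notation for square roots
  set p := fun j => Real.sqrt (P j) with hp
  set q := fun j => Real.sqrt (P' j) with hq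
  have ppos : ∀ j, 0 < p j := fun j => Real.sqrt_pos.2 (Ppos j)
  have qpos : ∀ j, 0 < q j := fun j => Real.sqrt_pos.2 (P'pos j)
  have hp2 : ∀ j, p j ^ 2 = P j := fun j => Real.sq_sqrt (Ppos j).le
  have hq2 : ∀ j, q j ^ 2 = P' j := fun j => Real.sq_sqrt (P'pos j).le
  have hpq : ∀ j, Real.sqrt (P j * P' j) = p j * q j := fun j => Real.sqrt_mul (Ppos j).le _
  set a := fun j => Real.sqrt (m j / P j) with ha
  set b := fun j => Real.sqrt (m' j / P' j) with hb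
  have ha2 : ∀ j, a j ^ 2 = m j / P j := fun j =>
    Real.sq_sqrt (div_nonneg (hm j).le (Ppos j).le)
  have hb2 : ∀ j, b j ^ 2 = m' j / P' j := fun j =>
    Real.sq_sqrt (div_nonneg (hm' j).le (P'pos j).le)
  have ha1 : ∀ j, 1 ≤ a j := fun j => by
    rw [ha]; simp only
    rw [Real.one_le_sqrt, one_le_div (Ppos j)]; exact (mb j).1
  have hb1 : ∀ j, 1 ≤ b j := fun j => by
    rw [hb]; simp only
    rw [Real.one_le_sqrt, one_le_div (P'pos j)]; exact (mb' j).1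
  have ha3 : ∀ j, a j ^ 2 ≤ 51 / 50 := fun j => by
    rw [ha2, div_le_iff₀ (Ppos j)]; exact (mb j).2
  have hb3 : ∀ j, b j ^ 2 ≤ 51 / 50 := fun j => by
    rw [hb2, div_le_iff₀ (P'pos j)]; exact (mb' j).2
  have hpa : ∀ j, (p j * a j) ^ 2 = m j := fun j => by
    rw [mul_pow, hp2, ha2, mul_div_cancel₀ _ (Ppos j).ne']
  have hqb : ∀ j, (q j * b j) ^ 2 = m' j := fun j => by
    rw [mul_pow, hq2, hb2, mul_div_cancel₀ _ (P'pos j).ne']
  set X := ∑ j, (p j - q j) ^ 2 with hX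
  set H2 := ∑ j, (m j - m' j) ^ 2 / m j with hH2
  have hXQ : X = 2 * (∑ j, Q j - ∑ j, p j * q j) := by
    have h3 : X = ∑ j, (P j + P' j - 2 * (p j * q j)) := by
      rw [hX]
      apply Finset.sum_congr rfl
      intro j _
      rw [sub_sq, hp2, hq2]; ring
    rw [h3, Finset.sum_sub_distrib, Finset.sum_add_distrib, sumP, sumP', ← Finset.mul_sum]
    ring
  have S0 : 900 / 256 * ∑ j, p j * q j * (a j ^ 2 - b j ^ 2) ^ 2 ≤ X / 2 := by
    have h3 : ∑ j, (p j * q j + 900 / 256 * (p j * q j * (a j ^ 2 - b j ^ 2) ^ 2)) ≤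
        ∑ j, Q j := by
      apply Finset.sum_le_sum
      intro j _
      have h4 := I0 j
      rw [hpq, ← ha2, ← hb2] at h4
      calc _ = p j * q j * (1 + 900 / 256 * (a j ^ 2 - b j ^ 2) ^ 2) := by ring
        _ ≤ _ := h4
    rw [Finset.sum_add_distrib, ← Finset.mul_sum] at h3
    rw [hXQ]; linarith
  have S1 : 1 / (310 * R ^ 2) * ∑ j, p j * q j * (al j / P j - al' j / P' j) ^ 2 ≤ X / 2 := by
    have h3 : ∑ j, (p j * q j + 1 / (310 * R ^ 2) *
        (p j * q j * (al j / P j - al' j / P' j) ^ 2)) ≤ ∑ j, Q j := by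
      apply Finset.sum_le_sum
      intro j _
      have h4 := I1 j
      rw [hpq] at h4
      calc _ = p j * q j * (1 + 1 / (310 * R ^ 2) * (al j / P j - al' j / P' j) ^ 2) := by ring
        _ ≤ _ := h4
    rw [Finset.sum_add_distrib, ← Finset.mul_sum] at h3
    rw [hXQ]; linarith
  have Hsq : ∑ j, (p j * a j - q j * b j) ^ 2 ≤ H2 := by
    rw [hH2]
    apply Finset.sum_le_sum
    intro j _
    set s := p j * a j with hs
    set t := q j * b j with ht
    have hs0 : 0 < s := mul_pos (ppos j) (by linarith [ha1 j])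
    have ht0 : 0 < t := mul_pos (qpos j) (by linarith [hb1 j])
    rw [← hpa j, ← hqb j, ← hs, ← ht, le_div_iff₀ (by positivity)]
    have h3 : (s ^ 2 - t ^ 2) ^ 2 = (s - t) ^ 2 * (s + t) ^ 2 := by ring
    rw [h3]
    gcongr
    linarith
  have Xle : X ≤ 5 / 2 * H2 := by
    have h3 : X ≤ ∑ j, (2 * (p j * a j - q j * b j) ^ 2 +
        3 / 4 * (p j * q j * (a j ^ 2 - b j ^ 2) ^ 2)) := by
      rw [hX]
      apply Finset.sum_le_sum
      intro j _
      have h4 := perj1 (ppos j) (qpos j) (ha1 j) (hb1 j) (ha3 j) (by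
        rw [hpa, hqb]; exact h2 j)
      calc _ ≤ _ := h4
        _ = _ := by ring
    rw [Finset.sum_add_distrib, ← Finset.mul_sum, ← Finset.mul_sum] at h3
    have h5 : 0 ≤ ∑ j, (p j * a j - q j * b j) ^ 2 := Finset.sum_nonneg fun j _ => sq_nonneg _
    linarith
  have Asum : ∑ j, (al j - al' j) ^ 2 / m j ≤ 35 ^ 2 * R ^ 2 * H2 := by
    have hfin : ∑ j, (al j - al' j) ^ 2 / m j ≤
        ∑ j, (3 * (p j * q j * (al j / P j - al' j / P' j) ^ 2) +
          15 * R ^ 2 * (p j - q j) ^ 2) := by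
      apply Finset.sum_le_sum
      intro j _
      have hB : |al' j / P' j| ≤ 11 / 10 * R := by
        rw [abs_div, abs_of_pos (P'pos j), div_le_iff₀ (P'pos j)]
        have h3 : |al' j| ≤ R * m' j := by
          rw [hm'def, hal', ← integral_const_mul]; simp only
          calc |∫ x in V' j, ⟪x, e j⟫| ≤ ∫ x in V' j, |⟪x, e j⟫| := abs_integral_le_integral_abs
            _ ≤ ∫ _ in V' j, R * 1 := by
              apply setIntegral_mono_on (intOn (by fun_prop) (bV' j))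
                (intOn (by fun_prop) (bV' j)) (mV' j)
              intro x hx
              calc |⟪x, e j⟫| ≤ ‖x‖ * ‖e j‖ := abs_real_inner_le_norm _ _
                _ ≤ R * 1 := by
                  gcongr
                  · exact nrm (bV' j) x hx
                  · exact he1 j
        have h4 := (mb' j).2
        have h5 := P'pos j
        nlinarith
      have h4 := perj2 (B := al j / P j) (ppos j) (qpos j) (ha1 j) (hb1 j) (ha3 j) (hb3 j)
        (by rw [hpa, hqb]; exact h1 j) (by rw [hpa, hqb]; exact h2 j) hB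
      rw [hpa, hp2, hq2, mul_div_cancel₀ _ (Ppos j).ne', mul_div_cancel₀ _ (P'pos j).ne'] at h4
      calc _ ≤ _ := h4
        _ = _ := by ring
    rw [Finset.sum_add_distrib, ← Finset.mul_sum, ← Finset.mul_sum] at hfin
    have h5 : ∑ j, p j * q j * (al j / P j - al' j / P' j) ^ 2 ≤ 155 * R ^ 2 * X := by
      have h6 : (310 * R ^ 2) * (1 / (310 * R ^ 2) *
          ∑ j, p j * q j * (al j / P j - al' j / P' j) ^ 2) ≤ (310 * R ^ 2) * (X / 2) :=
        mul_le_mul_of_nonneg_left S1 (by positivity)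
      rw [← mul_assoc, mul_one_div_cancel (by positivity), one_mul] at h6
      linarith
    have h7 : 0 ≤ R ^ 2 := by positivity
    have h8 : R ^ 2 * X ≤ R ^ 2 * (5 / 2 * H2) := mul_le_mul_of_nonneg_left Xle h7
    have h9 : 0 ≤ H2 := le_trans (Finset.sum_nonneg fun j _ => sq_nonneg _) Hsq
    have h10 : 0 ≤ R ^ 2 * H2 := mul_nonneg h7 h9
    rw [← hX] at hfin
    have h11 : 15 * R ^ 2 * X = 15 * (R ^ 2 * X) := by ring
    have h12 : (35 : ℝ) ^ 2 * R ^ 2 * H2 = 35 ^ 2 * (R ^ 2 * H2) := by ring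
    rw [h11] at hfin
    rw [h12]
    linarith
  -- conclusion by Cauchy–Schwarz
  have hterm : ∀ j, (∫ x in cell K y c j, ⟪x, v j⟫) - ∫ x in cell K y c' j, ⟪x, v j⟫ =
      ‖v j‖ * (al j - al' j) := by
    intro j
    have e1 : ∀ x : Eu d, ⟪x, v j⟫ = ‖v j‖ * ⟪x, e j⟫ := by
      intro x
      conv_lhs => rw [hve j]
      rw [inner_smul_right]
    simp only [e1]
    rw [integral_const_mul, integral_const_mul, ← mul_sub]
  have hCS : |∑ j, ‖v j‖ * (al j - al' j)| ≤ Real.sqrt (∑ j, m j * ‖v j‖ ^ 2) *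
      Real.sqrt (∑ j, (al j - al' j) ^ 2 / m j) := by
    have h3 : ∀ j, ‖v j‖ * (al j - al' j) = (Real.sqrt (m j) * ‖v j‖) *
        ((al j - al' j) / Real.sqrt (m j)) := by
      intro j
      have := Real.sqrt_pos.2 (hm j)
      field_simp
    have h4 := Finset.sum_mul_sq_le_sq_mul_sq Finset.univ (fun j => Real.sqrt (m j) * ‖v j‖)
      (fun j => (al j - al' j) / Real.sqrt (m j))
    have h5 : ∑ j, (Real.sqrt (m j) * ‖v j‖) ^ 2 = ∑ j, m j * ‖v j‖ ^ 2 := by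
      apply Finset.sum_congr rfl
      intro j _
      rw [mul_pow, Real.sq_sqrt (hm j).le]
    have h6 : ∑ j, ((al j - al' j) / Real.sqrt (m j)) ^ 2 = ∑ j, (al j - al' j) ^ 2 / m j := by
      apply Finset.sum_congr rfl
      intro j _
      rw [div_pow, Real.sq_sqrt (hm j).le]
    rw [h5, h6] at h4
    rw [← Real.sqrt_mul (Finset.sum_nonneg fun j _ =>
      mul_nonneg (hm j).le (by positivity))]
    apply Real.abs_le_sqrt
    simp only [h3]
    exact h4
  calc |∑ j, ((∫ x in cell K y c j, ⟪x, v j⟫) - ∫ x in cell K y c' j, ⟪x, v j⟫)|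
      = |∑ j, ‖v j‖ * (al j - al' j)| := by simp only [hterm]
    _ ≤ Real.sqrt (∑ j, m j * ‖v j‖ ^ 2) * Real.sqrt (∑ j, (al j - al' j) ^ 2 / m j) := hCS
    _ ≤ Real.sqrt (∑ j, m j * ‖v j‖ ^ 2) * Real.sqrt (35 ^ 2 * R ^ 2 * H2) := by gcongr
    _ = 35 * R * Real.sqrt (∑ j, m j * ‖v j‖ ^ 2) * Real.sqrt H2 := by
      rw [Real.sqrt_mul (by positivity), Real.sqrt_mul (by positivity),
        Real.sqrt_sq (by norm_num), Real.sqrt_sq hR.le]
      ring

end

end Vale.Agent.P074
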