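import Vale.Agent.P074.PL

/-! Stability of the barycentres of Laguerre cells under changes of the masses. -/

open MeasureTheory Set Filter Topology
open scoped ENNReal RealInnerProductSpace

namespace Vale.Agent.P074

variable {d : ℕ}

lemma intOn {F : Eu d → ℝ} (hF : Continuous F) {V : Set (Eu d)} {R : ℝ}
    (hV : V ⊆ Metric.closedBall 0 R) : IntegrableOn F V :=
  (hF.continuousOn.integrableOn_compact (isCompact_closedBall 0 R)).mono_set hV

/-- The key per-cell inequality, a consequence of Prékopa–Leindler. -/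
lemma perCell {V V' W : Set (Eu d)} (hV : MeasurableSet V) (hV' : MeasurableSet V')
    (hW : MeasurableSet W) {R : ℝ} (bV : V ⊆ Metric.closedBall 0 R)
    (bV' : V' ⊆ Metric.closedBall 0 R) (bW : W ⊆ Metric.closedBall 0 R)
    (hmid : ∀ x ∈ V, ∀ x' ∈ V', (1 / 2 : ℝ) • (x + x') ∈ W) {ε L : ℝ} (hε : 0 < ε) (hL : 0 < L)
    {u : Eu d → ℝ} (hu : Continuous u) (hLip : ∀ x ∈ V, ∀ x' ∈ V', |u x - u x'| ≤ L * ‖x - x'‖)
    (hP : 0 < ∫ x in V, Real.exp (-ε * ‖x‖ ^ 2)) (hP' : 0 < ∫ x in V', Real.exp (-ε * ‖x‖ ^ 2)) :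
    Real.sqrt ((∫ x in V, Real.exp (-ε * ‖x‖ ^ 2)) * ∫ x in V', Real.exp (-ε * ‖x‖ ^ 2)) *
      (1 + ε / (4 * L ^ 2) * ((∫ x in V, u x * Real.exp (-ε * ‖x‖ ^ 2)) /
        (∫ x in V, Real.exp (-ε * ‖x‖ ^ 2)) - (∫ x in V', u x * Real.exp (-ε * ‖x‖ ^ 2)) /
        (∫ x in V', Real.exp (-ε * ‖x‖ ^ 2))) ^ 2) ≤ ∫ x in W, Real.exp (-ε * ‖x‖ ^ 2) := by
  set ω : Eu d → ℝ := fun x => -ε * ‖x‖ ^ 2 with hω
  have cω : Continuous ω := by fun_prop
  set P := ∫ x in V, Real.exp (-ε * ‖x‖ ^ 2) with hPdef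
  set P' := ∫ x in V', Real.exp (-ε * ‖x‖ ^ 2) with hP'def
  set U := ∫ x in V, u x * Real.exp (-ε * ‖x‖ ^ 2) with hU
  set U' := ∫ x in V', u x * Real.exp (-ε * ‖x‖ ^ 2) with hU'
  set Q := ∫ x in W, Real.exp (-ε * ‖x‖ ^ 2) with hQ
  have hQ0 : 0 ≤ Q := setIntegral_nonneg hW fun x _ => (Real.exp_pos _).le
  set Δ := U / P - U' / P' with hΔ
  set lam := ε * Δ / L ^ 2 with hlam
  set κ := L ^ 2 / (4 * ε) with hκ
  -- the Prékopa–Leindler step
  have step1 : (∫ x in V, Real.exp (ω x + lam * u x - κ * lam ^ 2)) *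
      (∫ x in V', Real.exp (ω x - lam * u x - κ * lam ^ 2)) ≤ Q ^ 2 := by
    have c1 : Continuous (fun x => Real.exp (ω x + lam * u x - κ * lam ^ 2)) := by fun_prop
    have c2 : Continuous (fun x => Real.exp (ω x - lam * u x - κ * lam ^ 2)) := by fun_prop
    have c3 : Continuous (fun x => Real.exp (ω x)) := by fun_prop
    have conv : ∀ (F : Eu d → ℝ) (A : Set (Eu d)), Continuous F → (∀ x, 0 ≤ F x) →
        MeasurableSet A → A ⊆ Metric.closedBall 0 R →
        ∫⁻ x, A.indicator (fun x => ENNReal.ofReal (F x)) x = ENNReal.ofReal (∫ x in A, F x) := by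
      intro F A hF hF0 hA hAR
      rw [lintegral_indicator hA, ofReal_integral_eq_lintegral_ofReal (intOn hF hAR)
        (Eventually.of_forall hF0)]
    have pl := prekopa
      (f := V.indicator (fun x => ENNReal.ofReal (Real.exp (ω x + lam * u x - κ * lam ^ 2))))
      (g := V'.indicator (fun x => ENNReal.ofReal (Real.exp (ω x - lam * u x - κ * lam ^ 2))))
      (h := W.indicator (fun x => ENNReal.ofReal (Real.exp (ω x))))
      ((ENNReal.continuous_ofReal.comp c1).measurable.indicator hV)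
      ((ENNReal.continuous_ofReal.comp c2).measurable.indicator hV')
      ((ENNReal.continuous_ofReal.comp c3).measurable.indicator hW) (by
        intro x x'
        by_cases hx : x ∈ V
        · by_cases hx' : x' ∈ V'
          · rw [indicator_of_mem hx, indicator_of_mem hx', indicator_of_mem (hmid x hx x' hx'),
              ← ENNReal.ofReal_mul (Real.exp_pos _).le, ← Real.exp_add,
              ← ENNReal.ofReal_pow (Real.exp_pos _).le, ← Real.exp_nat_mul]
            apply ENNReal.ofReal_le_ofReal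
            apply Real.exp_le_exp.2
            have hmidnorm : ‖(1 / 2 : ℝ) • (x + x')‖ ^ 2 =
                ‖x‖ ^ 2 / 2 + ‖x'‖ ^ 2 / 2 - ‖x - x'‖ ^ 2 / 4 := by
              rw [norm_smul, mul_pow, norm_add_sq_real, norm_sub_sq_real, Real.norm_eq_abs]
              norm_num
              ring
            simp only [hω]
            rw [hmidnorm]
            push_cast
            have h1 : lam * (u x - u x') ≤ |lam| * (L * ‖x - x'‖) := by
              calc lam * (u x - u x') ≤ |lam * (u x - u x')| := le_abs_self _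
                _ = |lam| * |u x - u x'| := abs_mul _ _
                _ ≤ _ := by gcongr; exact hLip x hx x' hx'
            have h2 : |lam| * (L * ‖x - x'‖) ≤ ε / 2 * ‖x - x'‖ ^ 2 + 2 * κ * lam ^ 2 := by
              have h3 : 2 * κ * lam ^ 2 = (|lam| * L) ^ 2 / (2 * ε) := by
                rw [hκ, mul_pow, sq_abs]; field_simp; ring
              rw [h3]
              have h4 : ε / 2 * ‖x - x'‖ ^ 2 + (|lam| * L) ^ 2 / (2 * ε) -
                  |lam| * (L * ‖x - x'‖) = (ε * ‖x - x'‖ - |lam| * L) ^ 2 / (2 * ε) := by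
                field_simp; ring
              have h5 : 0 ≤ (ε * ‖x - x'‖ - |lam| * L) ^ 2 / (2 * ε) := by positivity
              linarith
            linarith
          · rw [indicator_of_notMem hx', mul_zero]; exact bot_le
        · rw [indicator_of_notMem hx, zero_mul]; exact bot_le)
    rw [conv _ V c1 (fun x => (Real.exp_pos _).le) hV bV,
      conv _ V' c2 (fun x => (Real.exp_pos _).le) hV' bV',
      conv _ W c3 (fun x => (Real.exp_pos _).le) hW bW,
      ← ENNReal.ofReal_mul (setIntegral_nonneg hV fun x _ => (Real.exp_pos _).le),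
      ← ENNReal.ofReal_pow hQ0] at pl
    exact (ENNReal.ofReal_le_ofReal_iff (by positivity)).1 pl
  -- Jensen
  have jensen : ∀ (A : Set (Eu d)) (t : ℝ), MeasurableSet A → A ⊆ Metric.closedBall 0 R →
      0 < (∫ x in A, Real.exp (-ε * ‖x‖ ^ 2)) →
      (∫ x in A, Real.exp (-ε * ‖x‖ ^ 2)) * Real.exp (t * ((∫ x in A, u x *
        Real.exp (-ε * ‖x‖ ^ 2)) / (∫ x in A, Real.exp (-ε * ‖x‖ ^ 2))) - κ * lam ^ 2) ≤
      ∫ x in A, Real.exp (ω x + t * u x - κ * lam ^ 2) := by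
    intro A t hA bA hp
    set p := ∫ x in A, Real.exp (-ε * ‖x‖ ^ 2) with hp_def
    set q := ∫ x in A, u x * Real.exp (-ε * ‖x‖ ^ 2) with hq_def
    have hpt : ∀ x, Real.exp (t * (q / p) - κ * lam ^ 2) *
        (Real.exp (-ε * ‖x‖ ^ 2) + t * (u x * Real.exp (-ε * ‖x‖ ^ 2)) -
          t * (q / p) * Real.exp (-ε * ‖x‖ ^ 2)) ≤ Real.exp (ω x + t * u x - κ * lam ^ 2) := by
      intro x
      have h1 : Real.exp (ω x + t * u x - κ * lam ^ 2) =
          Real.exp (t * (q / p) - κ * lam ^ 2) * (Real.exp (-ε * ‖x‖ ^ 2) *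
            Real.exp (t * u x - t * (q / p))) := by
        rw [← Real.exp_add, ← Real.exp_add]
        congr 1
        simp only [hω]
        ring
      rw [h1]
      apply mul_le_mul_of_nonneg_left _ (Real.exp_pos _).le
      have h2 := Real.add_one_le_exp (t * u x - t * (q / p))
      have h3 := mul_le_mul_of_nonneg_left h2 (Real.exp_pos (-ε * ‖x‖ ^ 2)).le
      linarith
    have i1 : IntegrableOn (fun x => Real.exp (-ε * ‖x‖ ^ 2)) A := intOn (by fun_prop) bA
    have i2 : IntegrableOn (fun x => u x * Real.exp (-ε * ‖x‖ ^ 2)) A := intOn (by fun_prop) bA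
    have hint : ∫ x in A, Real.exp (t * (q / p) - κ * lam ^ 2) *
        (Real.exp (-ε * ‖x‖ ^ 2) + t * (u x * Real.exp (-ε * ‖x‖ ^ 2)) -
          t * (q / p) * Real.exp (-ε * ‖x‖ ^ 2)) = Real.exp (t * (q / p) - κ * lam ^ 2) *
        (p + t * q - t * (q / p) * p) := by
      have i3 : IntegrableOn (fun x => Real.exp (-ε * ‖x‖ ^ 2) +
          t * (u x * Real.exp (-ε * ‖x‖ ^ 2))) A := intOn (by fun_prop) bA
      rw [integral_const_mul, integral_sub i3 (i1.const_mul _),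
        integral_add i1 (i2.const_mul t), integral_const_mul, integral_const_mul]
    have hmono := setIntegral_mono (intOn (R := R) (by fun_prop) bA)
      (intOn (R := R) (by fun_prop) bA) hpt
    rw [hint] at hmono
    refine le_trans (le_of_eq ?_) hmono
    have : t * (q / p) * p = t * q := by field_simp
    rw [this]; ring
  have j1 := jensen V lam hV bV hP
  have j2 := jensen V' (-lam) hV' bV' hP'
  rw [← hPdef, ← hU] at j1
  rw [← hP'def, ← hU'] at j2
  have j2' : P' * Real.exp (-lam * (U' / P') - κ * lam ^ 2) ≤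
      ∫ x in V', Real.exp (ω x - lam * u x - κ * lam ^ 2) := by
    refine j2.trans (le_of_eq ?_)
    congr 1
    funext x
    congr 1
    ring
  have hprod : P * P' * Real.exp (ε * Δ ^ 2 / (2 * L ^ 2)) ≤ Q ^ 2 := by
    calc P * P' * Real.exp (ε * Δ ^ 2 / (2 * L ^ 2))
        = (P * Real.exp (lam * (U / P) - κ * lam ^ 2)) *
          (P' * Real.exp (-lam * (U' / P') - κ * lam ^ 2)) := by
          have : Real.exp (ε * Δ ^ 2 / (2 * L ^ 2)) = Real.exp (lam * (U / P) - κ * lam ^ 2) *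
              Real.exp (-lam * (U' / P') - κ * lam ^ 2) := by
            rw [← Real.exp_add]
            congr 1
            have e1 : lam * (U / P) - κ * lam ^ 2 + (-lam * (U' / P') - κ * lam ^ 2) =
                lam * Δ - 2 * κ * lam ^ 2 := by rw [hΔ]; ring
            rw [e1, hlam, hκ]
            field_simp
            ring
          rw [this]; ring
      _ ≤ _ := mul_le_mul j1 j2' (by positivity)
          (setIntegral_nonneg hV fun x _ => (Real.exp_pos _).le)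
      _ ≤ Q ^ 2 := step1
  -- take square roots
  have h1 : (Real.sqrt (P * P') * (1 + ε / (4 * L ^ 2) * Δ ^ 2)) ^ 2 ≤ Q ^ 2 := by
    refine le_trans ?_ hprod
    rw [mul_pow, Real.sq_sqrt (by positivity)]
    apply mul_le_mul_of_nonneg_left _ (by positivity)
    have h2 : 1 + ε / (4 * L ^ 2) * Δ ^ 2 ≤ Real.exp (ε / (4 * L ^ 2) * Δ ^ 2) := by
      have := Real.add_one_le_exp (ε / (4 * L ^ 2) * Δ ^ 2)
      linarith
    calc (1 + ε / (4 * L ^ 2) * Δ ^ 2) ^ 2 ≤ Real.exp (ε / (4 * L ^ 2) * Δ ^ 2) ^ 2 := by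
          gcongr
      _ = Real.exp (ε * Δ ^ 2 / (2 * L ^ 2)) := by
          rw [← Real.exp_nat_mul]
          congr 1
          push_cast
          field_simp
          norm_num
  exact (sq_le_sq₀ (by positivity) hQ0).1 h1

/-! ### Elementary inequalities -/

lemma perj1 {p q a b : ℝ} (hp : 0 < p) (hq : 0 < q) (ha : 1 ≤ a) (hb : 1 ≤ b)
    (ha2 : a ^ 2 ≤ 51 / 50) (h2 : (q * b) ^ 2 ≤ 2 * (p * a) ^ 2) :
    (p - q) ^ 2 ≤ 2 * (p * a - q * b) ^ 2 + 3 / 4 * (p * q) * (a ^ 2 - b ^ 2) ^ 2 := by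
  have hqp : q ≤ 3 / 2 * p := by
    by_contra hcon
    rw [not_le] at hcon
    have h3 : (3 / 2 * p) ^ 2 < q ^ 2 := by gcongr
    have h4 : q ^ 2 ≤ (q * b) ^ 2 := by
      rw [mul_pow]
      have : 1 ≤ b ^ 2 := by nlinarith
      nlinarith [sq_nonneg q]
    have h5 : (p * a) ^ 2 ≤ p ^ 2 * (51 / 50) := by
      rw [mul_pow]; gcongr
    nlinarith [sq_nonneg p]
  have e1 : (p - q) ^ 2 ≤ ((p - q) * a) ^ 2 := by
    rw [mul_pow]
    have : 1 ≤ a ^ 2 := by nlinarith
    nlinarith [sq_nonneg (p - q)]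
  have e2 : ((p - q) * a) ^ 2 ≤ 2 * (p * a - q * b) ^ 2 + 2 * q ^ 2 * (a - b) ^ 2 := by
    have : (p - q) * a = (p * a - q * b) - q * (a - b) := by ring
    rw [this]
    nlinarith [sq_nonneg ((p * a - q * b) + q * (a - b))]
  have e3 : 2 * q ^ 2 * (a - b) ^ 2 ≤ 3 / 4 * (p * q) * (a ^ 2 - b ^ 2) ^ 2 := by
    have h3 : (a ^ 2 - b ^ 2) ^ 2 = (a - b) ^ 2 * (a + b) ^ 2 := by ring
    have h4 : 4 * (a - b) ^ 2 ≤ (a ^ 2 - b ^ 2) ^ 2 := by
      rw [h3]
      have : (4 : ℝ) ≤ (a + b) ^ 2 := by nlinarith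
      nlinarith [sq_nonneg (a - b)]
    have h5 : 2 * q ^ 2 ≤ 3 * (p * q) := by nlinarith
    calc 2 * q ^ 2 * (a - b) ^ 2 ≤ 3 * (p * q) * (a - b) ^ 2 := by gcongr
      _ = 3 / 4 * (p * q) * (4 * (a - b) ^ 2) := by ring
      _ ≤ _ := by gcongr
  linarith

lemma perj2 {p q a b B B' R : ℝ} (hp : 0 < p) (hq : 0 < q) (ha : 1 ≤ a) (hb : 1 ≤ b)
    (ha2 : a ^ 2 ≤ 51 / 50) (hb2 : b ^ 2 ≤ 51 / 50)
    (h1 : (p * a) ^ 2 ≤ 2 * (q * b) ^ 2) (h2 : (q * b) ^ 2 ≤ 2 * (p * a) ^ 2)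
    (hB : |B'| ≤ 11 / 10 * R) :
    (p ^ 2 * B - q ^ 2 * B') ^ 2 / (p * a) ^ 2 ≤
      3 * (p * q) * (B - B') ^ 2 + 15 * R ^ 2 * (p - q) ^ 2 := by
  have hle : ∀ s t u w : ℝ, 0 < s → 0 < t → 1 ≤ u → 1 ≤ w → u ^ 2 ≤ 51 / 50 →
      (t * w) ^ 2 ≤ 2 * (s * u) ^ 2 → t ≤ 143 / 100 * s := by
    intro s t u w hs ht hu hw hu2 h
    by_contra hcon
    rw [not_le] at hcon
    have h3 : (143 / 100 * s) ^ 2 < t ^ 2 := by gcongr
    have h4 : t ^ 2 ≤ (t * w) ^ 2 := by
      rw [mul_pow]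
      have : 1 ≤ w ^ 2 := by nlinarith
      nlinarith [sq_nonneg t]
    have h5 : (s * u) ^ 2 ≤ s ^ 2 * (51 / 50) := by
      rw [mul_pow]; gcongr
    nlinarith [sq_nonneg s]
  have hqp := hle p q a b hp hq ha hb ha2 h2
  have hpq := hle q p b a hq hp hb ha hb2 h1
  have hpa : p ^ 2 ≤ (p * a) ^ 2 := by
    rw [mul_pow]
    have : 1 ≤ a ^ 2 := by nlinarith
    nlinarith [sq_nonneg p]
  have hpa0 : 0 < (p * a) ^ 2 := by positivity
  rw [div_le_iff₀ hpa0]
  have hR2 : B' ^ 2 ≤ 121 / 100 * R ^ 2 := by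
    have h3 : |B'| ^ 2 ≤ (11 / 10 * R) ^ 2 := by gcongr
    rw [sq_abs] at h3
    linarith
  have e1 : (p ^ 2 * B - q ^ 2 * B') ^ 2 ≤
      2 * (p ^ 2 * (B - B')) ^ 2 + 2 * ((p ^ 2 - q ^ 2) * B') ^ 2 := by
    have : p ^ 2 * B - q ^ 2 * B' = p ^ 2 * (B - B') + (p ^ 2 - q ^ 2) * B' := by ring
    rw [this]
    nlinarith [sq_nonneg (p ^ 2 * (B - B') - (p ^ 2 - q ^ 2) * B')]
  have e2 : 2 * (p ^ 2 * (B - B')) ^ 2 ≤ 3 * (p * q) * (B - B') ^ 2 * p ^ 2 := by
    have h3 : 2 * p ^ 2 ≤ 3 * (p * q) := by nlinarith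
    have h4 : 0 ≤ (B - B') ^ 2 * p ^ 2 := by positivity
    calc 2 * (p ^ 2 * (B - B')) ^ 2 = 2 * p ^ 2 * ((B - B') ^ 2 * p ^ 2) := by ring
      _ ≤ 3 * (p * q) * ((B - B') ^ 2 * p ^ 2) := by gcongr
      _ = _ := by ring
  have e3 : 2 * ((p ^ 2 - q ^ 2) * B') ^ 2 ≤ 15 * R ^ 2 * (p - q) ^ 2 * p ^ 2 := by
    have h3 : (p + q) ^ 2 ≤ (243 / 100 * p) ^ 2 := by
      gcongr
      linarith
    calc 2 * ((p ^ 2 - q ^ 2) * B') ^ 2 = 2 * (p - q) ^ 2 * (p + q) ^ 2 * B' ^ 2 := by ring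
      _ ≤ 2 * (p - q) ^ 2 * (243 / 100 * p) ^ 2 * (121 / 100 * R ^ 2) := by gcongr
      _ ≤ 15 * R ^ 2 * (p - q) ^ 2 * p ^ 2 := by
        have : 0 ≤ R ^ 2 * (p - q) ^ 2 * p ^ 2 := by positivity
        nlinarith
  calc (p ^ 2 * B - q ^ 2 * B') ^ 2
      ≤ (3 * (p * q) * (B - B') ^ 2 + 15 * R ^ 2 * (p - q) ^ 2) * p ^ 2 := by linarith
    _ ≤ _ := by
      apply mul_le_mul_of_nonneg_left hpa
      positivity

/-! ### Laguerre cells -/

variable {J : Type*}

/-- The Laguerre cell of `j` in `K` for sites `y` and weights `c`. -/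
def cell (K : Set (Eu d)) (y : J → Eu d) (c : J → ℝ) (j : J) : Set (Eu d) :=
  {x ∈ K | ∀ k, ⟪x, y k⟫ - c k ≤ ⟪x, y j⟫ - c j}

lemma cell_subset (K : Set (Eu d)) (y : J → Eu d) (c : J → ℝ) (j : J) : cell K y c j ⊆ K :=
  fun _ h => h.1

lemma cell_meas {K : Set (Eu d)} (hK : IsClosed K) (y : J → Eu d) (c : J → ℝ) (j : J) :
    MeasurableSet (cell K y c j) := by
  have : cell K y c j = K ∩ ⋂ k, {x | ⟪x, y k⟫ - c k ≤ ⟪x, y j⟫ - c j} := by
    ext x; simp [cell]
  rw [this]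
  apply IsClosed.measurableSet
  apply hK.inter
  apply isClosed_iInter
  intro k
  exact isClosed_le (by fun_prop) (by fun_prop)

lemma cell_mid {K : Set (Eu d)} (hK : Convex ℝ K) (y : J → Eu d) (c c' : J → ℝ) (j : J)
    {x x' : Eu d} (hx : x ∈ cell K y c j) (hx' : x' ∈ cell K y c' j) :
    (1 / 2 : ℝ) • (x + x') ∈ cell K y (fun k => (c k + c' k) / 2) j := by
  refine ⟨?_, fun k => ?_⟩
  · have := hK hx.1 hx'.1 (a := 1 / 2) (b := 1 / 2) (by norm_num) (by norm_num) (by norm_num)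
    rwa [← smul_add] at this
  · have h1 := hx.2 k
    have h2 := hx'.2 k
    simp only [inner_smul_left, inner_add_left, conj_trivial]
    linarith

lemma cell_union [Finite J] [Nonempty J] (K : Set (Eu d)) (y : J → Eu d) (c : J → ℝ) :
    ⋃ j, cell K y c j = K := by
  apply Subset.antisymm
  · exact iUnion_subset fun j => cell_subset K y c j
  · intro x hx
    obtain ⟨j, hj⟩ := Finite.exists_max (fun k => ⟪x, y k⟫ - c k)
    exact mem_iUnion.2 ⟨j, hx, hj⟩

lemma cell_disj (K : Set (Eu d)) {y : J → Eu d} (hy : Function.Injective y) (c : J → ℝ) :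
    Pairwise (Function.onFun (AEDisjoint volume) (cell K y c)) := by
  intro j k hjk
  have hne : y j - y k ≠ 0 := sub_ne_zero.2 fun h => hjk (hy h)
  have h0 := hyper_null (y j - y k) hne (c j - c k)
  refine measure_mono_null ?_ h0
  rintro x ⟨hx, hx'⟩
  have h1 := hx.2 k
  have h2 := hx'.2 j
  show ⟪y j - y k, x⟫ = c j - c k
  rw [inner_sub_left, real_inner_comm x (y j), real_inner_comm x (y k)] at *
  linarith

lemma cell_sum [Fintype J] [Nonempty J] {K : Set (Eu d)} (hK : IsClosed K) {y : J → Eu d}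
    (hy : Function.Injective y) (c : J → ℝ) {F : Eu d → ℝ} (hF : IntegrableOn F K) :
    ∑ j, ∫ x in cell K y c j, F x = ∫ x in K, F x := by
  have h := integral_iUnion_ae (μ := volume) (s := cell K y c) (f := F)
    (fun j => (cell_meas hK y c j).nullMeasurableSet) (cell_disj K hy c)
    (by rw [cell_union]; exact hF)
  rw [cell_union, tsum_fintype] at h
  exact h.symm

end Vale.Agent.P074
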