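import Vale.Agent.P074.Defs

open MeasureTheory Set Filter Topology
open scoped ENNReal RealInnerProductSpace

namespace Vale.Agent.P074

/-- Euclidean space. -/
abbrev Eu (d : ℕ) : Type := EuclideanSpace ℝ (Fin d)

variable {d : ℕ}

lemma unif_prob {K : Set (Eu d)} (h0 : volume K ≠ 0) (h1 : volume K ≠ ∞) :
    IsProbabilityMeasure (unif K) := by
  constructor
  simp only [unif, Measure.smul_apply, Measure.restrict_apply MeasurableSet.univ, univ_inter,
    smul_eq_mul]
  exact ENNReal.inv_mul_cancel h0 h1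

lemma unif_ae {K : Set (Eu d)} (hK : MeasurableSet K) {p : Eu d → Prop}
    (h : ∀ᵐ x ∂volume, x ∈ K → p x) : ∀ᵐ x ∂(unif K), p x := by
  unfold unif
  apply Measure.ae_smul_measure
  exact (ae_restrict_iff' hK).2 h

lemma unif_ae_mem {K : Set (Eu d)} (hK : MeasurableSet K) : ∀ᵐ x ∂(unif K), x ∈ K :=
  unif_ae hK (Eventually.of_forall fun _ h => h)

lemma unif_ac (K : Set (Eu d)) : unif K ≪ volume := by
  unfold unif
  exact Measure.AbsolutelyContinuous.smul_left Measure.restrict_le_self.absolutelyContinuous _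

/-- Hyperplanes are Lebesgue-null. -/
lemma hyper_null (v : Eu d) (hv : v ≠ 0) (c : ℝ) : volume {x : Eu d | ⟪v, x⟫ = c} = 0 := by
  rcases Set.eq_empty_or_nonempty {x : Eu d | ⟪v, x⟫ = c} with h | ⟨p, hp⟩
  · rw [h]; simp
  · have hp' : ⟪v, p⟫ = c := hp
    let W : Submodule ℝ (Eu d) := LinearMap.ker (innerSL ℝ v : Eu d →ₗ[ℝ] ℝ)
    have hW : W ≠ ⊤ := by
      intro h
      have : v ∈ W := by rw [h]; trivial
      have h2 : ⟪v, v⟫ = (0 : ℝ) := by simpa [W] using this
      exact hv (inner_self_eq_zero.1 h2)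
    have h1 := Measure.addHaar_submodule (volume : Measure (Eu d)) W hW
    have h2 : {x : Eu d | ⟪v, x⟫ = c} = (fun x => x + (-p)) ⁻¹' (W : Set (Eu d)) := by
      ext x
      simp only [mem_ofPred_eq, mem_preimage, SetLike.mem_coe, W, LinearMap.mem_ker]
      show ⟪v, x⟫ = c ↔ ⟪v, x + -p⟫ = 0
      rw [inner_add_right, inner_neg_right, hp']
      constructor <;> intro h <;> linarith
    rw [h2, measure_preimage_add_right]
    exact h1

/-- Duality certificate for optimality of a map with finitely many values. -/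
lemma isMin_of_dual {ρ : Measure (Eu d)} [IsProbabilityMeasure ρ] {R : ℝ}
    (hR : ∀ᵐ x ∂ρ, ‖x‖ ≤ R) (F : Finset (Eu d)) {T : Eu d → Eu d} (hT : Measurable T)
    (hTF : ∀ x, T x ∈ F) {φ : Eu d → ℝ} (hφ : Continuous φ) {c : Eu d → ℝ} (hc : Measurable c)
    (hle : ∀ x, ∀ y ∈ F, ⟪x, y⟫ ≤ φ x + c y)
    (heq : ∀ᵐ x ∂ρ, ⟪x, T x⟫ = φ x + c (T x))
    {S : Eu d → Eu d} (hS : Measurable S) (hST : ρ.map S = ρ.map T) :
    ∫⁻ x, ENNReal.ofReal (‖x - T x‖ ^ 2) ∂ρ ≤ ∫⁻ x, ENNReal.ofReal (‖x - S x‖ ^ 2) ∂ρ := by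
  have hFm : MeasurableSet (F : Set (Eu d)) := F.measurableSet
  have hSF : ∀ᵐ x ∂ρ, S x ∈ F := by
    have h1 : ∀ᵐ y ∂(ρ.map S), y ∈ (F : Set (Eu d)) := by
      rw [hST]
      refine (ae_map_iff (p := fun y => y ∈ (F : Set (Eu d))) hT.aemeasurable hFm).2 ?_
      exact Eventually.of_forall fun x => hTF x
    exact ae_of_ae_map hS.aemeasurable h1
  -- bounds
  have bdd : ∀ f : Eu d → ℝ, ∃ M : ℝ, ∀ y ∈ F, |f y| ≤ M := by
    intro f
    refine ⟨∑ y ∈ F, |f y|, fun y hy => ?_⟩
    exact Finset.single_le_sum (f := fun y => |f y|) (fun _ _ => abs_nonneg _) hy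
  let B : Eu d → ℝ := fun y => ‖y‖ ^ 2 - 2 * c y
  have hB : Measurable B := by
    have : Measurable (fun y : Eu d => ‖y‖ ^ 2) := by fun_prop
    exact this.sub (measurable_const.mul hc)
  let A : Eu d → ℝ := fun x => ‖x‖ ^ 2 - 2 * φ x
  have hAc : Continuous A := by fun_prop
  have hA : Integrable A ρ := by
    have hcomp : IsCompact (Metric.closedBall (0 : Eu d) R) := isCompact_closedBall _ _
    obtain ⟨M, hM⟩ := hcomp.exists_bound_of_continuousOn hAc.continuousOn
    refine Integrable.of_bound (C := M) hAc.aestronglyMeasurable ?_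
    filter_upwards [hR] with x hx
    exact hM x (by simpa using hx)
  obtain ⟨MB, hMB⟩ := bdd B
  have hBT : Integrable (fun x => B (T x)) ρ :=
    Integrable.of_bound (C := MB) (hB.comp hT).aestronglyMeasurable
      (Eventually.of_forall fun x => hMB _ (hTF x))
  have hBS : Integrable (fun x => B (S x)) ρ := by
    refine Integrable.of_bound (C := MB) (hB.comp hS).aestronglyMeasurable ?_
    filter_upwards [hSF] with x hx using hMB _ hx
  have hint : ∫ x, B (S x) ∂ρ = ∫ x, B (T x) ∂ρ := by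
    rw [← integral_map hS.aemeasurable hB.aestronglyMeasurable, hST,
      integral_map hT.aemeasurable hB.aestronglyMeasurable]
  obtain ⟨MN, hMN⟩ := bdd (fun y => ‖y‖)
  have hgen : ∀ Q : Eu d → Eu d, Measurable Q → (∀ᵐ x ∂ρ, Q x ∈ F) →
      Integrable (fun x => ‖x - Q x‖ ^ 2) ρ := by
    intro Q hQ hQF
    have hm : Measurable (fun x => ‖x - Q x‖ ^ 2) := by fun_prop
    refine Integrable.of_bound (C := (R + MN) ^ 2) hm.aestronglyMeasurable ?_
    filter_upwards [hR, hQF] with x hx hxF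
    have h1 : ‖Q x‖ ≤ MN := by simpa using hMN _ hxF
    have h2 : ‖x - Q x‖ ≤ R + MN := (norm_sub_le _ _).trans (by linarith)
    have h3 := norm_nonneg (x - Q x)
    rw [Real.norm_eq_abs, abs_of_nonneg (by positivity)]
    gcongr
  have iT := hgen T hT (Eventually.of_forall hTF)
  have iS := hgen S hS hSF
  have nn : ∀ Q : Eu d → Eu d, 0 ≤ᵐ[ρ] (fun x => ‖x - Q x‖ ^ 2) := fun Q =>
    Eventually.of_forall fun x => by positivity
  rw [← ofReal_integral_eq_lintegral_ofReal iT (nn T),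
    ← ofReal_integral_eq_lintegral_ofReal iS (nn S)]
  apply ENNReal.ofReal_le_ofReal
  have e1 : ∫ x, ‖x - T x‖ ^ 2 ∂ρ = ∫ x, (A x + B (T x)) ∂ρ := by
    apply integral_congr_ae
    filter_upwards [heq] with x hx
    rw [norm_sub_sq_real]
    simp only [A, B]
    linarith
  rw [e1, integral_add hA hBT, ← hint, ← integral_add hA hBS]
  apply integral_mono_ae (hA.add hBS) iS
  filter_upwards [hSF] with x hx
  have h1 := hle x (S x) hx
  show A x + B (S x) ≤ ‖x - S x‖ ^ 2
  rw [norm_sub_sq_real]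
  simp only [A, B]
  linarith

end Vale.Agent.P074
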