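import Mathlib

open MeasureTheory
open scoped ENNReal

namespace Vale.Agent.P074

/-- The uniform probability measure on a set `K` of finite positive volume. -/
noncomputable def unif {d : ℕ} (K : Set (EuclideanSpace ℝ (Fin d))) :
    Measure (EuclideanSpace ℝ (Fin d)) :=
  (volume K)⁻¹ • volume.restrict K

/-- `T` is the quadratic optimal transport map from `ρ` to `μ`: a Borel map pushing `ρ` to `μ`
which minimises `∫ |x - T x|² dρ` among such maps, and which is `ρ`-a.e. the gradient of a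
convex function. -/
def IsOTMap {d : ℕ} (ρ μ : Measure (EuclideanSpace ℝ (Fin d)))
    (T : EuclideanSpace ℝ (Fin d) → EuclideanSpace ℝ (Fin d)) : Prop :=
  Measurable T ∧ ρ.map T = μ ∧
    (∀ S : EuclideanSpace ℝ (Fin d) → EuclideanSpace ℝ (Fin d), Measurable S → ρ.map S = μ →
      ∫⁻ x, ENNReal.ofReal (‖x - T x‖ ^ 2) ∂ρ ≤ ∫⁻ x, ENNReal.ofReal (‖x - S x‖ ^ 2) ∂ρ) ∧
    ∃ φ : EuclideanSpace ℝ (Fin d) → ℝ, ConvexOn ℝ Set.univ φ ∧
      ∀ᵐ x ∂ρ, HasGradientAt φ (T x) x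

/-- The square of the Wasserstein distance `W₂(μ, ν)`, as an infimum over couplings. -/
noncomputable def W2sq {d : ℕ} (μ ν : Measure (EuclideanSpace ℝ (Fin d))) : ℝ≥0∞ :=
  sInf {c | ∃ π : Measure (EuclideanSpace ℝ (Fin d) × EuclideanSpace ℝ (Fin d)),
    π.map Prod.fst = μ ∧ π.map Prod.snd = ν ∧
      c = ∫⁻ p, ENNReal.ofReal (‖p.1 - p.2‖ ^ 2) ∂π}

/-- The Wasserstein distance `W₂(μ, ν)`. -/
noncomputable def W2 {d : ℕ} (μ ν : Measure (EuclideanSpace ℝ (Fin d))) : ℝ :=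
  Real.sqrt (W2sq μ ν).toReal

/-- The exponent `α` is admissible in dimension `d`: for all compact convex `K` with nonempty
interior and all nonempty compact `Y` there is `C` with
`‖T_μ - T_ν‖_{L²(ρ)} ≤ C W₂(μ, ν)^α` for all probability measures `μ, ν` supported in `Y`, where
`ρ` is uniform on `K`. -/
def Admissible (d : ℕ) (α : ℝ) : Prop :=
  ∀ K : Set (EuclideanSpace ℝ (Fin d)), Convex ℝ K → IsCompact K → (interior K).Nonempty →
  ∀ Y : Set (EuclideanSpace ℝ (Fin d)), IsCompact Y → Y.Nonempty →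
  ∃ C : ℝ, ∀ μ ν : Measure (EuclideanSpace ℝ (Fin d)),
    IsProbabilityMeasure μ → IsProbabilityMeasure ν → μ Yᶜ = 0 → ν Yᶜ = 0 →
    ∀ S T : EuclideanSpace ℝ (Fin d) → EuclideanSpace ℝ (Fin d),
      IsOTMap (unif K) μ S → IsOTMap (unif K) ν T →
      Real.sqrt (∫ x, ‖S x - T x‖ ^ 2 ∂(unif K)) ≤ C * W2 μ ν ^ α

end Vale.Agent.P074
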