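import Vale.Agent.P074.Common

/-! Finite approximation of couplings. -/

open MeasureTheory Set Filter Topology
open scoped ENNReal RealInnerProductSpace

namespace Vale.Agent.P074

variable {d : ℕ}

/-- A measurable map with finite range moving the points of a compact set by less than `ε`. -/
lemma exists_q {Y : Set (Eu d)} (hY : IsCompact Y) {ε : ℝ} (hε : 0 < ε) :
    ∃ q : Eu d → Eu d, Measurable q ∧ (range q).Finite ∧ ∀ y ∈ Y, ‖q y - y‖ < ε := by
  set e := TopologicalSpace.denseSeq (Eu d) with he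
  set U : ℕ → Set (Eu d) := fun N => ⋃ k ≤ N, Metric.ball (e k) ε with hU
  have hUo : ∀ N, IsOpen (U N) := fun N => isOpen_biUnion fun _ _ => Metric.isOpen_ball
  have hcov : Y ⊆ ⋃ N, U N := by
    intro x _
    obtain ⟨k, hk⟩ := (TopologicalSpace.denseRange_denseSeq (Eu d)).exists_dist_lt x hε
    exact mem_iUnion.2 ⟨k, mem_iUnion₂.2 ⟨k, le_rfl, hk⟩⟩
  have hmono : Monotone U := by
    intro a b hab x hx
    obtain ⟨k, hk, hxk⟩ := mem_iUnion₂.1 hx
    exact mem_iUnion₂.2 ⟨k, hk.trans hab, hxk⟩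
  obtain ⟨N, hN⟩ := hY.elim_directed_cover U hUo hcov hmono.directed_le
  refine ⟨SimpleFunc.nearestPt e N, (SimpleFunc.nearestPt e N).measurable,
    (SimpleFunc.nearestPt e N).finite_range, fun y hy => ?_⟩
  obtain ⟨k, hk, hyk⟩ := mem_iUnion₂.1 (hN hy)
  have h1 := SimpleFunc.edist_nearestPt_le e y hk
  rw [edist_dist, edist_dist, ENNReal.ofReal_le_ofReal_iff dist_nonneg] at h1
  rw [← dist_eq_norm]
  rw [Metric.mem_ball, dist_comm] at hyk
  exact h1.trans_lt hyk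

/-- Integrals of functions of a map with finite range. -/
lemma fin_int {α β : Type*} [MeasurableSpace α] [MeasurableSpace β]
    [MeasurableSingletonClass β] {γ : Measure α} [IsFiniteMeasure γ] {Q : α → β}
    (hQ : Measurable Q) (hfin : (range Q).Finite) :
    ∃ F : Finset β, (∀ b ∈ F, γ (Q ⁻¹' {b}) ≠ 0) ∧ ∀ G : β → ℝ,
      ∫ a, G (Q a) ∂γ = ∑ b ∈ F, (γ (Q ⁻¹' {b})).toReal * G b := by
  classical
  refine ⟨hfin.toFinset.filter (fun b => γ (Q ⁻¹' {b}) ≠ 0), fun b hb =>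
    (Finset.mem_filter.1 hb).2, fun G => ?_⟩
  have hm : ∀ b, MeasurableSet (Q ⁻¹' {b}) := fun b => hQ (measurableSet_singleton b)
  have e1 : ∀ a, G (Q a) = ∑ b ∈ hfin.toFinset, (Q ⁻¹' {b}).indicator (fun _ => G b) a := by
    intro a
    rw [Finset.sum_eq_single (Q a)]
    · rw [indicator_of_mem]
      simp
    · intro b _ hb
      apply indicator_of_notMem
      intro h
      exact hb (by simpa using h.symm)
    · intro h
      exact absurd (by simp) h
  simp only [e1]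
  rw [integral_finsetSum _ fun b _ => (integrable_const (G b)).indicator (hm b)]
  rw [Finset.sum_filter]
  apply Finset.sum_congr rfl
  intro b _
  rw [integral_indicator_const _ (hm b), smul_eq_mul, measureReal_def]
  by_cases h : γ (Q ⁻¹' {b}) = 0
  · rw [h]; simp
  · simp [h]

/-- Any finite family can be perturbed to an injective one. -/
lemma inj_approx {J : Type*} [Fintype J] (hd : 0 < d) (a : J → Eu d) {ε : ℝ} (hε : 0 < ε) :
    ∃ y : J → Eu d, Function.Injective y ∧ ∀ j, ‖y j - a j‖ ≤ ε := by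
  classical
  set e : Eu d := EuclideanSpace.single ⟨0, hd⟩ (1 : ℝ) with he
  have hen : ‖e‖ = 1 := by rw [he]; simp
  have he0 : e ≠ 0 := by
    intro h; rw [h] at hen; simp at hen
  set k : J → ℝ := fun j => ((Fintype.equivFin J j : ℕ) : ℝ) with hk
  have hkinj : ∀ j l, j ≠ l → k j ≠ k l := by
    intro j l hjl h
    apply hjl
    apply (Fintype.equivFin J).injective
    apply Fin.ext
    simp only [hk] at h
    exact_mod_cast h
  set n : ℝ := (Fintype.card J : ℝ) + 1 with hn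
  have hn0 : 0 < n := by positivity
  have hkn : ∀ j, k j ≤ n := by
    intro j
    have h1 := (Fintype.equivFin J j).2
    have h2 : ((Fintype.equivFin J j : ℕ) : ℝ) ≤ (Fintype.card J : ℝ) := by exact_mod_cast h1.le
    simp only [hk, hn]; linarith
  have hk0 : ∀ j, 0 ≤ k j := fun j => by simp only [hk]; positivity
  set Bad : Set ℝ := ⋃ p : J × J, {t : ℝ | p.1 ≠ p.2 ∧
    a p.1 + (t * k p.1) • e = a p.2 + (t * k p.2) • e} with hBad
  have hBadfin : Bad.Finite := by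
    apply Set.finite_iUnion
    rintro ⟨j, l⟩
    apply Set.Subsingleton.finite
    rintro t ⟨hjl, ht⟩ s ⟨_, hs⟩
    simp only at hjl ht hs
    have h1 : ((t - s) * (k j - k l)) • e = 0 := by
      linear_combination (norm := module) ht - hs
    rw [smul_eq_zero] at h1
    rcases h1 with h1 | h1
    · rcases mul_eq_zero.1 h1 with h2 | h2
      · linarith
      · exact absurd (by linarith) (hkinj j l hjl)
    · exact absurd h1 he0
  have hinf : (Ioo (0 : ℝ) (ε / n)).Infinite := Set.Ioo_infinite (by positivity)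
  obtain ⟨t, ht, htB⟩ := hinf.exists_notMem_finite hBadfin
  refine ⟨fun j => a j + (t * k j) • e, ?_, ?_⟩
  · intro j l hjl
    by_contra hne
    exact htB (mem_iUnion.2 ⟨(j, l), hne, hjl⟩)
  · intro j
    have e1 : a j + (t * k j) • e - a j = (t * k j) • e := by abel
    show ‖a j + (t * k j) • e - a j‖ ≤ ε
    rw [e1, norm_smul, hen, mul_one, Real.norm_eq_abs, abs_of_nonneg
      (mul_nonneg ht.1.le (hk0 j))]
    have h2 := ht.2
    rw [lt_div_iff₀ hn0] at h2
    have h3 := mul_le_mul_of_nonneg_left (hkn j) ht.1.le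
    linarith

/-- Finite approximation of a coupling. -/
lemma discr (hd : 0 < d) {Y : Set (Eu d)} (hY : IsCompact Y) {M₀ : ℝ} (hM₀ : 0 ≤ M₀)
    (hYM : Y ⊆ Metric.closedBall 0 M₀) {μ ν : Measure (Eu d)} [IsProbabilityMeasure μ]
    (hμ : μ Yᶜ = 0) (hν : ν Yᶜ = 0) {γ : Measure (Eu d × Eu d)}
    (h1 : γ.map Prod.fst = μ) (h2 : γ.map Prod.snd = ν) {ε : ℝ} (hε : 0 < ε) (hε1 : ε ≤ 1) :
    ∃ (J : Type) (_ : Fintype J) (_ : Nonempty J) (y v : J → Eu d) (p : J → ℝ),
      Function.Injective y ∧ Function.Injective (fun j => y j + v j) ∧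
      (∀ j, ‖y j‖ ≤ M₀ + 2) ∧ (∀ j, ‖y j + v j‖ ≤ M₀ + 2) ∧ (∀ j, 0 < p j) ∧ ∑ j, p j = 1 ∧
      (∀ (χ : Eu d → ℝ) (L : ℝ), 0 ≤ L → Continuous χ → (∀ a b, |χ a - χ b| ≤ L * ‖a - b‖) →
        |∑ j, p j * χ (y j) - ∫ x, χ x ∂μ| ≤ 2 * L * ε) ∧
      (∀ (χ : Eu d → ℝ) (L : ℝ), 0 ≤ L → Continuous χ → (∀ a b, |χ a - χ b| ≤ L * ‖a - b‖) →
        |∑ j, p j * χ (y j + v j) - ∫ x, χ x ∂ν| ≤ 2 * L * ε) ∧
      ∑ j, p j * ‖v j‖ ^ 2 ≤ ∫ q, ‖q.1 - q.2‖ ^ 2 ∂γ + (16 * M₀ + 16) * ε := by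
  classical
  have hγ : IsProbabilityMeasure γ := by
    constructor
    have h3 : (γ.map Prod.fst) univ = 1 := by rw [h1]; exact measure_univ
    rwa [Measure.map_apply measurable_fst MeasurableSet.univ, preimage_univ] at h3
  have hY1 : ∀ᵐ q ∂γ, q.1 ∈ Y := by
    have h3 : ∀ᵐ x ∂(γ.map Prod.fst), x ∈ Y := by rw [h1]; exact hμ
    exact ae_of_ae_map measurable_fst.aemeasurable h3
  have hY2 : ∀ᵐ q ∂γ, q.2 ∈ Y := by
    have h3 : ∀ᵐ x ∂(γ.map Prod.snd), x ∈ Y := by rw [h2]; exact hν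
    exact ae_of_ae_map measurable_snd.aemeasurable h3
  have nrmY : ∀ x ∈ Y, ‖x‖ ≤ M₀ := fun x hx => by simpa using hYM hx
  obtain ⟨q, hqm, hqf, hq⟩ := exists_q hY hε
  set Q : Eu d × Eu d → Eu d × Eu d := fun z => (q z.1, q z.2) with hQ
  have hQm : Measurable Q := (hqm.comp measurable_fst).prodMk (hqm.comp measurable_snd)
  have hQf : (range Q).Finite := by
    apply (hqf.prod hqf).subset
    rintro _ ⟨z, rfl⟩
    exact ⟨⟨z.1, rfl⟩, ⟨z.2, rfl⟩⟩
  obtain ⟨F, hF0, hF⟩ := fin_int (γ := γ) hQm hQf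
  have hQF : ∀ b ∈ F, ∃ z : Eu d × Eu d, z.1 ∈ Y ∧ z.2 ∈ Y ∧ Q z = b := by
    intro b hb
    by_contra hcon
    push Not at hcon
    apply hF0 b hb
    have h3 : ∀ᵐ z ∂γ, ¬ z ∈ Q ⁻¹' {b} := by
      filter_upwards [hY1, hY2] with z hz1 hz2 hz
      exact hcon z hz1 hz2 hz
    have h4 := ae_iff.1 h3
    simp only [not_not] at h4
    exact h4
  set p : F → ℝ := fun j => (γ (Q ⁻¹' {j.1})).toReal with hp
  have hp0 : ∀ j, 0 < p j := fun j =>
    ENNReal.toReal_pos (hF0 j.1 j.2) (measure_ne_top γ _)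
  have hsumF : ∀ G : Eu d × Eu d → ℝ, ∑ j : F, p j * G j.1 = ∫ z, G (Q z) ∂γ := by
    intro G
    rw [hF G]
    exact Finset.sum_coe_sort F (fun b => (γ (Q ⁻¹' {b})).toReal * G b)
  have hp1 : ∑ j, p j = 1 := by
    have h3 := hsumF (fun _ => 1)
    simpa using h3
  have hne : Nonempty F := by
    by_contra hcon
    rw [not_nonempty_iff] at hcon
    rw [Finset.univ_eq_empty, Finset.sum_empty] at hp1
    exact zero_ne_one hp1
  obtain ⟨y, hyi, hya⟩ := inj_approx hd (fun j : F => j.1.1) hε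
  obtain ⟨y', hyi', hya'⟩ := inj_approx hd (fun j : F => j.1.2) hε
  have hbase : ∀ j : F, ‖j.1.1‖ ≤ M₀ + ε ∧ ‖j.1.2‖ ≤ M₀ + ε := by
    intro j
    obtain ⟨z, hz1, hz2, hz⟩ := hQF j.1 j.2
    rw [← hz]
    have a1 := hq z.1 hz1
    have a2 := hq z.2 hz2
    have b1 := nrmY z.1 hz1
    have b2 := nrmY z.2 hz2
    constructor
    · have : ‖q z.1‖ ≤ ‖q z.1 - z.1‖ + ‖z.1‖ := by
        have := norm_add_le (q z.1 - z.1) z.1
        rwa [sub_add_cancel] at this
      show ‖q z.1‖ ≤ M₀ + ε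
      linarith
    · have : ‖q z.2‖ ≤ ‖q z.2 - z.2‖ + ‖z.2‖ := by
        have := norm_add_le (q z.2 - z.2) z.2
        rwa [sub_add_cancel] at this
      show ‖q z.2‖ ≤ M₀ + ε
      linarith
  -- test functions
  have test : ∀ (π : Eu d × Eu d → Eu d) (ρ : Measure (Eu d)) (Z : F → Eu d),
      Measurable π → (∀ᵐ z ∂γ, π z ∈ Y) → γ.map π = ρ → (∀ z, π (Q z) = q (π z)) →
      (∀ j : F, ‖Z j - π j.1‖ ≤ ε) →
      ∀ (χ : Eu d → ℝ) (L : ℝ), 0 ≤ L → Continuous χ → (∀ a b, |χ a - χ b| ≤ L * ‖a - b‖) →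
        |∑ j, p j * χ (Z j) - ∫ x, χ x ∂ρ| ≤ 2 * L * ε := by
    intro π ρ Z hπ hπY hmap hπQ hZ χ L hL hχ hχL
    have e1 : ∫ x, χ x ∂ρ = ∫ z, χ (π z) ∂γ := by
      rw [← hmap, integral_map hπ.aemeasurable hχ.aestronglyMeasurable]
    have e2 : ∑ j : F, p j * χ (π j.1) = ∫ z, χ (q (π z)) ∂γ := by
      have h3 := hsumF (fun b => χ (π b))
      simp only [hπQ] at h3
      exact h3
    have b1 : |∑ j, p j * χ (Z j) - ∑ j : F, p j * χ (π j.1)| ≤ L * ε := by
      rw [← Finset.sum_sub_distrib]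
      calc |∑ j : F, (p j * χ (Z j) - p j * χ (π j.1))|
          ≤ ∑ j : F, |p j * χ (Z j) - p j * χ (π j.1)| := Finset.abs_sum_le_sum_abs _ _
        _ ≤ ∑ j : F, p j * (L * ε) := by
          apply Finset.sum_le_sum
          intro j _
          rw [← mul_sub, abs_mul, abs_of_pos (hp0 j)]
          apply mul_le_mul_of_nonneg_left _ (hp0 j).le
          refine (hχL _ _).trans ?_
          exact mul_le_mul_of_nonneg_left (hZ j) hL
        _ = L * ε := by rw [← Finset.sum_mul, hp1, one_mul]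
    have bq : ∃ Mx : ℝ, ∀ᵐ z ∂γ, |χ (π z)| ≤ Mx := by
      obtain ⟨Mx, hMx⟩ := hY.exists_bound_of_continuousOn hχ.continuousOn
      refine ⟨Mx, ?_⟩
      filter_upwards [hπY] with z hz using hMx _ hz
    obtain ⟨Mx, hMx⟩ := bq
    have i1 : Integrable (fun z => χ (π z)) γ :=
      Integrable.of_bound (C := Mx) (hχ.measurable.comp hπ).aestronglyMeasurable hMx
    have hdiff : ∀ᵐ z ∂γ, |χ (q (π z)) - χ (π z)| ≤ L * ε := by
      filter_upwards [hπY] with z hz
      exact (hχL _ _).trans (mul_le_mul_of_nonneg_left (hq _ hz).le hL)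
    have i2 : Integrable (fun z => χ (q (π z))) γ := by
      refine Integrable.of_bound (C := Mx + L * ε)
        (hχ.measurable.comp (hqm.comp hπ)).aestronglyMeasurable ?_
      filter_upwards [hMx, hdiff] with z hz1 hz2
      rw [Real.norm_eq_abs]
      have := abs_add_le (χ (q (π z)) - χ (π z)) (χ (π z))
      rw [sub_add_cancel] at this
      linarith
    have b2 : |∫ z, χ (q (π z)) ∂γ - ∫ z, χ (π z) ∂γ| ≤ L * ε := by
      rw [← integral_sub i2 i1]
      have h3 := norm_integral_le_of_norm_le_const (μ := γ) (C := L * ε)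
        (f := fun z => χ (q (π z)) - χ (π z)) hdiff
      have h4 : γ.real univ = 1 := by simp
      rw [h4, mul_one] at h3
      exact h3
    rw [e1]
    rw [e2] at b1
    have e3 : ∑ j, p j * χ (Z j) - ∫ z, χ (π z) ∂γ =
        (∑ j, p j * χ (Z j) - ∫ z, χ (q (π z)) ∂γ) +
        (∫ z, χ (q (π z)) ∂γ - ∫ z, χ (π z) ∂γ) := by ring
    rw [e3]
    refine (abs_add_le _ _).trans ?_
    linarith
  refine ⟨F, inferInstance, hne, y, fun j => y' j - y j, p, hyi, ?_, ?_, ?_, hp0, hp1, ?_, ?_, ?_⟩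
  · simpa using hyi'
  · intro j
    have h3 := hya j
    have h4 := (hbase j).1
    have h5 := norm_add_le (y j - j.1.1) j.1.1
    rw [sub_add_cancel] at h5
    linarith
  · intro j
    have h3 := hya' j
    have h4 := (hbase j).2
    have h5 := norm_add_le (y' j - j.1.2) j.1.2
    rw [sub_add_cancel] at h5
    rw [add_sub_cancel]
    linarith
  · exact test Prod.fst μ y measurable_fst hY1 h1 (fun _ => rfl) hya
  · have h3 := test Prod.snd ν y' measurable_snd hY2 h2 (fun _ => rfl) hya'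
    intro χ L hL hχ hχL
    have h4 := h3 χ L hL hχ hχL
    simpa using h4
  · have hv : ∀ j : F, ‖y' j - y j‖ ^ 2 ≤ (‖j.1.1 - j.1.2‖ + 2 * ε) ^ 2 := by
      intro j
      have h3 : y' j - y j = (y' j - j.1.2) - (y j - j.1.1) - (j.1.1 - j.1.2) := by abel
      have h4 : ‖y' j - y j‖ ≤ ‖j.1.1 - j.1.2‖ + 2 * ε := by
        rw [h3]
        have a1 := norm_sub_le ((y' j - j.1.2) - (y j - j.1.1)) (j.1.1 - j.1.2)
        have a2 := norm_sub_le (y' j - j.1.2) (y j - j.1.1)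
        have a3 := hya j
        have a4 := hya' j
        linarith
      gcongr
    have e1 : ∑ j : F, p j * (‖j.1.1 - j.1.2‖ + 2 * ε) ^ 2 =
        ∫ z, (‖q z.1 - q z.2‖ + 2 * ε) ^ 2 ∂γ :=
      hsumF (fun b => (‖b.1 - b.2‖ + 2 * ε) ^ 2)
    have i1 : Integrable (fun z : Eu d × Eu d => ‖z.1 - z.2‖ ^ 2) γ := by
      refine Integrable.of_bound (C := (M₀ + M₀) ^ 2)
        (Measurable.aestronglyMeasurable (by fun_prop)) ?_
      filter_upwards [hY1, hY2] with z hz1 hz2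
      rw [Real.norm_eq_abs, abs_of_nonneg (sq_nonneg _)]
      have a1 := norm_sub_le z.1 z.2
      have a2 := nrmY _ hz1
      have a3 := nrmY _ hz2
      gcongr
      linarith
    have e2 : ∫ z, (‖q z.1 - q z.2‖ + 2 * ε) ^ 2 ∂γ ≤
        ∫ z, (‖z.1 - z.2‖ ^ 2 + (16 * M₀ + 16) * ε) ∂γ := by
      apply integral_mono_of_nonneg (Eventually.of_forall fun z => sq_nonneg _)
        (i1.add (integrable_const _))
      filter_upwards [hY1, hY2] with z hz1 hz2
      have a1 := hq _ hz1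
      have a2 := hq _ hz2
      have a3 : ‖q z.1 - q z.2‖ ≤ ‖z.1 - z.2‖ + 2 * ε := by
        have h3 : q z.1 - q z.2 = (q z.1 - z.1) - (q z.2 - z.2) + (z.1 - z.2) := by abel
        rw [h3]
        have b1 := norm_add_le ((q z.1 - z.1) - (q z.2 - z.2)) (z.1 - z.2)
        have b2 := norm_sub_le (q z.1 - z.1) (q z.2 - z.2)
        linarith
      have a4 : ‖z.1 - z.2‖ ≤ 2 * M₀ := by
        have b1 := norm_sub_le z.1 z.2
        have b2 := nrmY _ hz1
        have b3 := nrmY _ hz2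
        linarith
      show (‖q z.1 - q z.2‖ + 2 * ε) ^ 2 ≤ ‖z.1 - z.2‖ ^ 2 + (16 * M₀ + 16) * ε
      have a5 : (‖q z.1 - q z.2‖ + 2 * ε) ^ 2 ≤ (‖z.1 - z.2‖ + 4 * ε) ^ 2 := by
        gcongr ?_ ^ 2
        linarith
      have a6 : 0 ≤ ‖z.1 - z.2‖ := norm_nonneg _
      nlinarith
    rw [integral_add i1 (integrable_const _), integral_const] at e2
    have e3 : γ.real univ = 1 := by simp
    rw [e3, one_smul] at e2
    calc ∑ j : F, p j * ‖y' j - y j‖ ^ 2 ≤ ∑ j : F, p j * (‖j.1.1 - j.1.2‖ + 2 * ε) ^ 2 :=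
          Finset.sum_le_sum fun j _ => mul_le_mul_of_nonneg_left (hv j) (hp0 j).le
      _ ≤ _ := by rw [e1]; exact e2

end Vale.Agent.P074
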