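import Vale.Agent.P074.Stab

/-! Stability of the potentials at generic masses, via Rademacher's theorem. -/

open MeasureTheory Set Filter Topology
open scoped ENNReal RealInnerProductSpace

namespace Vale.Agent.P074

variable {d : ℕ} {J : Type*} [Fintype J] [Nonempty J]

/-- A function bounded above to the right by a line has derivative at most the slope. -/
lemma deriv_le_of_right {F : ℝ → ℝ} {S L δ : ℝ} (hF : HasDerivAt F S 0) (hδ : 0 < δ)
    (h : ∀ t, 0 < t → t < δ → F t - F 0 ≤ t * L) : S ≤ L := by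
  have h1 : Tendsto (slope F 0) (𝓝[>] 0) (𝓝 S) :=
    (hasDerivWithinAt_iff_tendsto_slope' (by simp)).1 (hF.hasDerivWithinAt (s := Ioi 0))
  refine le_of_tendsto h1 ?_
  filter_upwards [Ioo_mem_nhdsGT hδ] with t ht
  rw [slope_def_field, sub_zero, div_le_iff₀ ht.1]
  have := h t ht.1 ht.2
  linarith

/-- The derivative of a value function is given by the weights. -/
lemma deriv_of_upper {F : ℝ → ℝ} {S L : ℝ} (hF : HasDerivAt F S 0)
    (h : ∀ t, F t ≤ F 0 + t * L) : S = L := by
  have h1 : HasDerivAt (fun t => F t - t * L) (S - L) 0 := by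
    have h2 : HasDerivAt (fun t : ℝ => t * L) (1 * L) 0 := (hasDerivAt_id (0 : ℝ)).mul_const L
    rw [one_mul] at h2
    exact hF.sub h2
  have h3 : IsLocalMax (fun t => F t - t * L) 0 := by
    refine Eventually.of_forall fun t => ?_
    have := h t
    show F t - t * L ≤ F 0 - 0 * L
    linarith
  have := h3.hasDerivAt_eq_zero h1
  linarith

/-- The `L²` bound for the difference of potentials. -/
lemma potdiff {K : Set (Eu d)} (hK : IsCompact K) {R : ℝ} (hKR : K ⊆ Metric.closedBall 0 R)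
    {y v : J → Eu d} (hy : Function.Injective y)
    (hy' : Function.Injective (fun j => y j + v j)) {m c c' : J → ℝ} (hm : ∀ j, 0 < m j)
    (hc : ∀ j, ∫ _ in cell K y c j, (1 : ℝ) = m j)
    (hc' : ∀ j, ∫ _ in cell K (fun j => y j + v j) c' j, (1 : ℝ) = m j) (z : ℝ) :
    ∫ x in K, (pot y c x - pot (fun j => y j + v j) c' x - z) ^ 2 ≤
      4 * R ^ 2 * (∑ j, m j * ‖v j‖ ^ 2) + 4 * ∑ j, m j * (c' j - c j - z) ^ 2 := by
  set y' := fun j => y j + v j with hy'def
  set h : Eu d → ℝ := fun x => pot y c x - pot y' c' x - z with hh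
  have hcont : Continuous h := by
    have := pot_cont y c
    have := pot_cont y' c'
    fun_prop
  set b : J → ℝ := fun j => R * ‖v j‖ + |c' j - c j - z| with hb
  have nrm : ∀ x ∈ K, ‖x‖ ≤ R := by
    intro x hx
    simpa using hKR hx
  have u1 : ∀ j, ∀ x ∈ cell K y c j, h x ≤ b j := by
    intro j x hx
    have h1 := pot_cell hx
    have h2 := pot_ge y' c' x j
    have h3 : -⟪x, v j⟫ ≤ R * ‖v j‖ := by
      calc -⟪x, v j⟫ ≤ |⟪x, v j⟫| := neg_le_abs _
        _ ≤ ‖x‖ * ‖v j‖ := abs_real_inner_le_norm _ _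
        _ ≤ R * ‖v j‖ := by gcongr; exact nrm x hx.1
    have h4 := le_abs_self (c' j - c j - z)
    simp only [hh, hb]
    rw [h1]
    simp only [hy'def] at h2
    rw [inner_add_right] at h2
    linarith
  have u2 : ∀ j, ∀ x ∈ cell K y' c' j, -h x ≤ b j := by
    intro j x hx
    have h1 := pot_cell hx
    have h2 := pot_ge y c x j
    have h3 : ⟪x, v j⟫ ≤ R * ‖v j‖ := by
      calc ⟪x, v j⟫ ≤ ‖x‖ * ‖v j‖ := real_inner_le_norm _ _
        _ ≤ R * ‖v j‖ := by gcongr; exact nrm x hx.1
    have h4 := neg_abs_le (c' j - c j - z)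
    simp only [hh, hb]
    rw [h1]
    simp only [hy'def]
    rw [inner_add_right]
    linarith
  have hb0 : ∀ j, 0 ≤ b j ∨ cell K y c j = ∅ := by
    intro j
    rcases (cell K y c j).eq_empty_or_nonempty with h | ⟨x, hx⟩
    · exact Or.inr h
    · left
      have : 0 ≤ R := (norm_nonneg x).trans (nrm x hx.1)
      positivity
  have hR0 : 0 ≤ R := by
    have j : J := Classical.arbitrary J
    rcases (cell K y c j).eq_empty_or_nonempty with h | ⟨x, hx⟩
    · have h1 := hc j
      rw [h] at h1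
      simp only [Measure.restrict_empty, integral_zero_measure] at h1
      have := hm j
      linarith
    · exact (norm_nonneg x).trans (nrm x hx.1)
  have hb1 : ∀ j, 0 ≤ b j := fun j => by positivity
  have gen : ∀ (Y : J → Eu d) (e : J → ℝ), Function.Injective Y →
      (∀ j, ∫ _ in cell K Y e j, (1 : ℝ) = m j) → ∀ g : Eu d → ℝ, Continuous g →
      (∀ j, ∀ x ∈ cell K Y e j, g x ≤ b j) →
      ∫ x in K, (max (g x) 0) ^ 2 ≤ ∑ j, m j * b j ^ 2 := by
    intro Y e hY hvol g hg hgb
    rw [← cell_sum hK.isClosed hY e (intK hK (by fun_prop))]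
    apply Finset.sum_le_sum
    intro j _
    have e1 : m j * b j ^ 2 = ∫ _ in cell K Y e j, b j ^ 2 * 1 := by
      rw [integral_const_mul, hvol j]; ring
    rw [e1]
    have iC : ∀ {g : Eu d → ℝ}, Continuous g → IntegrableOn g (cell K Y e j) :=
      fun hg => (intK hK hg).mono_set (cell_subset K Y e j)
    apply setIntegral_mono_on (iC (by fun_prop)) (iC (by fun_prop))
      (cell_meas hK.isClosed Y e j)
    intro x hx
    rw [mul_one]
    have h1 : max (g x) 0 ≤ b j := max_le (hgb j x hx) (hb1 j)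
    have h2 : 0 ≤ max (g x) 0 := le_max_right _ _
    gcongr
  have g1 := gen y c hy hc h hcont u1
  have g2 := gen y' c' hy' hc' (fun x => -h x) hcont.neg u2
  have e1 : ∫ x in K, h x ^ 2 =
      (∫ x in K, (max (h x) 0) ^ 2) + ∫ x in K, (max (-h x) 0) ^ 2 := by
    rw [← integral_add (intK hK (by fun_prop)) (intK hK (by fun_prop))]
    congr 1
    ext x
    rcases le_total 0 (h x) with h1 | h1
    · rw [max_eq_left h1, max_eq_right (by linarith)]; ring
    · rw [max_eq_right h1, max_eq_left (by linarith)]; ring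
  have e2 : ∑ j, m j * b j ^ 2 ≤
      2 * R ^ 2 * (∑ j, m j * ‖v j‖ ^ 2) + 2 * ∑ j, m j * (c' j - c j - z) ^ 2 := by
    rw [Finset.mul_sum, Finset.mul_sum, ← Finset.sum_add_distrib]
    apply Finset.sum_le_sum
    intro j _
    have h1 : b j ^ 2 ≤ 2 * (R * ‖v j‖) ^ 2 + 2 * (c' j - c j - z) ^ 2 := by
      simp only [hb]
      rw [← sq_abs (c' j - c j - z)]
      nlinarith [sq_nonneg (R * ‖v j‖ - |c' j - c j - z|)]
    calc m j * b j ^ 2 ≤ m j * (2 * (R * ‖v j‖) ^ 2 + 2 * (c' j - c j - z) ^ 2) :=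
          mul_le_mul_of_nonneg_left h1 (hm j).le
      _ = _ := by ring
  rw [e1]
  linarith

/-- The main finite-dimensional stability theorem: for masses arbitrarily close to the given
ones, the two Laguerre potentials are close in `L²`. -/
lemma generic {K : Set (Eu d)} (hKc : Convex ℝ K) (hK : IsCompact K) {R M : ℝ} (hR : 0 < R)
    (hKR : K ⊆ Metric.closedBall 0 R) {y v : J → Eu d} (hy : Function.Injective y)
    (hy' : Function.Injective (fun j => y j + v j)) (hM : ∀ j, ‖y j‖ ≤ M)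
    (hM' : ∀ j, ‖y j + v j‖ ≤ M) {m : J → ℝ} (hm : ∀ j, 0 < m j)
    (hsum : ∑ j, m j = ∫ _ in K, (1 : ℝ)) {η : ℝ} (hη : 0 < η) :
    ∃ m' : J → ℝ, (∀ j, 0 < m' j) ∧ (∑ j, m' j = ∫ _ in K, (1 : ℝ)) ∧
      (∀ j, |m' j - m j| ≤ η) ∧ ∃ c c' : J → ℝ,
      (∀ j, ∫ _ in cell K y c j, (1 : ℝ) = m' j) ∧
      (∀ j, ∫ _ in cell K (fun j => y j + v j) c' j, (1 : ℝ) = m' j) ∧
      ∃ z : ℝ, ∫ x in K, (pot y c x - pot (fun j => y j + v j) c' x - z) ^ 2 ≤
        4904 * R ^ 2 * ∑ j, m' j * ‖v j‖ ^ 2 := by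
  classical
  set y' := fun j => y j + v j with hy'def
  set κ := ∫ _ in K, (1 : ℝ) with hκ
  have j₀ : J := Classical.arbitrary J
  set B := 2 * R * M + 1 with hB
  have hM0 : 0 ≤ M := (norm_nonneg _).trans (hM j₀)
  have hB0 : 0 ≤ B := by positivity
  have hBlt : 2 * R * M < B := by linarith
  set G0 := Gv K y j₀ B with hG0
  set G1 := Gv K y' j₀ B with hG1
  -- generic masses
  have hae : ∀ᵐ n ∂(volume : Measure (J → ℝ)), DifferentiableAt ℝ G0 n ∧ DifferentiableAt ℝ G1 n :=
    (Gv_lip hK y j₀ hB0).ae_differentiableAt.and (Gv_lip hK y' j₀ hB0).ae_differentiableAt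
  have hdense := Measure.dense_of_ae hae
  obtain ⟨j₁, hj₁⟩ := Finite.exists_min m
  have hn : (0 : ℝ) < Fintype.card J := by exact_mod_cast Fintype.card_pos
  have hn1 : (1 : ℝ) ≤ Fintype.card J := by exact_mod_cast Fintype.card_pos
  set δ := min η (m j₁) / (4 * Fintype.card J) with hδ
  have hmin0 : 0 < min η (m j₁) := lt_min hη (hm j₁)
  have hδ0 : 0 < δ := by positivity
  obtain ⟨n, hn', hdist⟩ := hdense.exists_dist_lt m hδ0
  obtain ⟨hd0, hd1⟩ := hn'
  have hnj : ∀ j, |n j - m j| ≤ δ := by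
    intro j
    have := dist_le_pi_dist m n j
    rw [Real.dist_eq, abs_sub_comm] at this
    exact this.trans hdist.le
  set m' : J → ℝ := n + Pi.single j₀ (κ - ∑ j, n j) with hm'
  have hm'j : ∀ j, j ≠ j₀ → m' j = n j := by
    intro j hj
    rw [hm', Pi.add_apply, Pi.single_eq_of_ne hj, add_zero]
  have hm'0 : m' j₀ = n j₀ + (κ - ∑ j, n j) := by
    rw [hm', Pi.add_apply, Pi.single_eq_same]
  have hsum' : ∑ j, m' j = κ := by
    have : ∑ j, m' j = ∑ j, n j + ∑ j, (Pi.single j₀ (κ - ∑ j, n j) : J → ℝ) j := by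
      rw [← Finset.sum_add_distrib]; rfl
    rw [this, Finset.sum_pi_single']
    simp
  have htot : |κ - ∑ j, n j| ≤ Fintype.card J * δ := by
    rw [← hsum, ← Finset.sum_sub_distrib]
    calc |∑ j, (m j - n j)| ≤ ∑ j, |m j - n j| := Finset.abs_sum_le_sum_abs _ _
      _ ≤ ∑ _ : J, δ := Finset.sum_le_sum fun j _ => by rw [abs_sub_comm]; exact hnj j
      _ = _ := by rw [Finset.sum_const, Finset.card_univ, nsmul_eq_mul]
  have hclose : ∀ j, |m' j - m j| ≤ min η (m j₁) / 2 := by
    have h2δ : δ + Fintype.card J * δ ≤ min η (m j₁) / 2 := by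
      have h3 : δ ≤ Fintype.card J * δ := by nlinarith
      have h4 : (Fintype.card J : ℝ) * δ = min η (m j₁) / 4 := by
        rw [hδ]; field_simp
      linarith
    intro j
    rcases eq_or_ne j j₀ with rfl | hj
    · have e : m' j - m j = (n j - m j) + (κ - ∑ j, n j) := by rw [hm'0]; ring
      rw [e]
      exact (abs_add_le _ _).trans ((add_le_add (hnj j) htot).trans h2δ)
    · rw [hm'j j hj]
      refine (hnj j).trans (le_trans ?_ h2δ)
      have : 0 ≤ (Fintype.card J : ℝ) * δ := by positivity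
      linarith
  have hm'pos : ∀ j, 0 < m' j := by
    intro j
    have h3 := (abs_le.1 (hclose j)).1
    have h4 : min η (m j₁) ≤ m j₁ := min_le_right _ _
    have h5 := hj₁ j
    have h6 := hm j₁
    linarith
  have hm'η : ∀ j, |m' j - m j| ≤ η := by
    intro j
    have h4 : min η (m j₁) ≤ η := min_le_left _ _
    have := hclose j
    linarith
  -- minimisers
  obtain ⟨c, hc, hcmin⟩ := exists_minc hK y m' j₀ hB0
  obtain ⟨c', hc', hcmin'⟩ := exists_minc hK y' m' j₀ hB0
  have hvol := weights hK hy hKR hR.le hM hBlt hm'pos hsum' hc hcmin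
  have hvol' := weights hK hy' hKR hR.le hM' hBlt hm'pos hsum' hc' hcmin'
  set Z : J → ℝ := fun j => c' j - c j with hZ
  set W := ∑ j, m' j * ‖v j‖ ^ 2 with hW
  have hW0 : 0 ≤ W := Finset.sum_nonneg fun j _ => mul_nonneg (hm'pos j).le (by positivity)
  -- directional derivatives
  have hdir : ∀ w : J → ℝ, ∑ j, w j = 0 → ∑ j, w j * Z j ≤
      35 * R * Real.sqrt W * Real.sqrt (∑ j, w j ^ 2 / m' j) := by
    intro w hw
    have hG : ∀ (Y : J → Eu d) (t : ℝ), Gv K Y j₀ B (n + t • w) = Gv K Y j₀ B (m' + t • w) := by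
      intro Y t
      apply Gv_congr
      intro j hj
      rw [Pi.add_apply, Pi.add_apply, hm'j j hj]
    have hG' : ∀ (Y : J → Eu d), Gv K Y j₀ B n = Gv K Y j₀ B m' := by
      intro Y
      apply Gv_congr
      intro j hj
      rw [hm'j j hj]
    have D0 : HasDerivAt (fun t : ℝ => G0 (n + t • w)) (fderiv ℝ G0 n w) 0 :=
      hd0.hasFDerivAt.hasLineDerivAt w
    have D1 : HasDerivAt (fun t : ℝ => G1 (n + t • w)) (fderiv ℝ G1 n w) 0 :=
      hd1.hasFDerivAt.hasLineDerivAt w
    have E0 : fderiv ℝ G0 n w = ∑ j, w j * c j := by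
      apply deriv_of_upper D0
      intro t
      show Gv K y j₀ B (n + t • w) ≤ Gv K y j₀ B (n + (0 : ℝ) • w) + t * ∑ j, w j * c j
      rw [hG, zero_smul, add_zero, hG']
      have h3 := Gv_add hK y j₀ m' (t • w) hc hcmin
      rw [Finset.mul_sum]
      refine h3.trans (le_of_eq ?_)
      congr 1
      apply Finset.sum_congr rfl
      intro j _
      rw [Pi.smul_apply, smul_eq_mul]; ring
    have E1 : fderiv ℝ G1 n w = ∑ j, w j * c' j := by
      apply deriv_of_upper D1
      intro t
      show Gv K y' j₀ B (n + t • w) ≤ Gv K y' j₀ B (n + (0 : ℝ) • w) + t * ∑ j, w j * c' j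
      rw [hG, zero_smul, add_zero, hG']
      have h3 := Gv_add hK y' j₀ m' (t • w) hc' hcmin'
      rw [Finset.mul_sum]
      refine h3.trans (le_of_eq ?_)
      congr 1
      apply Finset.sum_congr rfl
      intro j _
      rw [Pi.smul_apply, smul_eq_mul]; ring
    have DD := D1.sub D0
    have e1 : fderiv ℝ G1 n w - fderiv ℝ G0 n w = ∑ j, w j * Z j := by
      rw [E0, E1, ← Finset.sum_sub_distrib]
      apply Finset.sum_congr rfl
      intro j _
      simp only [hZ]; ring
    rw [e1] at DD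
    -- small times
    obtain ⟨j₂, hj₂⟩ := Finite.exists_min m'
    set A := ∑ j, |w j| + 1 with hA
    have hA0 : 0 < A := by positivity
    have hwA : ∀ j, |w j| ≤ A := by
      intro j
      have := Finset.single_le_sum (f := fun j => |w j|) (fun _ _ => abs_nonneg _)
        (Finset.mem_univ j)
      simp only [hA]
      linarith
    have hδ1 : 0 < m' j₂ / (2 * A) := div_pos (hm'pos j₂) (by positivity)
    apply deriv_le_of_right DD hδ1
    intro t ht0 ht1
    rw [lt_div_iff₀ (by positivity)] at ht1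
    have hsmall : ∀ j, |(t • w) j| ≤ m' j / 2 := by
      intro j
      rw [Pi.smul_apply, smul_eq_mul, abs_mul, abs_of_pos ht0]
      have h3 : t * |w j| ≤ t * A := mul_le_mul_of_nonneg_left (hwA j) ht0.le
      have h4 := hj₂ j
      linarith
    have q1 : ∀ j, 0 < (m' + t • w) j := by
      intro j
      have h3 := (abs_le.1 (hsmall j)).1
      rw [Pi.add_apply]
      have := hm'pos j
      linarith
    have q2 : ∑ j, (m' + t • w) j = κ := by
      simp only [Pi.add_apply, Pi.smul_apply, smul_eq_mul]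
      rw [Finset.sum_add_distrib, ← Finset.mul_sum, hw, mul_zero, add_zero]
      exact hsum'
    have h3 := gdiff hKc hK hR hKR hy hy' hM hM' hBlt (j₀ := j₀) hm'pos q1 hsum' q2
      (fun j => by
        have h3 := (abs_le.1 (hsmall j)).1
        rw [Pi.add_apply]
        have := hm'pos j
        linarith)
      (fun j => by
        have h3 := (abs_le.1 (hsmall j)).2
        rw [Pi.add_apply]
        have := hm'pos j
        linarith)
    have e2 : Real.sqrt (∑ j, (m' j - (m' + t • w) j) ^ 2 / m' j) =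
        t * Real.sqrt (∑ j, w j ^ 2 / m' j) := by
      have e3 : ∑ j, (m' j - (m' + t • w) j) ^ 2 / m' j = t ^ 2 * ∑ j, w j ^ 2 / m' j := by
        rw [Finset.mul_sum]
        apply Finset.sum_congr rfl
        intro j _
        rw [Pi.add_apply, Pi.smul_apply, smul_eq_mul]; ring
      rw [e3, Real.sqrt_mul (sq_nonneg _), Real.sqrt_sq ht0.le]
    rw [e2] at h3
    show (Gv K y' j₀ B (n + t • w) - Gv K y j₀ B (n + t • w)) -
      (Gv K y' j₀ B (n + (0 : ℝ) • w) - Gv K y j₀ B (n + (0 : ℝ) • w)) ≤ _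
    rw [hG, hG, zero_smul, add_zero, hG', hG']
    calc _ ≤ _ := h3
      _ = _ := by ring
  -- variance bound
  have hκ0 : 0 < κ := by
    rw [← hsum']
    exact Finset.sum_pos (fun j _ => hm'pos j) Finset.univ_nonempty
  set zb := (∑ j, m' j * Z j) / κ with hzb
  have hcent : ∑ j, m' j * (Z j - zb) = 0 := by
    have : ∑ j, m' j * (Z j - zb) = ∑ j, m' j * Z j - zb * ∑ j, m' j := by
      rw [Finset.mul_sum, ← Finset.sum_sub_distrib]
      apply Finset.sum_congr rfl
      intro j _; ring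
    rw [this, hsum', hzb]; field_simp; ring
  set Vv := ∑ j, m' j * (Z j - zb) ^ 2 with hVv
  have hVv0 : 0 ≤ Vv := Finset.sum_nonneg fun j _ => mul_nonneg (hm'pos j).le (sq_nonneg _)
  have hvar : Vv ≤ 35 * R * Real.sqrt W * Real.sqrt Vv := by
    have h3 := hdir (fun j => m' j * (Z j - zb)) hcent
    have e1 : ∑ j, m' j * (Z j - zb) * Z j = Vv := by
      have : ∑ j, m' j * (Z j - zb) * Z j = Vv + zb * ∑ j, m' j * (Z j - zb) := by
        rw [Finset.mul_sum, hVv, ← Finset.sum_add_distrib]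
        apply Finset.sum_congr rfl
        intro j _; ring
      rw [this, hcent]; ring
    have e2 : ∑ j, (m' j * (Z j - zb)) ^ 2 / m' j = Vv := by
      rw [hVv]
      apply Finset.sum_congr rfl
      intro j _
      have := hm'pos j
      field_simp
    rw [e1, e2] at h3
    exact h3
  have hvar2 : Vv ≤ 1225 * R ^ 2 * W := by
    rcases hVv0.eq_or_lt with h0 | h0
    · rw [← h0]; positivity
    · have hs : 0 < Real.sqrt Vv := Real.sqrt_pos.2 h0
      have h3 : Real.sqrt Vv * Real.sqrt Vv = Vv := Real.mul_self_sqrt hVv0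
      have h4 : Real.sqrt Vv ≤ 35 * R * Real.sqrt W := by
        apply le_of_mul_le_mul_right _ hs
        rw [h3]; exact hvar
      have h5 : Real.sqrt W * Real.sqrt W = W := Real.mul_self_sqrt hW0
      calc Vv = Real.sqrt Vv * Real.sqrt Vv := h3.symm
        _ ≤ (35 * R * Real.sqrt W) * (35 * R * Real.sqrt W) := by gcongr
        _ = 1225 * R ^ 2 * (Real.sqrt W * Real.sqrt W) := by ring
        _ = _ := by rw [h5]
  refine ⟨m', hm'pos, hsum', hm'η, c, c', hvol, hvol', zb, ?_⟩
  have h3 := potdiff hK hKR hy hy' hm'pos hvol hvol' zb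
  refine h3.trans ?_
  have h4 : ∑ j, m' j * (c' j - c j - zb) ^ 2 = Vv := rfl
  rw [h4, ← hW]
  linarith

end Vale.Agent.P074
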