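import Vale.Agent.P074.Trans
import Vale.Agent.P074.Generic

/-! Potentials of optimal maps, and the maps attached to Laguerre cells. -/

open MeasureTheory Set Filter Topology
open scoped ENNReal RealInnerProductSpace

namespace Vale.Agent.P074

variable {d : ℕ}

lemma unif_ae_iff {K : Set (Eu d)} (hK : volume K ≠ ∞) {p : Eu d → Prop} :
    (∀ᵐ x ∂(unif K), p x) ↔ ∀ᵐ x ∂(volume.restrict K), p x := by
  unfold unif
  exact Measure.ae_ennreal_smul_measure_iff (ENNReal.inv_ne_zero.2 hK)

/-- The gradient of a convex function is a subgradient. -/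
lemma subgrad {φ : Eu d → ℝ} (hφ : ConvexOn ℝ univ φ) {g x : Eu d} (h : HasGradientAt φ g x)
    (z : Eu d) : φ x + ⟪g, z - x⟫ ≤ φ z := by
  have h1 := (h.hasFDerivAt.hasLineDerivAt (z - x))
  have h2 : HasDerivAt (fun t : ℝ => φ (x + t • (z - x))) ⟪g, z - x⟫ 0 := h1
  have h3 : ⟪g, z - x⟫ ≤ φ z - φ x := by
    apply deriv_le_of_right h2 one_pos
    intro t ht0 ht1
    have h4 := hφ.2 (mem_univ x) (mem_univ z) (show (0 : ℝ) ≤ 1 - t by linarith) ht0.le
      (by ring)
    have e : (1 - t) • x + t • z = x + t • (z - x) := by module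
    rw [e] at h4
    simp only [smul_eq_mul] at h4
    show φ (x + t • (z - x)) - φ (x + (0 : ℝ) • (z - x)) ≤ t * (φ z - φ x)
    rw [zero_smul, add_zero]
    linarith
  linarith

/-- Optimal maps admit Lipschitz potentials. -/
lemma exists_pot {K : Set (Eu d)} (hK : IsCompact K) (hvol : volume K ≠ 0) {M : ℝ}
    {Y : Set (Eu d)} (hY : Y ⊆ Metric.closedBall 0 M) {μ : Measure (Eu d)} (hμ : μ Yᶜ = 0)
    {T : Eu d → Eu d} (hT : IsOTMap (unif K) μ T) : ∃ φ, Pot K M φ T := by
  obtain ⟨hTm, hmap, _, φ, hφ, hgrad⟩ := hT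
  have hfin : volume K ≠ ∞ := hK.measure_lt_top.ne
  rw [unif_ae_iff hfin] at hgrad
  have hTY : ∀ᵐ x ∂(volume.restrict K), ‖T x‖ ≤ M := by
    rw [← unif_ae_iff hfin]
    have h1 : ∀ᵐ y ∂((unif K).map T), y ∈ Y := by
      rw [hmap]; exact hμ
    have h2 := ae_of_ae_map hTm.aemeasurable h1
    filter_upwards [h2] with x hx
    simpa using hY hx
  have hae : ∀ᵐ x ∂(volume.restrict K), HasGradientAt φ (T x) x ∧ ‖T x‖ ≤ M := hgrad.and hTY
  set S : Set (Eu d) := {x | HasGradientAt φ (T x) x ∧ ‖T x‖ ≤ M} with hS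
  have hne : S.Nonempty := by
    by_contra hcon
    rw [Set.not_nonempty_iff_eq_empty] at hcon
    have h1 : ∀ᵐ x ∂(volume.restrict K), x ∈ S := hae
    rw [hcon] at h1
    have h2 : (volume.restrict K) univ = 0 := by
      have := ae_iff.1 h1
      simpa using this
    rw [Measure.restrict_apply_univ] at h2
    exact hvol h2
  have hneS : Nonempty S := hne.to_subtype
  set ψ : Eu d → ℝ := fun z => ⨆ x : S, (φ x + ⟪T x, z - x⟫) with hψ
  have hsub : ∀ x : S, ∀ z, φ x + ⟪T x, z - x⟫ ≤ φ z := fun x z => subgrad hφ x.2.1 z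
  have hbdd : ∀ z, BddAbove (range fun x : S => φ x + ⟪T x, z - x⟫) := by
    intro z
    refine ⟨φ z, ?_⟩
    rintro _ ⟨x, rfl⟩
    exact hsub x z
  have hge : ∀ (x : S) z, φ x + ⟪T x, z - x⟫ ≤ ψ z := fun x z => le_ciSup (hbdd z) x
  have hle : ∀ z, ψ z ≤ φ z := fun z => ciSup_le fun x => hsub x z
  have heq : ∀ x : S, ψ x = φ x := by
    intro x
    apply le_antisymm (hle x)
    have := hge x x
    rwa [sub_self, inner_zero_right, add_zero] at this
  refine ⟨ψ, ?_, ?_⟩
  · have key : ∀ a b : Eu d, ψ a - ψ b ≤ M * ‖a - b‖ := by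
      intro a b
      rw [sub_le_iff_le_add]
      apply ciSup_le
      intro x
      have h1 := hge x b
      have h2 : ⟪T x, a - b⟫ ≤ M * ‖a - b‖ := by
        calc ⟪T x, a - b⟫ ≤ ‖T x‖ * ‖a - b‖ := real_inner_le_norm _ _
          _ ≤ M * ‖a - b‖ := by gcongr; exact x.2.2
      have e : ⟪T x, a - (x : Eu d)⟫ = ⟪T x, b - (x : Eu d)⟫ + ⟪T x, a - b⟫ := by
        rw [← inner_add_right]; congr 1; abel
      rw [e]
      linarith
    intro a b
    rw [abs_le]
    have h1 := key a b
    have h2 := key b a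
    rw [norm_sub_rev] at h2
    constructor <;> linarith
  · filter_upwards [hae] with x hx z
    have h1 := hge ⟨x, hx⟩ z
    have h2 := heq ⟨x, hx⟩
    rw [h2]
    exact h1

/-! ### Laguerre maps -/

section

variable {J : Type*} [Fintype J] [Nonempty J]

/-- The map sending the cell of `j` to the site `y j`. -/
noncomputable def lag (K : Set (Eu d)) (y : J → Eu d) (c : J → ℝ) (x : Eu d) : Eu d :=
  ∑ j, (cell K y c j).indicator (fun _ => y j) x

lemma lag_meas {K : Set (Eu d)} (hK : IsClosed K) (y : J → Eu d) (c : J → ℝ) :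
    Measurable (lag K y c) := by
  unfold lag
  apply Finset.measurable_sum
  intro j _
  exact measurable_const.indicator (cell_meas hK y c j)

lemma lag_ae (K : Set (Eu d)) {y : J → Eu d} (hy : Function.Injective y)
    (c : J → ℝ) : ∀ᵐ x ∂volume, ∀ j, x ∈ cell K y c j → lag K y c x = y j := by
  classical
  have h1 : ∀ j k : J, j ≠ k → ∀ᵐ x ∂volume, ¬ ⟪y j - y k, x⟫ = c j - c k := by
    intro j k hjk
    rw [ae_iff]
    simp only [not_not]
    exact hyper_null _ (sub_ne_zero.2 fun h => hjk (hy h)) _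
  have h2 : ∀ᵐ x ∂volume, ∀ j k : J, j ≠ k → ¬ ⟪y j - y k, x⟫ = c j - c k := by
    rw [ae_all_iff]; intro j
    rw [ae_all_iff]; intro k
    by_cases hjk : j = k
    · exact Eventually.of_forall fun x h => absurd hjk h
    · filter_upwards [h1 j k hjk] with x hx _ using hx
  filter_upwards [h2] with x hx j hj
  unfold lag
  rw [Finset.sum_eq_single j]
  · exact indicator_of_mem hj _
  · intro k _ hkj
    apply indicator_of_notMem
    intro hk
    apply hx j k hkj.symm
    have a1 := hj.2 k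
    have a2 := hk.2 j
    rw [inner_sub_left, real_inner_comm x (y j), real_inner_comm x (y k)]
    linarith
  · intro h; exact absurd (Finset.mem_univ j) h

lemma lag_pot {K : Set (Eu d)} (hK : IsClosed K) {y : J → Eu d} (hy : Function.Injective y)
    {M : ℝ} (hM : ∀ j, ‖y j‖ ≤ M) (c : J → ℝ) : Pot K M (pot y c) (lag K y c) := by
  refine ⟨pot_lip hM c, ?_⟩
  filter_upwards [ae_restrict_of_ae (lag_ae K hy c), ae_restrict_mem hK.measurableSet]
    with x hx hxK z
  have h1 : x ∈ ⋃ j, cell K y c j := by rw [cell_union]; exact hxK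
  obtain ⟨j, hj⟩ := mem_iUnion.1 h1
  rw [hx j hj, pot_cell hj]
  have h2 := pot_ge y c z j
  rw [inner_sub_right, real_inner_comm z (y j), real_inner_comm x (y j)]
  linarith

lemma lag_int {K : Set (Eu d)} (hK : IsCompact K) {y : J → Eu d} (hy : Function.Injective y)
    (c : J → ℝ) {m : J → ℝ} (hm : ∀ j, ∫ _ in cell K y c j, (1 : ℝ) = m j) {F : Eu d → ℝ}
    (hF : Measurable F) :
    IntegrableOn (fun x => F (lag K y c x)) K ∧
      ∫ x in K, F (lag K y c x) = ∑ j, m j * F (y j) := by
  have hKcl := hK.isClosed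
  have hfin : IsFiniteMeasure (volume.restrict K) := ⟨by
      rw [Measure.restrict_apply_univ]; exact hK.measure_lt_top⟩
  have hint : IntegrableOn (fun x => F (lag K y c x)) K := by
    refine Integrable.of_bound (C := ∑ j, |F (y j)|)
      (hF.comp (lag_meas hKcl y c)).aestronglyMeasurable ?_
    filter_upwards [ae_restrict_of_ae (lag_ae K hy c), ae_restrict_mem hKcl.measurableSet]
      with x hx hxK
    have h1 : x ∈ ⋃ j, cell K y c j := by rw [cell_union]; exact hxK
    obtain ⟨j, hj⟩ := mem_iUnion.1 h1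
    rw [hx j hj, Real.norm_eq_abs]
    exact Finset.single_le_sum (f := fun j => |F (y j)|) (fun _ _ => abs_nonneg _)
      (Finset.mem_univ j)
  refine ⟨hint, ?_⟩
  rw [← cell_sum hKcl hy c hint]
  apply Finset.sum_congr rfl
  intro j _
  have e1 : ∫ x in cell K y c j, F (lag K y c x) = ∫ x in cell K y c j, F (y j) * 1 := by
    apply setIntegral_congr_ae (cell_meas hKcl y c j)
    filter_upwards [lag_ae K hy c] with x hx hxj
    rw [hx j hxj, mul_one]
  rw [e1, integral_const_mul, hm j, mul_comm]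

end

end Vale.Agent.P074
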