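import Vale.Agent.P074.Ext
import Vale.Agent.P074.Discr

/-! The stability theorem. -/

open MeasureTheory Set Filter Topology
open scoped ENNReal RealInnerProductSpace

namespace Vale.Agent.P074

variable {d : ℕ}

/-- Directional `L²` closeness of an optimal map to an approximating Laguerre map. -/
lemma l2_small {K : Set (Eu d)} (hK : IsCompact K) (hvol : volume K ≠ 0) {C : ℝ}
    (hC : ∀ v : Eu d, volume.real (K \ ((fun x => x + v) ⁻¹' K)) ≤ C * ‖v‖)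
    {R : ℝ} (hR : 0 ≤ R) (hKR : K ⊆ Metric.closedBall 0 R) {M : ℝ} (hM : 0 ≤ M)
    {μ : Measure (Eu d)} {φ : Eu d → ℝ} {S : Eu d → Eu d} (hS : Measurable S)
    (hmap : (unif K).map S = μ) (hpot : Pot K M φ S)
    {J : Type*} [Fintype J] [Nonempty J] {y : J → Eu d} (hy : Function.Injective y)
    (hyM : ∀ j, ‖y j‖ ≤ M) {c m' p : J → ℝ}
    (hcell : ∀ j, ∫ _ in cell K y c j, (1 : ℝ) = m' j) (hm's : ∑ j, m' j = volume.real K)
    (hp1 : ∑ j, p j = 1) {s : ℝ} (hs : 0 < s)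
    (hclose : ∑ j, |m' j - volume.real K * p j| ≤ s ^ 2)
    (happ : ∀ (χ : Eu d → ℝ) (L : ℝ), 0 ≤ L → Continuous χ → (∀ a b, |χ a - χ b| ≤ L * ‖a - b‖) →
        |∑ j, p j * χ (y j) - ∫ x, χ x ∂μ| ≤ 2 * L * s ^ 2) {e : Eu d} (he : ‖e‖ = 1) :
    ∫ x in K, ⟪S x - lag K y c x, e⟫ ^ 2 ≤
      M * (2 * R * M + 4 * volume.real K * R + 12 * M * C) * s := by
  have hvolt : volume K ≠ ∞ := hK.measure_lt_top.ne
  set κ := volume.real K with hκ
  have hκ0 : 0 < κ := ENNReal.toReal_pos hvol hvolt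
  have hne : K.Nonempty := by
    by_contra h
    rw [Set.not_nonempty_iff_eq_empty] at h
    rw [h] at hvol; simp at hvol
  have hfin : IsFiniteMeasure (volume.restrict K) := ⟨by
      rw [Measure.restrict_apply_univ]; exact hK.measure_lt_top⟩
  have hKcl := hK.isClosed
  set T0 := lag K y c with hT0
  have mT0 : Measurable T0 := lag_meas hKcl y c
  have P0 : Pot K M (pot y c) T0 := lag_pot hKcl hy hyM c
  have hcφ := cont_of_lip hM hpot.1
  have hcψ := cont_of_lip hM P0.1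
  have hl := lone hK hC hKR hne hM hpot P0 hS mT0 he hs
  set χ : Eu d → ℝ := fun x => star K φ x - star K (pot y c) x with hχ
  have l1 := star_lip hK hcφ hKR hne
  have l2 := star_lip hK hcψ hKR hne
  have c1 : Continuous (star K φ) := cont_of_lip hR l1
  have c2 : Continuous (star K (pot y c)) := cont_of_lip hR l2
  have cχ : Continuous χ := c1.sub c2
  have lχ : ∀ a b, |χ a - χ b| ≤ (2 * R) * ‖a - b‖ := by
    intro a b
    have e1 : χ a - χ b = (star K φ a - star K φ b) -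
        (star K (pot y c) a - star K (pot y c) b) := by simp only [hχ]; ring
    rw [e1]
    refine (abs_sub _ _).trans ?_
    have := l1 a b
    have := l2 a b
    linarith
  have hSn : ∀ᵐ x ∂(volume.restrict K), ‖S x‖ ≤ M := pot_norm hM hpot
  have hTn : ∀ᵐ x ∂(volume.restrict K), ‖T0 x‖ ≤ M := pot_norm hM P0
  have iχS : IntegrableOn (fun x => χ (S x)) K := by
    refine Integrable.of_bound (C := |χ 0| + 2 * R * M)
      (cχ.measurable.comp hS).aestronglyMeasurable ?_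
    filter_upwards [hSn] with x hx
    have h1 := lχ (S x) 0
    rw [sub_zero] at h1
    have h2 := abs_add_le (χ (S x) - χ 0) (χ 0)
    rw [sub_add_cancel] at h2
    rw [Real.norm_eq_abs]
    have h3 : 2 * R * ‖S x‖ ≤ 2 * R * M := by gcongr
    linarith
  obtain ⟨iχT, eχT⟩ := lag_int hK hy c hcell cχ.measurable
  have eE : (∫ x in K, ((star K φ (T0 x) - star K φ (S x)) +
      (star K (pot y c) (S x) - star K (pot y c) (T0 x)))) =
      (∫ x in K, χ (T0 x)) - ∫ x in K, χ (S x) := by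
    rw [← integral_sub iχT iχS]
    apply integral_congr_ae
    refine Eventually.of_forall fun x => ?_
    simp only [hχ, hT0]; ring
  have eS : ∫ x in K, χ (S x) = κ * ∫ x, χ x ∂μ := by
    rw [← hmap, integral_map hS.aemeasurable cχ.aestronglyMeasurable]
    unfold unif
    rw [integral_smul_measure, ENNReal.toReal_inv, smul_eq_mul, ← mul_assoc]
    have : κ * (volume K).toReal⁻¹ = 1 := mul_inv_cancel₀ hκ0.ne'
    rw [this, one_mul]
  have b1 : |∑ j, m' j * χ (y j) - κ * ∑ j, p j * χ (y j)| ≤ s ^ 2 * (2 * R * M) := by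
    have e1 : ∑ j, m' j * χ (y j) - κ * ∑ j, p j * χ (y j) =
        ∑ j, (m' j - κ * p j) * (χ (y j) - χ 0) := by
      have e2 : ∑ j, (m' j - κ * p j) * χ 0 = 0 := by
        rw [← Finset.sum_mul, Finset.sum_sub_distrib, ← Finset.mul_sum, hm's, hp1]
        ring
      have e3 : ∑ j, (m' j - κ * p j) * (χ (y j) - χ 0) =
          ∑ j, (m' j - κ * p j) * χ (y j) - ∑ j, (m' j - κ * p j) * χ 0 := by
        rw [← Finset.sum_sub_distrib]
        apply Finset.sum_congr rfl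
        intro j _; ring
      rw [e3, e2, sub_zero, Finset.mul_sum, ← Finset.sum_sub_distrib]
      apply Finset.sum_congr rfl
      intro j _; ring
    rw [e1]
    calc |∑ j, (m' j - κ * p j) * (χ (y j) - χ 0)|
        ≤ ∑ j, |(m' j - κ * p j) * (χ (y j) - χ 0)| := Finset.abs_sum_le_sum_abs _ _
      _ ≤ ∑ j, |m' j - κ * p j| * (2 * R * M) := by
        apply Finset.sum_le_sum
        intro j _
        rw [abs_mul]
        apply mul_le_mul_of_nonneg_left _ (abs_nonneg _)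
        have h1 := lχ (y j) 0
        rw [sub_zero] at h1
        have h3 : 2 * R * ‖y j‖ ≤ 2 * R * M := by gcongr; exact hyM j
        linarith
      _ = (∑ j, |m' j - κ * p j|) * (2 * R * M) := by rw [Finset.sum_mul]
      _ ≤ s ^ 2 * (2 * R * M) := mul_le_mul_of_nonneg_right hclose (by positivity)
  have b2 : |∑ j, p j * χ (y j) - ∫ x, χ x ∂μ| ≤ 2 * (2 * R) * s ^ 2 :=
    happ χ (2 * R) (by positivity) cχ lχ
  have bE : (∫ x in K, χ (T0 x)) - ∫ x in K, χ (S x) ≤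
      (2 * R * M + 4 * κ * R) * s ^ 2 := by
    rw [eS]
    have e1 : ∫ x in K, χ (T0 x) = ∑ j, m' j * χ (y j) := eχT
    rw [e1]
    have h1 := (abs_le.1 b1).2
    have h2 := (abs_le.1 b2).2
    have h3 : κ * (∑ j, p j * χ (y j) - ∫ x, χ x ∂μ) ≤ κ * (2 * (2 * R) * s ^ 2) :=
      mul_le_mul_of_nonneg_left h2 hκ0.le
    rw [mul_sub] at h3
    nlinarith
  rw [eE] at hl
  have hI : ∫ x in K, |⟪S x - T0 x, e⟫| ≤ (2 * R * M + 4 * κ * R + 12 * M * C) * s / 2 := by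
    have h1 : 2 * s * ∫ x in K, |⟪S x - T0 x, e⟫| ≤
        2 * s * ((2 * R * M + 4 * κ * R + 12 * M * C) * s / 2) := by
      calc _ ≤ _ := hl
        _ ≤ (2 * R * M + 4 * κ * R) * s ^ 2 + 12 * M * C * s ^ 2 := by linarith
        _ = _ := by ring
    exact le_of_mul_le_mul_left h1 (by positivity)
  have hdn : ∀ᵐ x ∂(volume.restrict K), |⟪S x - T0 x, e⟫| ≤ 2 * M := by
    filter_upwards [hSn, hTn] with x h1 h2
    calc |⟪S x - T0 x, e⟫| ≤ ‖S x - T0 x‖ * ‖e‖ := abs_real_inner_le_norm _ _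
      _ ≤ 2 * M := by
        rw [he, mul_one]; exact (norm_sub_le _ _).trans (by linarith)
  have mI : Measurable (fun x => |⟪S x - T0 x, e⟫|) := by
    have : Measurable (fun x => S x - T0 x) := hS.sub mT0
    fun_prop
  have iI : IntegrableOn (fun x => |⟪S x - T0 x, e⟫|) K := by
    refine Integrable.of_bound (C := 2 * M) mI.aestronglyMeasurable ?_
    filter_upwards [hdn] with x hx
    rwa [Real.norm_eq_abs, abs_abs]
  have hfinal : ∫ x in K, ⟪S x - T0 x, e⟫ ^ 2 ≤ ∫ x in K, 2 * M * |⟪S x - T0 x, e⟫| := by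
    apply integral_mono_of_nonneg (Eventually.of_forall fun x => sq_nonneg _)
      (iI.const_mul _)
    filter_upwards [hdn] with x hx
    show ⟪S x - T0 x, e⟫ ^ 2 ≤ 2 * M * |⟪S x - T0 x, e⟫|
    rw [← sq_abs]
    nlinarith [abs_nonneg ⟪S x - T0 x, e⟫]
  rw [integral_const_mul] at hfinal
  calc _ ≤ _ := hfinal
    _ ≤ 2 * M * ((2 * R * M + 4 * κ * R + 12 * M * C) * s / 2) :=
      mul_le_mul_of_nonneg_left hI (by positivity)
    _ = _ := by ring

lemma sq3 (a b c : ℝ) : (a + b - c) ^ 2 ≤ 3 * a ^ 2 + 3 * b ^ 2 + 3 * c ^ 2 := by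
  nlinarith [sq_nonneg (a - b), sq_nonneg (a + c), sq_nonneg (b + c)]

/-- Combining three directional estimates. -/
lemma combine {K : Set (Eu d)} (hK : IsCompact K) {M : ℝ} (hM : 0 ≤ M)
    {f₁ f₂ f₃ f₄ : Eu d → ℝ} {S T T0 T1 : Eu d → Eu d} (p1 : Pot K M f₁ S) (p2 : Pot K M f₂ T)
    (p3 : Pot K M f₃ T0) (p4 : Pot K M f₄ T1) (mS : Measurable S) (mT : Measurable T)
    (mT0 : Measurable T0) (mT1 : Measurable T1) {e : Eu d} (he : ‖e‖ = 1) :
    ∫ x in K, ⟪S x - T x, e⟫ ^ 2 ≤ 3 * (∫ x in K, ⟪S x - T0 x, e⟫ ^ 2) +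
      3 * (∫ x in K, ⟪T0 x - T1 x, e⟫ ^ 2) + 3 * ∫ x in K, ⟪T x - T1 x, e⟫ ^ 2 := by
  have hfin : IsFiniteMeasure (volume.restrict K) := ⟨by
      rw [Measure.restrict_apply_univ]; exact hK.measure_lt_top⟩
  have iI : ∀ {f g : Eu d → ℝ} {Z Z' : Eu d → Eu d}, Pot K M f Z → Pot K M g Z' →
      Measurable Z → Measurable Z' → IntegrableOn (fun x => ⟪Z x - Z' x, e⟫ ^ 2) K := by
    intro f g Z Z' hf hg mZ mZ'
    have m1 : Measurable (fun x => Z x - Z' x) := mZ.sub mZ'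
    refine Integrable.of_bound (C := (2 * M) ^ 2)
      (Measurable.aestronglyMeasurable (by fun_prop)) ?_
    filter_upwards [pot_norm hM hf, pot_norm hM hg] with x hx hx'
    rw [Real.norm_eq_abs, abs_pow]
    have : |⟪Z x - Z' x, e⟫| ≤ 2 * M := by
      calc |⟪Z x - Z' x, e⟫| ≤ ‖Z x - Z' x‖ * ‖e‖ := abs_real_inner_le_norm _ _
        _ ≤ 2 * M := by
          rw [he, mul_one]; exact (norm_sub_le _ _).trans (by linarith)
    gcongr
  have j1 : IntegrableOn (fun x => 3 * ⟪S x - T0 x, e⟫ ^ 2) K :=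
    (iI p1 p3 mS mT0).const_mul 3
  have j2 : IntegrableOn (fun x => 3 * ⟪T0 x - T1 x, e⟫ ^ 2) K :=
    (iI p3 p4 mT0 mT1).const_mul 3
  have j3 : IntegrableOn (fun x => 3 * ⟪T x - T1 x, e⟫ ^ 2) K :=
    (iI p2 p4 mT mT1).const_mul 3
  have j12 : IntegrableOn (fun x => 3 * ⟪S x - T0 x, e⟫ ^ 2 + 3 * ⟪T0 x - T1 x, e⟫ ^ 2) K :=
    j1.add j2
  have hcomb : ∫ x in K, ⟪S x - T x, e⟫ ^ 2 ≤
      ∫ x in K, (3 * ⟪S x - T0 x, e⟫ ^ 2 + 3 * ⟪T0 x - T1 x, e⟫ ^ 2 +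
        3 * ⟪T x - T1 x, e⟫ ^ 2) := by
    apply integral_mono_of_nonneg (Eventually.of_forall fun x => sq_nonneg _) (j12.add j3)
    refine Eventually.of_forall fun x => ?_
    show ⟪S x - T x, e⟫ ^ 2 ≤ 3 * ⟪S x - T0 x, e⟫ ^ 2 + 3 * ⟪T0 x - T1 x, e⟫ ^ 2 +
        3 * ⟪T x - T1 x, e⟫ ^ 2
    have e1 : ⟪S x - T x, e⟫ = ⟪S x - T0 x, e⟫ + ⟪T0 x - T1 x, e⟫ - ⟪T x - T1 x, e⟫ := by
      rw [← inner_add_left, ← inner_sub_left]; congr 1; abel
    rw [e1]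
    exact sq3 _ _ _
  rw [integral_add j12 j3, integral_add j1 j2, integral_const_mul, integral_const_mul,
    integral_const_mul] at hcomb
  exact hcomb

/-- Bounding the discrete cost. -/
lemma cost_bound {J : Type*} [Fintype J] {y v : J → Eu d} {M κ : ℝ} (hκ0 : 0 ≤ κ)
    (hyM : ∀ j, ‖y j‖ ≤ M) (hyM' : ∀ j, ‖y j + v j‖ ≤ M) {m' p : J → ℝ} {s B w2 : ℝ}
    (hs : 0 < s) (hs1 : s ≤ 1) (hB : 0 ≤ B) (hclose : ∑ j, |m' j - κ * p j| ≤ s ^ 2)
    (hcost : ∑ j, p j * ‖v j‖ ^ 2 ≤ w2 + B * s ^ 2) :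
    ∑ j, m' j * ‖v j‖ ^ 2 ≤ κ * w2 + (κ * B + 4 * M ^ 2) * s := by
  have e1 : ∑ j, m' j * ‖v j‖ ^ 2 = κ * (∑ j, p j * ‖v j‖ ^ 2) +
      ∑ j, (m' j - κ * p j) * ‖v j‖ ^ 2 := by
    rw [Finset.mul_sum, ← Finset.sum_add_distrib]
    apply Finset.sum_congr rfl
    intro j _; ring
  have e2 : ∑ j, (m' j - κ * p j) * ‖v j‖ ^ 2 ≤ s ^ 2 * (4 * M ^ 2) := by
    calc ∑ j, (m' j - κ * p j) * ‖v j‖ ^ 2 ≤ ∑ j, |m' j - κ * p j| * (4 * M ^ 2) := by
          apply Finset.sum_le_sum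
          intro j _
          have hvn : ‖v j‖ ≤ 2 * M := by
            have h3 : v j = (y j + v j) - y j := by abel
            rw [h3]
            refine (norm_sub_le _ _).trans ?_
            have := hyM j
            have := hyM' j
            linarith
          have hvn2 : ‖v j‖ ^ 2 ≤ 4 * M ^ 2 := by
            calc ‖v j‖ ^ 2 ≤ (2 * M) ^ 2 := by gcongr
              _ = _ := by ring
          calc (m' j - κ * p j) * ‖v j‖ ^ 2 ≤ |m' j - κ * p j| * ‖v j‖ ^ 2 :=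
                mul_le_mul_of_nonneg_right (le_abs_self _) (sq_nonneg _)
            _ ≤ _ := mul_le_mul_of_nonneg_left hvn2 (abs_nonneg _)
      _ = (∑ j, |m' j - κ * p j|) * (4 * M ^ 2) := by rw [Finset.sum_mul]
      _ ≤ s ^ 2 * (4 * M ^ 2) := mul_le_mul_of_nonneg_right hclose (by positivity)
  have e3 : κ * (∑ j, p j * ‖v j‖ ^ 2) ≤ κ * (w2 + B * s ^ 2) :=
    mul_le_mul_of_nonneg_left hcost hκ0
  have hss : s ^ 2 ≤ s := by nlinarith
  have h3 : (κ * B + 4 * M ^ 2) * s ^ 2 ≤ (κ * B + 4 * M ^ 2) * s := by gcongr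
  rw [e1]
  linarith

/-- The estimate at scale `s`. -/
lemma scale (hd : 0 < d) {K : Set (Eu d)} (hKc : Convex ℝ K) (hK : IsCompact K)
    (hvol : volume K ≠ 0) {Y : Set (Eu d)} (hY : IsCompact Y) {R M₀ C : ℝ} (hR : 0 < R)
    (hKR : K ⊆ Metric.closedBall 0 R) (hM₀ : 0 < M₀) (hYM : Y ⊆ Metric.closedBall 0 M₀)
    (hC : ∀ v : Eu d, volume.real (K \ ((fun x => x + v) ⁻¹' K)) ≤ C * ‖v‖)
    {μ ν : Measure (Eu d)} (hμp : IsProbabilityMeasure μ) (hμ : μ Yᶜ = 0) (hν : ν Yᶜ = 0)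
    {S T : Eu d → Eu d} (hS : IsOTMap (unif K) μ S) (hT : IsOTMap (unif K) ν T)
    {γ : Measure (Eu d × Eu d)} (h1 : γ.map Prod.fst = μ) (h2 : γ.map Prod.snd = ν)
    {e : Eu d} (he : ‖e‖ = 1) {r : ℝ} (hr : 0 < r) {s : ℝ} (hs : 0 < s) (hs1 : s ≤ 1) :
    ∫ x in K, ⟪S x - T x, e⟫ ^ 2 ≤
      3 * ((M₀ + 2) * (2 * R * (M₀ + 2) + 4 * volume.real K * R + 12 * (M₀ + 2) * C) * s) +
      3 * (39232 * R ^ 2 * (volume.real K * (∫ q, ‖q.1 - q.2‖ ^ 2 ∂γ) +
        (volume.real K * (16 * M₀ + 16) + 4 * (M₀ + 2) ^ 2) * s) / r ^ 2 +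
          40 * (M₀ + 2) ^ 2 * C * r) +
      3 * ((M₀ + 2) * (2 * R * (M₀ + 2) + 4 * volume.real K * R + 12 * (M₀ + 2) * C) * s) := by
  set M := M₀ + 2 with hM
  have hM0 : 0 ≤ M := by positivity
  have hvolt : volume K ≠ ∞ := hK.measure_lt_top.ne
  set κ := volume.real K with hκ
  have hκ0 : 0 < κ := ENNReal.toReal_pos hvol hvolt
  have hκint : ∫ _ in K, (1 : ℝ) = κ := int_one K
  have hYM' : Y ⊆ Metric.closedBall 0 M :=
    hYM.trans (Metric.closedBall_subset_closedBall (by linarith))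
  obtain ⟨φ, hφ⟩ := exists_pot hK hvol hYM' hμ hS
  obtain ⟨ψ, hψ⟩ := exists_pot hK hvol hYM' hν hT
  have hs2 : s ^ 2 ≤ 1 := by nlinarith
  obtain ⟨J, iJ, nJ, y, v, p, hy, hy', hyM, hyM', hp0, hp1, app1, app2, hcost⟩ :=
    discr hd hY hM₀.le hYM hμ hν h1 h2 (ε := s ^ 2) (by positivity) hs2
  have hcard : (0 : ℝ) < Fintype.card J := by exact_mod_cast Fintype.card_pos
  obtain ⟨m', hm'0, hm's, hm'c, c, c', hcell, hcell', z, hz⟩ :=
    generic hKc hK hR hKR hy hy' hyM hyM' (m := fun j => κ * p j)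
      (fun j => mul_pos hκ0 (hp0 j)) (by rw [← Finset.mul_sum, hp1, mul_one, hκint])
      (η := s ^ 2 / Fintype.card J) (by positivity)
  rw [hκint] at hm's
  have hclose : ∑ j, |m' j - κ * p j| ≤ s ^ 2 := by
    calc ∑ j, |m' j - κ * p j| ≤ ∑ _ : J, s ^ 2 / Fintype.card J :=
          Finset.sum_le_sum fun j _ => hm'c j
      _ = s ^ 2 := by
        rw [Finset.sum_const, Finset.card_univ, nsmul_eq_mul]; field_simp
  have P0 : Pot K M (pot y c) (lag K y c) := lag_pot hK.isClosed hy hyM c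
  have P1 : Pot K M (pot (fun j => y j + v j) c') (lag K (fun j => y j + v j) c') :=
    lag_pot hK.isClosed hy' hyM' c'
  have s1 := l2_small hK hvol hC hR.le hKR hM0 hS.1 hS.2.1 hφ hy hyM hcell hm's hp1 hs
    hclose app1 he
  have s2 := l2_small hK hvol hC hR.le hKR hM0 hT.1 hT.2.1 hψ hy' hyM' hcell' hm's hp1 hs
    hclose app2 he
  have s3 := interp hK hC hM0 P0 P1 (-z) he hr
  simp only [← sub_eq_add_neg] at s3
  have hW' := cost_bound hκ0.le hyM hyM' hs hs1 (by positivity) hclose hcost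
  have s4 : ∫ x in K, ⟪lag K y c x - lag K (fun j => y j + v j) c' x, e⟫ ^ 2 ≤
      39232 * R ^ 2 * (κ * (∫ q, ‖q.1 - q.2‖ ^ 2 ∂γ) +
        (κ * (16 * M₀ + 16) + 4 * M ^ 2) * s) / r ^ 2 + 40 * M ^ 2 * C * r := by
    have h3 : 8 * (∫ x in K, (pot y c x - pot (fun j => y j + v j) c' x - z) ^ 2) ≤
        39232 * R ^ 2 * (κ * (∫ q, ‖q.1 - q.2‖ ^ 2 ∂γ) +
        (κ * (16 * M₀ + 16) + 4 * M ^ 2) * s) := by
      calc _ ≤ 8 * (4904 * R ^ 2 * ∑ j, m' j * ‖v j‖ ^ 2) :=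
            mul_le_mul_of_nonneg_left hz (by norm_num)
        _ = 39232 * R ^ 2 * ∑ j, m' j * ‖v j‖ ^ 2 := by ring
        _ ≤ _ := mul_le_mul_of_nonneg_left hW' (by positivity)
    refine s3.trans ?_
    gcongr
  have hcomb := combine hK hM0 hφ hψ P0 P1 hS.1 hT.1 (lag_meas hK.isClosed _ _)
    (lag_meas hK.isClosed _ _) he
  refine hcomb.trans ?_
  exact add_le_add (add_le_add (mul_le_mul_of_nonneg_left s1 (by norm_num))
    (mul_le_mul_of_nonneg_left s4 (by norm_num))) (mul_le_mul_of_nonneg_left s2 (by norm_num))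

lemma lim_alg {I A₁ P k B r Q : ℝ} (hA : 0 ≤ A₁) (hP : 0 ≤ P) (hB : 0 ≤ B) (hr : 0 < r)
    (h : ∀ s, 0 < s → s ≤ 1 →
      I ≤ 3 * (A₁ * s) + 3 * (P * (k + B * s) / r ^ 2 + Q) + 3 * (A₁ * s)) :
    I ≤ 3 * (P * k / r ^ 2 + Q) := by
  set A₂ := 6 * A₁ + 3 * (P * B) / r ^ 2 + 1 with hA₂
  have hA₂0 : 0 < A₂ := by positivity
  apply le_of_forall_pos_le_add
  intro ε hε
  have h3 := h (min 1 (ε / A₂)) (lt_min one_pos (by positivity)) (min_le_left _ _)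
  have hs0 : 0 < min 1 (ε / A₂) := lt_min one_pos (by positivity)
  have h4 : A₂ * min 1 (ε / A₂) ≤ ε := by
    calc A₂ * min 1 (ε / A₂) ≤ A₂ * (ε / A₂) :=
          mul_le_mul_of_nonneg_left (min_le_right _ _) hA₂0.le
      _ = ε := by field_simp
  set s := min 1 (ε / A₂) with hs
  have e5 : 3 * (P * k / r ^ 2 + Q) + A₂ * s =
      3 * (A₁ * s) + 3 * (P * (k + B * s) / r ^ 2 + Q) + 3 * (A₁ * s) + s := by
    rw [hA₂]; ring
  linarith

lemma final_alg {P Q w2 r : ℝ} (hP : 0 ≤ P) (hQ : 0 ≤ Q) (hw : 0 ≤ w2) (hr : 0 < r) :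
    3 * (P * w2 / r ^ 2 + Q * r) ≤ (3 * (P + Q) + 1) * (w2 / r ^ 2 + r) := by
  have e : (3 * (P + Q) + 1) * (w2 / r ^ 2 + r) - 3 * (P * w2 / r ^ 2 + Q * r) =
    (3 * Q + 1) * (w2 / r ^ 2) + (3 * P + 1) * r := by ring
  have : 0 ≤ (3 * Q + 1) * (w2 / r ^ 2) + (3 * P + 1) * r := by positivity
  linarith

/-- The directional stability estimate. -/
lemma key_dir (hd : 0 < d) {K : Set (Eu d)} (hKc : Convex ℝ K) (hK : IsCompact K)
    (hi : (interior K).Nonempty) {Y : Set (Eu d)} (hY : IsCompact Y) :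
    ∃ A : ℝ, 0 < A ∧ ∀ μ ν : Measure (Eu d), IsProbabilityMeasure μ → IsProbabilityMeasure ν →
      μ Yᶜ = 0 → ν Yᶜ = 0 → ∀ S T : Eu d → Eu d, IsOTMap (unif K) μ S → IsOTMap (unif K) ν T →
      ∀ γ : Measure (Eu d × Eu d), γ.map Prod.fst = μ → γ.map Prod.snd = ν →
      ∀ e : Eu d, ‖e‖ = 1 → ∀ r : ℝ, 0 < r →
      ∫ x in K, ⟪S x - T x, e⟫ ^ 2 ≤ A * ((∫ q, ‖q.1 - q.2‖ ^ 2 ∂γ) / r ^ 2 + r) := by
  obtain ⟨R, hR, hKR⟩ := hK.isBounded.subset_closedBall_lt 0 (0 : Eu d)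
  obtain ⟨M₀, hM₀, hYM⟩ := hY.isBounded.subset_closedBall_lt 0 (0 : Eu d)
  obtain ⟨C, hC0, hC⟩ := trans_vol hKc hK hi
  have hvol : volume K ≠ 0 :=
    (lt_of_lt_of_le (isOpen_interior.measure_pos volume hi) (measure_mono interior_subset)).ne'
  have hκ0 : 0 < volume.real K := ENNReal.toReal_pos hvol hK.measure_lt_top.ne
  have hP : 0 ≤ 39232 * R ^ 2 * volume.real K := by positivity
  have hQ : 0 ≤ 40 * (M₀ + 2) ^ 2 * C := by positivity
  refine ⟨3 * (39232 * R ^ 2 * volume.real K + 40 * (M₀ + 2) ^ 2 * C) + 1, by linarith, ?_⟩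
  intro μ ν hμp hνp hμ hν S T hS hT γ h1 h2 e he r hr
  have hw20 : 0 ≤ ∫ q, ‖q.1 - q.2‖ ^ 2 ∂γ := integral_nonneg fun q => sq_nonneg _
  have lim := lim_alg (by positivity) (by positivity) (by positivity) hr
    (fun (s : ℝ) (hs : 0 < s) (hs1 : s ≤ 1) =>
      scale hd hKc hK hvol hY hR hKR hM₀ hYM hC hμp hμ hν hS hT h1 h2 he hr hs hs1)
  have fin := final_alg hP hQ hw20 hr
  rw [mul_assoc (39232 * R ^ 2)] at fin
  exact lim.trans fin

end Vale.Agent.P074
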