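import Vale.Agent.P074.Common

/-! The midpoint Prékopa–Leindler inequality. -/

open MeasureTheory Set Filter Topology
open scoped ENNReal

namespace Vale.Agent.P074

lemma sup_Iic {A : Set ℝ} (hA : MeasurableSet A) (_hne : A.Nonempty) :
    volume A ≤ ⨆ a : A, volume (A ∩ Iic (a : ℝ)) := by
  apply le_of_forall_lt
  intro r hr
  obtain ⟨K, hKA, hK, hrK⟩ := hA.exists_lt_isCompact hr
  have hKne : K.Nonempty := by
    rw [nonempty_iff_ne_empty]
    rintro rfl
    simp at hrK
  obtain ⟨m, hmK, hm⟩ := hK.exists_isGreatest hKne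
  calc r < volume K := hrK
    _ ≤ volume (A ∩ Iic m) := measure_mono fun x hx => ⟨hKA hx, hm hx⟩
    _ ≤ _ := le_iSup (fun a : A => volume (A ∩ Iic (a : ℝ))) ⟨m, hKA hmK⟩

lemma sup_Ici {A : Set ℝ} (hA : MeasurableSet A) (_hne : A.Nonempty) :
    volume A ≤ ⨆ a : A, volume (A ∩ Ioi (a : ℝ)) := by
  apply le_of_forall_lt
  intro r hr
  obtain ⟨K, hKA, hK, hrK⟩ := hA.exists_lt_isCompact hr
  have hKne : K.Nonempty := by
    rw [nonempty_iff_ne_empty]
    rintro rfl
    simp at hrK
  obtain ⟨m, hmK, hm⟩ := hK.exists_isLeast hKne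
  calc r < volume K := hrK
    _ ≤ volume ({m} ∪ (A ∩ Ioi m)) := by
      apply measure_mono
      intro x hx
      rcases (hm hx).eq_or_lt with h | h
      · left; exact h.symm
      · right; exact ⟨hKA hx, h⟩
    _ ≤ volume {m} + volume (A ∩ Ioi m) := measure_union_le _ _
    _ = volume (A ∩ Ioi m) := by simp
    _ ≤ _ := le_iSup (fun a : A => volume (A ∩ Ioi (a : ℝ))) ⟨m, hKA hmK⟩

/-- One-dimensional Brunn–Minkowski inequality for midpoints. -/
lemma bm1 {A B C : Set ℝ} (hA : MeasurableSet A) (hB : MeasurableSet B) (hAn : A.Nonempty)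
    (hBn : B.Nonempty) (h : ∀ a ∈ A, ∀ b ∈ B, (a + b) / 2 ∈ C) :
    volume A + volume B ≤ 2 * volume C := by
  have scale : ∀ (S : Set ℝ) (c : ℝ), volume ((fun x : ℝ => (x + c) / 2) ⁻¹' S) =
      2 * volume S := by
    intro S c
    have e : (fun x : ℝ => (x + c) / 2) ⁻¹' S =
        (fun x => x + c) ⁻¹' ((fun x => (1 / 2) * x) ⁻¹' S) := by
      ext x
      simp only [mem_preimage]
      rw [show (x + c) / 2 = 1 / 2 * (x + c) by ring]
    rw [e, measure_preimage_add_right, Real.volume_preimage_mul_left (by norm_num)]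
    norm_num
  have key : ∀ a : A, ∀ b : B,
      volume (A ∩ Iic (a : ℝ)) + volume (B ∩ Ioi (b : ℝ)) ≤ 2 * volume C := by
    rintro ⟨a, ha⟩ ⟨b, hb⟩
    set m := (a + b) / 2 with hm
    have h1 : volume (A ∩ Iic a) ≤ 2 * volume (C ∩ Iic m) := by
      rw [← scale _ b]
      apply measure_mono
      rintro x ⟨hx, hxa⟩
      refine ⟨h x hx b hb, ?_⟩
      have hxa' : x ≤ a := hxa
      show (x + b) / 2 ≤ m
      linarith
    have h2 : volume (B ∩ Ioi b) ≤ 2 * volume (C \ Iic m) := by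
      rw [← scale _ a]
      apply measure_mono
      rintro y ⟨hy, hyb⟩
      have hyb' : b < y := hyb
      refine ⟨?_, ?_⟩
      · have := h a ha y hy
        rwa [add_comm] at this
      · show ¬ ((y + a) / 2 ≤ m)
        rw [not_le]; linarith
    calc _ ≤ 2 * volume (C ∩ Iic m) + 2 * volume (C \ Iic m) := add_le_add h1 h2
      _ = 2 * volume C := by
        rw [← mul_add, measure_inter_add_sdiff C measurableSet_Iic]
  have : Nonempty A := hAn.to_subtype
  have : Nonempty B := hBn.to_subtype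
  calc volume A + volume B
      ≤ (⨆ a : A, volume (A ∩ Iic (a : ℝ))) + ⨆ b : B, volume (B ∩ Ioi (b : ℝ)) :=
        add_le_add (sup_Iic hA hAn) (sup_Ici hB hBn)
    _ ≤ 2 * volume C := by
        rw [ENNReal.iSup_add]
        apply iSup_le
        intro a
        rw [ENNReal.add_iSup]
        apply iSup_le
        intro b
        exact key a b

/-- Layer cake for a bounded function normalised by its supremum. -/
lemma layer {f : ℝ → ℝ≥0∞} (hf : Measurable f) {a : ℝ≥0∞} (ha0 : a ≠ 0) (ha : a ≠ ∞)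
    (hfa : ∀ x, f x ≤ a) :
    ∫⁻ x, f x = a * ∫⁻ t in Ioo (0 : ℝ) 1, volume {x | ENNReal.ofReal t * a < f x} := by
  set F : ℝ → ℝ := fun x => (f x / a).toReal with hF
  have hFm : Measurable F := (hf.div_const a).ennreal_toReal
  have hfin : ∀ x, f x / a ≠ ∞ := fun x =>
    ENNReal.div_ne_top (ne_top_of_le_ne_top ha (hfa x)) ha0
  have hle1 : ∀ x, f x / a ≤ 1 := fun x => by
    rw [ENNReal.div_le_iff ha0 ha, one_mul]; exact hfa x
  have e1 : ∀ x, f x = a * ENNReal.ofReal (F x) := by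
    intro x
    rw [hF]
    simp only
    rw [ENNReal.ofReal_toReal (hfin x), ENNReal.mul_div_cancel ha0 ha]
  have h1 : ∫⁻ x, f x = a * ∫⁻ x, ENNReal.ofReal (F x) := by
    rw [← lintegral_const_mul a (by fun_prop)]
    exact lintegral_congr e1
  rw [h1, lintegral_eq_lintegral_meas_lt volume (Eventually.of_forall fun x =>
    ENNReal.toReal_nonneg) hFm.aemeasurable]
  congr 1
  have hsplit : Ioi (0 : ℝ) = Ioo 0 1 ∪ Ici 1 := by
    rw [Ioo_union_Ici_eq_Ioi one_pos]
  have hdisj : Disjoint (Ioo (0 : ℝ) 1) (Ici 1) := by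
    rw [Set.disjoint_left]
    intro x hx hx'
    have h1 : x < 1 := hx.2
    have h2 : 1 ≤ x := hx'
    linarith
  rw [hsplit, lintegral_union measurableSet_Ici hdisj]
  have hz : ∫⁻ t in Ici (1 : ℝ), volume {x | t < F x} = 0 := by
    rw [setLIntegral_congr_fun measurableSet_Ici (g := fun _ => 0)]
    · simp
    · intro t ht
      have ht' : (1 : ℝ) ≤ t := ht
      have : {x | t < F x} = ∅ := by
        ext x
        simp only [mem_ofPred_eq, mem_empty_iff_false, iff_false, not_lt]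
        have : F x ≤ 1 := by
          rw [hF]
          exact ENNReal.toReal_le_of_le_ofReal zero_le_one (by simpa using hle1 x)
        linarith
      simp only [this, measure_empty]
  rw [hz, add_zero]
  apply setLIntegral_congr_fun measurableSet_Ioo
  intro t ht
  simp only
  congr 1
  ext x
  simp only [mem_ofPred_eq]
  show t < (f x / a).toReal ↔ _
  rw [← ENNReal.ofReal_lt_iff_lt_toReal ht.1.le (hfin x), ENNReal.lt_div_iff_mul_lt
    (Or.inl ha0) (Or.inl ha)]

lemma amgm (u v : ℝ≥0∞) : 4 * (u * v) ≤ (u + v) ^ 2 := by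
  by_cases hu : u = ∞
  · subst hu; simp
  by_cases hv : v = ∞
  · subst hv; simp
  lift u to NNReal using hu
  lift v to NNReal using hv
  norm_cast
  have : (4 * (u * v) : ℝ) ≤ (u + v) ^ 2 := by nlinarith [sq_nonneg ((u : ℝ) - v)]
  exact_mod_cast this

/-- One-dimensional Prékopa–Leindler, bounded case. -/
lemma pl1_bdd {f g h : ℝ → ℝ≥0∞} (hf : Measurable f) (hg : Measurable g) (hh : Measurable h)
    (bf : ⨆ x, f x ≠ ∞) (bg : ⨆ x, g x ≠ ∞)
    (H : ∀ x y, f x * g y ≤ h ((x + y) / 2) ^ 2) :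
    (∫⁻ x, f x) * (∫⁻ x, g x) ≤ (∫⁻ x, h x) ^ 2 := by
  set a := ⨆ x, f x with ha
  set b := ⨆ x, g x with hb
  have fa : ∀ x, f x ≤ a := fun x => le_iSup f x
  have gb : ∀ x, g x ≤ b := fun x => le_iSup g x
  by_cases ha0 : a = 0
  · have : ∫⁻ x, f x = 0 := by
      rw [lintegral_eq_zero_iff hf]
      exact Eventually.of_forall fun x => le_antisymm ((fa x).trans ha0.le) bot_le
    rw [this, zero_mul]; exact bot_le
  by_cases hb0 : b = 0
  · have : ∫⁻ x, g x = 0 := by
      rw [lintegral_eq_zero_iff hg]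
      exact Eventually.of_forall fun x => le_antisymm ((gb x).trans hb0.le) bot_le
    rw [this, mul_zero]; exact bot_le
  -- `s = √(ab)`
  set s : ℝ≥0∞ := (a * b) ^ (1 / 2 : ℝ) with hs
  have hab0 : a * b ≠ 0 := mul_ne_zero ha0 hb0
  have habt : a * b ≠ ∞ := ENNReal.mul_ne_top bf bg
  have hs2 : s ^ 2 = a * b := by
    rw [hs, ← ENNReal.rpow_natCast, ← ENNReal.rpow_mul]
    norm_num
  have hs0 : s ≠ 0 := by
    intro h0
    rw [h0] at hs2
    exact hab0 (by rw [← hs2]; simp)
  have hst : s ≠ ∞ := ENNReal.rpow_ne_top_of_nonneg (by norm_num) habt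
  have lf := layer hf ha0 bf fa
  have lg := layer hg hb0 bg gb
  -- truncated `h`
  set h' : ℝ → ℝ≥0∞ := fun x => min (h x) s with hh'
  have hh'm : Measurable h' := hh.min measurable_const
  have lh := layer hh'm hs0 hst (fun x => min_le_right _ _)
  have hstep : ∀ t ∈ Ioo (0 : ℝ) 1,
      volume {x | ENNReal.ofReal t * a < f x} + volume {x | ENNReal.ofReal t * b < g x} ≤
        2 * volume {x | ENNReal.ofReal t * s < h' x} := by
    intro t ht
    have ht1 : ENNReal.ofReal t < 1 := by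
      rw [← ENNReal.ofReal_one]
      exact (ENNReal.ofReal_lt_ofReal_iff one_pos).2 ht.2
    have ht0 : ENNReal.ofReal t ≠ 0 := by
      rw [Ne, ENNReal.ofReal_eq_zero, not_le]; exact ht.1
    have lt_a : ∀ c : ℝ≥0∞, c ≠ 0 → c ≠ ∞ → ENNReal.ofReal t * c < c := by
      intro c hc0 hct
      calc ENNReal.ofReal t * c < 1 * c := by
            exact (ENNReal.mul_lt_mul_iff_left hc0 hct).2 ht1
        _ = c := one_mul c
    apply bm1 (measurableSet_lt measurable_const hf) (measurableSet_lt measurable_const hg)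
    · obtain ⟨x, hx⟩ := lt_iSup_iff.1 (lt_a a ha0 bf)
      exact ⟨x, hx⟩
    · obtain ⟨x, hx⟩ := lt_iSup_iff.1 (lt_a b hb0 bg)
      exact ⟨x, hx⟩
    · intro x hx y hy
      have hx' : ENNReal.ofReal t * a < f x := hx
      have hy' : ENNReal.ofReal t * b < g y := hy
      have h1 : (ENNReal.ofReal t * s) ^ 2 < h ((x + y) / 2) ^ 2 := by
        calc (ENNReal.ofReal t * s) ^ 2 = (ENNReal.ofReal t * a) * (ENNReal.ofReal t * b) := by
              rw [mul_pow, hs2]; ring
          _ < f x * g y := ENNReal.mul_lt_mul hx' hy'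
          _ ≤ _ := H x y
      have h2 : ENNReal.ofReal t * s < h ((x + y) / 2) := by
        by_contra hcon
        rw [not_lt] at hcon
        exact absurd h1 (not_lt.2 (by gcongr))
      exact lt_min h2 (lt_a s hs0 hst)
  have hmeas : ∀ (k : ℝ → ℝ≥0∞) (c : ℝ≥0∞), Measurable
      (fun t : ℝ => volume {x | ENNReal.ofReal t * c < k x}) := by
    intro k c
    apply Antitone.measurable
    intro t t' htt'
    apply measure_mono
    intro x hx
    have hx' : ENNReal.ofReal t' * c < k x := hx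
    exact lt_of_le_of_lt (by gcongr) hx'
  have hint : (∫⁻ t in Ioo (0 : ℝ) 1, volume {x | ENNReal.ofReal t * a < f x}) +
      (∫⁻ t in Ioo (0 : ℝ) 1, volume {x | ENNReal.ofReal t * b < g x}) ≤
      2 * ∫⁻ t in Ioo (0 : ℝ) 1, volume {x | ENNReal.ofReal t * s < h' x} := by
    rw [← lintegral_add_left (hmeas f a), ← lintegral_const_mul 2 (hmeas h' s)]
    apply setLIntegral_mono' measurableSet_Ioo
    exact hstep
  set u := ∫⁻ t in Ioo (0 : ℝ) 1, volume {x | ENNReal.ofReal t * a < f x}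
  set v := ∫⁻ t in Ioo (0 : ℝ) 1, volume {x | ENNReal.ofReal t * b < g x}
  set w := ∫⁻ t in Ioo (0 : ℝ) 1, volume {x | ENNReal.ofReal t * s < h' x}
  have hfinal : 4 * (u * v) ≤ 4 * w ^ 2 := by
    calc 4 * (u * v) ≤ (u + v) ^ 2 := amgm u v
      _ ≤ (2 * w) ^ 2 := by gcongr
      _ = 4 * w ^ 2 := by ring
  have hfinal' : u * v ≤ w ^ 2 := by
    have h4 : (4 : ℝ≥0∞) ≠ 0 := by norm_num
    have h4' : (4 : ℝ≥0∞) ≠ ∞ := by norm_num
    exact (ENNReal.mul_le_mul_iff_right h4 h4').1 hfinal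
  calc (∫⁻ x, f x) * (∫⁻ x, g x) = (a * b) * (u * v) := by rw [lf, lg]; ring
    _ ≤ (a * b) * w ^ 2 := by gcongr
    _ = (s * w) ^ 2 := by rw [mul_pow, hs2]
    _ = (∫⁻ x, h' x) ^ 2 := by rw [lh]
    _ ≤ (∫⁻ x, h x) ^ 2 := by
      gcongr
      exact min_le_left _ _

/-- One-dimensional Prékopa–Leindler. -/
lemma pl1 {f g h : ℝ → ℝ≥0∞} (hf : Measurable f) (hg : Measurable g) (hh : Measurable h)
    (H : ∀ x y, f x * g y ≤ h ((x + y) / 2) ^ 2) :
    (∫⁻ x, f x) * (∫⁻ x, g x) ≤ (∫⁻ x, h x) ^ 2 := by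
  have trunc : ∀ k : ℝ → ℝ≥0∞, Measurable k →
      ∫⁻ x, k x = ⨆ n : ℕ, ∫⁻ x, min (k x) n := by
    intro k hk
    rw [← lintegral_iSup (fun n => hk.min measurable_const)]
    · apply lintegral_congr
      intro x
      apply le_antisymm
      · by_cases hx : k x = ∞
        · rw [hx]
          have : ∀ n : ℕ, min (∞ : ℝ≥0∞) n = n := fun n => min_eq_right le_top
          simp only [this, ENNReal.iSup_natCast]
          exact le_rfl
        · obtain ⟨n, hn⟩ := ENNReal.exists_nat_gt hx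
          exact (le_min le_rfl hn.le).trans (le_iSup (fun n : ℕ => min (k x) (n : ℝ≥0∞)) n)
      · exact iSup_le fun n => min_le_left _ _
    · intro n m hnm x
      apply min_le_min_left
      exact_mod_cast hnm
  rw [trunc f hf, trunc g hg, ENNReal.iSup_mul]
  apply iSup_le
  intro n
  rw [ENNReal.mul_iSup]
  apply iSup_le
  intro m
  have bd : ∀ (k : ℝ → ℝ≥0∞) (n : ℕ), (⨆ x, min (k x) (n : ℝ≥0∞)) ≠ ∞ := by
    intro k n
    apply ne_top_of_le_ne_top (ENNReal.natCast_ne_top n)
    exact iSup_le fun x => min_le_right _ _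
  apply pl1_bdd (hf.min measurable_const) (hg.min measurable_const) hh (bd f n) (bd g m)
  intro x y
  calc min (f x) (n : ℝ≥0∞) * min (g y) (m : ℝ≥0∞) ≤ f x * g y := by
        gcongr <;> exact min_le_left _ _
    _ ≤ _ := H x y

lemma symm_eq_cons {n : ℕ} (p : ℝ × (Fin n → ℝ)) :
    (MeasurableEquiv.piFinSuccAbove (fun _ : Fin (n + 1) => ℝ) 0).symm p =
      (Fin.cons p.1 p.2 : Fin (n + 1) → ℝ) := by
  show (Fin.insertNthEquiv (fun _ : Fin (n + 1) => ℝ) 0) p = _
  ext i
  simp [Fin.insertNthEquiv]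

lemma measurable_cons {n : ℕ} :
    Measurable (fun p : ℝ × (Fin n → ℝ) => (Fin.cons p.1 p.2 : Fin (n + 1) → ℝ)) := by
  have h := (MeasurableEquiv.piFinSuccAbove (fun _ : Fin (n + 1) => ℝ) 0).symm.measurable
  have e : (fun p : ℝ × (Fin n → ℝ) => (Fin.cons p.1 p.2 : Fin (n + 1) → ℝ)) =
      (MeasurableEquiv.piFinSuccAbove (fun _ : Fin (n + 1) => ℝ) 0).symm := by
    funext p; exact (symm_eq_cons p).symm
  rw [e]; exact h

/-- The midpoint Prékopa–Leindler inequality on `Fin n → ℝ`. -/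
lemma plPi (n : ℕ) : ∀ {f g h : (Fin n → ℝ) → ℝ≥0∞}, Measurable f → Measurable g →
    Measurable h → (∀ x y, f x * g y ≤ h (fun i => (x i + y i) / 2) ^ 2) →
    (∫⁻ x, f x) * (∫⁻ x, g x) ≤ (∫⁻ x, h x) ^ 2 := by
  induction n with
  | zero =>
    intro f g h _ _ _ H
    have hd : (volume : Measure (Fin 0 → ℝ)) = Measure.dirac 0 := MeasureTheory.Measure.volume_pi_eq_dirac 0
    have hval : ∀ k : (Fin 0 → ℝ) → ℝ≥0∞, ∫⁻ x, k x = k 0 := by
      intro k
      have hk : Measurable k := measurable_of_countable k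
      rw [hd, lintegral_dirac' _ hk]
    rw [hval, hval, hval]
    have h0 := H 0 0
    have e0 : (fun i : Fin 0 => ((0 : Fin 0 → ℝ) i + (0 : Fin 0 → ℝ) i) / 2) = 0 :=
      Subsingleton.elim _ _
    rw [e0] at h0
    exact h0
  | succ n ih =>
    intro f g h hf hg hh H
    have e := volume_preserving_piFinSuccAbove (fun _ : Fin (n + 1) => ℝ) 0
    have split : ∀ k : (Fin (n + 1) → ℝ) → ℝ≥0∞, Measurable k →
        ∫⁻ x, k x = ∫⁻ t : ℝ, ∫⁻ z : Fin n → ℝ, k (Fin.cons t z) := by
      intro k hk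
      have h1 : ∫⁻ x, k x = ∫⁻ p : ℝ × (Fin n → ℝ), k (Fin.cons p.1 p.2) := by
        have h2 := e.symm.lintegral_comp (f := k) hk
        rw [← h2]
        apply lintegral_congr
        intro p
        congr 1
        exact symm_eq_cons p
      rw [h1]
      have hm : Measurable (fun p : ℝ × (Fin n → ℝ) => k (Fin.cons p.1 p.2)) :=
        hk.comp measurable_cons
      exact lintegral_prod _ hm.aemeasurable
    have mcons : ∀ k : (Fin (n + 1) → ℝ) → ℝ≥0∞, Measurable k →
        Measurable (fun p : ℝ × (Fin n → ℝ) => k (Fin.cons p.1 p.2)) := by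
      intro k hk
      exact hk.comp measurable_cons
    have mouter : ∀ k : (Fin (n + 1) → ℝ) → ℝ≥0∞, Measurable k →
        Measurable (fun t : ℝ => ∫⁻ z : Fin n → ℝ, k (Fin.cons t z)) := by
      intro k hk
      exact (mcons k hk).lintegral_prod_right'
    rw [split f hf, split g hg, split h hh]
    apply pl1 (mouter f hf) (mouter g hg) (mouter h hh)
    intro s t
    apply ih
    · exact (mcons f hf).comp (measurable_const.prodMk measurable_id)
    · exact (mcons g hg).comp (measurable_const.prodMk measurable_id)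
    · exact (mcons h hh).comp (measurable_const.prodMk measurable_id)
    · intro x y
      have := H (Fin.cons s x) (Fin.cons t y)
      convert this using 3
      ext i
      refine Fin.cases ?_ (fun j => ?_) i
      · simp
      · simp

/-- The midpoint Prékopa–Leindler inequality on Euclidean space. -/
theorem prekopa {d : ℕ} {f g h : Eu d → ℝ≥0∞} (hf : Measurable f) (hg : Measurable g)
    (hh : Measurable h) (H : ∀ x y, f x * g y ≤ h ((1 / 2 : ℝ) • (x + y)) ^ 2) :
    (∫⁻ x, f x) * (∫⁻ x, g x) ≤ (∫⁻ x, h x) ^ 2 := by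
  have mp := PiLp.volume_preserving_toLp (Fin d)
  have conv : ∀ k : Eu d → ℝ≥0∞, Measurable k →
      ∫⁻ x, k x = ∫⁻ z : Fin d → ℝ, k (WithLp.toLp 2 z) := by
    intro k hk
    exact (mp.lintegral_comp hk).symm
  rw [conv f hf, conv g hg, conv h hh]
  have mt : Measurable (fun z : Fin d → ℝ => (WithLp.toLp 2 z : Eu d)) := mp.measurable
  apply plPi d (hf.comp mt) (hg.comp mt) (hh.comp mt)
  intro x y
  have := H (WithLp.toLp 2 x) (WithLp.toLp 2 y)
  have e : (1 / 2 : ℝ) • ((WithLp.toLp 2 x : Eu d) + WithLp.toLp 2 y) =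
      WithLp.toLp 2 (fun i => (x i + y i) / 2) := by
    ext i
    simp
    ring
  rw [e] at this
  exact this

end Vale.Agent.P074
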