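import Vale.Agent.P074.Weights

/-! Stability of the value function along a segment of site configurations. -/

open MeasureTheory Set Filter Topology
open scoped ENNReal RealInnerProductSpace

namespace Vale.Agent.P074

variable {d : ℕ} {J : Type*} [Fintype J] [Nonempty J]

/-- The supporting inequality for the value function in the site variables. -/
lemma Gv_site {K : Set (Eu d)} (hK : IsCompact K) {y : J → Eu d} (hy : Function.Injective y)
    (y' : J → Eu d) {j₀ : J} {B : ℝ} {m c : J → ℝ} (hc : c ∈ box j₀ B)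
    (hmin : ∀ c' ∈ box j₀ B, Jf K y m c ≤ Jf K y m c')
    (hvol : ∀ j, ∫ _ in cell K y c j, (1 : ℝ) = m j) :
    Gv K y j₀ B m + ∑ j, ∫ x in cell K y c j, ⟪x, y' j - y j⟫ ≤ Gv K y' j₀ B m := by
  have hne : (Jf K y' m '' box j₀ B).Nonempty := ⟨_, c, hc, rfl⟩
  apply le_csInf hne
  rintro _ ⟨c', hc', rfl⟩
  rw [Gv_eq hK y j₀ m hc hmin]
  have iC : ∀ {g : Eu d → ℝ}, Continuous g → ∀ j, IntegrableOn g (cell K y c j) :=
    fun hg j => (intK hK hg).mono_set (cell_subset K y c j)
  have hm := fun j => cell_meas hK.isClosed y c j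
  have e1 : ∫ x in K, pot y c x = ∑ j, ((∫ x in cell K y c j, ⟪x, y j⟫) - m j * c j) := by
    rw [← cell_sum hK.isClosed hy c (intK hK (pot_cont y c))]
    apply Finset.sum_congr rfl
    intro j _
    rw [← hvol j, mul_comm, ← integral_const_mul, ← integral_sub (iC (by fun_prop) j)
      (iC (by fun_prop) j)]
    apply setIntegral_congr_fun (hm j)
    intro x hx
    show pot y c x = ⟪x, y j⟫ - c j * 1
    rw [pot_cell hx, mul_one]
  have e2 : ∑ j, ((∫ x in cell K y c j, ⟪x, y' j⟫) - m j * c' j) ≤ ∫ x in K, pot y' c' x := by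
    rw [← cell_sum hK.isClosed hy c (intK hK (pot_cont y' c'))]
    apply Finset.sum_le_sum
    intro j _
    rw [← hvol j, mul_comm, ← integral_const_mul, ← integral_sub (iC (by fun_prop) j)
      (iC (by fun_prop) j)]
    apply setIntegral_mono_on ((iC (by fun_prop) j).sub (iC (by fun_prop) j))
      (iC (pot_cont y' c') j) (hm j)
    intro x _
    show ⟪x, y' j⟫ - c' j * 1 ≤ pot y' c' x
    rw [mul_one]
    exact pot_ge y' c' x j
  have e3 : ∑ j, ∫ x in cell K y c j, ⟪x, y' j - y j⟫ =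
      ∑ j, (∫ x in cell K y c j, ⟪x, y' j⟫) - ∑ j, ∫ x in cell K y c j, ⟪x, y j⟫ := by
    rw [← Finset.sum_sub_distrib]
    apply Finset.sum_congr rfl
    intro j _
    rw [← integral_sub (iC (by fun_prop) j) (iC (by fun_prop) j)]
    simp only [inner_sub_right]
  unfold Jf
  rw [e1, e3]
  rw [Finset.sum_sub_distrib] at e2 ⊢
  linarith

omit [Nonempty J] in
/-- There are arbitrarily fine uniform partitions avoiding all coincidences of sites. -/
lemma good_N {y v : J → Eu d} (h0 : Function.Injective y)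
    (h1 : Function.Injective (fun j => y j + v j)) (n₀ : ℕ) :
    ∃ N, n₀ ≤ N ∧ 0 < N ∧ ∀ k ≤ N, Function.Injective (fun j => y j + ((k : ℝ) / N) • v j) := by
  by_contra hcon
  push Not at hcon
  -- bad primes
  let P := {p : ℕ // p.Prime ∧ n₀ ≤ p}
  have hinf : Infinite P := by
    have : {p : ℕ | p.Prime ∧ n₀ ≤ p}.Infinite := by
      rw [Set.infinite_iff_exists_gt]
      intro a
      obtain ⟨p, hp1, hp2⟩ := Nat.exists_infinite_primes (max a n₀ + 1)
      exact ⟨p, ⟨hp2, by omega⟩, by omega⟩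
    exact this.to_subtype
  have hbad : ∀ p : P, ∃ (ab : J × J) (k : ℕ), 0 < k ∧ k < p.1 ∧ ab.1 ≠ ab.2 ∧
      y ab.1 + ((k : ℝ) / p.1) • v ab.1 = y ab.2 + ((k : ℝ) / p.1) • v ab.2 := by
    rintro ⟨p, hp, hn⟩
    obtain ⟨k, hk, hk2⟩ := hcon p hn hp.pos
    rw [Function.Injective] at hk2
    push Not at hk2
    obtain ⟨a, b, hab, hne⟩ := hk2
    refine ⟨(a, b), k, ?_, ?_, hne, hab⟩
    · rcases Nat.eq_zero_or_pos k with h | h
      · rw [h] at hab
        simp only [Nat.cast_zero, zero_div, zero_smul, add_zero] at hab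
        exact absurd (h0 hab) hne
      · exact h
    · rcases Nat.lt_or_ge k p with h | h
      · exact h
      · have hkp : k = p := le_antisymm hk h
        rw [hkp, div_self (by exact_mod_cast hp.pos.ne')] at hab
        simp only [one_smul] at hab
        exact absurd (h1 hab) hne
  choose ab k hk0 hk1 hne he using hbad
  obtain ⟨p, q, hpq, habpq⟩ := Finite.exists_ne_map_eq_of_infinite ab
  have hp := he p
  have hq := he q
  rw [← habpq] at hq
  set a := (ab p).1
  set b := (ab p).2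
  have hvne : v a - v b ≠ 0 := by
    intro h
    have hv : v a = v b := sub_eq_zero.1 h
    rw [hv] at hp
    exact hne p (h0 (add_right_cancel hp))
  have e1 : ((k p : ℝ) / p.1) • (v a - v b) = ((k q : ℝ) / q.1) • (v a - v b) := by
    have h2 : ((k p : ℝ) / p.1) • (v a - v b) = y b - y a := by
      linear_combination (norm := module) hp
    have h3 : ((k q : ℝ) / q.1) • (v a - v b) = y b - y a := by
      linear_combination (norm := module) hq
    rw [h2, h3]
  have e2 : (k p : ℝ) / p.1 = (k q : ℝ) / q.1 := smul_left_injective ℝ hvne e1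
  have hp0 : (p.1 : ℝ) ≠ 0 := by exact_mod_cast p.2.1.pos.ne'
  have hq0 : (q.1 : ℝ) ≠ 0 := by exact_mod_cast q.2.1.pos.ne'
  rw [div_eq_div_iff hp0 hq0] at e2
  have e3 : k p * q.1 = k q * p.1 := by exact_mod_cast e2
  have hcop : Nat.Coprime p.1 q.1 := by
    rw [Nat.coprime_primes p.2.1 q.2.1]
    intro h
    exact hpq (Subtype.ext h)
  have hdvd : p.1 ∣ k p := hcop.dvd_of_dvd_mul_right (by rw [e3]; exact dvd_mul_left _ _)
  have := Nat.le_of_dvd (hk0 p) hdvd
  have := hk1 p
  omega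

/-- Stability of the difference of value functions under changes of the masses. -/
lemma gdiff {K : Set (Eu d)} (hKc : Convex ℝ K) (hK : IsCompact K) {R M : ℝ} (hR : 0 < R)
    (hKR : K ⊆ Metric.closedBall 0 R) {y v : J → Eu d} (hy : Function.Injective y)
    (hy' : Function.Injective (fun j => y j + v j)) (hM : ∀ j, ‖y j‖ ≤ M)
    (hM' : ∀ j, ‖y j + v j‖ ≤ M) {B : ℝ} (hB : 2 * R * M < B) {j₀ : J} {m m' : J → ℝ}
    (hm : ∀ j, 0 < m j) (hm' : ∀ j, 0 < m' j) (hsum : ∑ j, m j = ∫ _ in K, (1 : ℝ))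
    (hsum' : ∑ j, m' j = ∫ _ in K, (1 : ℝ)) (h1 : ∀ j, m j ≤ 2 * m' j)
    (h2 : ∀ j, m' j ≤ 2 * m j) :
    (Gv K (fun j => y j + v j) j₀ B m' - Gv K y j₀ B m') -
      (Gv K (fun j => y j + v j) j₀ B m - Gv K y j₀ B m) ≤
      35 * R * Real.sqrt (∑ j, m j * ‖v j‖ ^ 2) * Real.sqrt (∑ j, (m j - m' j) ^ 2 / m j) := by
  set L := 35 * R * Real.sqrt (∑ j, m j * ‖v j‖ ^ 2) *
    Real.sqrt (∑ j, (m j - m' j) ^ 2 / m j) with hL
  have hM0 : 0 ≤ M := (norm_nonneg _).trans (hM j₀)
  have hB0 : 0 ≤ B := by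
    have : 0 ≤ 2 * R * M := by positivity
    linarith
  set Q := ∑ j, R * ‖v j‖ * volume.real K with hQ
  have hQ0 : 0 ≤ Q := Finset.sum_nonneg fun j _ => by positivity
  -- bound for one partition
  have main : ∀ N : ℕ, 0 < N →
      (∀ k ≤ N, Function.Injective (fun j => y j + ((k : ℝ) / N) • v j)) →
      (Gv K (fun j => y j + v j) j₀ B m' - Gv K y j₀ B m') -
      (Gv K (fun j => y j + v j) j₀ B m - Gv K y j₀ B m) ≤ L + 2 * Q / N := by
    intro N hN hinj
    have hNr : (0 : ℝ) < N := by exact_mod_cast hN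
    set Y : ℕ → J → Eu d := fun k j => y j + ((k : ℝ) / N) • v j with hY
    have hY0 : Y 0 = y := by
      ext1 j; simp [hY]
    have hYN : Y N = fun j => y j + v j := by
      ext1 j; simp only [hY]; rw [div_self hNr.ne', one_smul]
    have hYM : ∀ k ≤ N, ∀ j, ‖Y k j‖ ≤ M := by
      intro k hk j
      have ht : (k : ℝ) / N ≤ 1 := by
        rw [div_le_one hNr]; exact_mod_cast hk
      have ht0 : 0 ≤ (k : ℝ) / N := by positivity
      have e : Y k j = (1 - (k : ℝ) / N) • y j + ((k : ℝ) / N) • (y j + v j) := by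
        simp only [hY]; module
      rw [e]
      calc _ ≤ ‖(1 - (k : ℝ) / N) • y j‖ + ‖((k : ℝ) / N) • (y j + v j)‖ := norm_add_le _ _
        _ = (1 - (k : ℝ) / N) * ‖y j‖ + ((k : ℝ) / N) * ‖y j + v j‖ := by
          rw [norm_smul, norm_smul, Real.norm_eq_abs, Real.norm_eq_abs,
            abs_of_nonneg ht0, abs_of_nonneg (by linarith)]
        _ ≤ (1 - (k : ℝ) / N) * M + ((k : ℝ) / N) * M := by
          have hs : 0 ≤ 1 - (k : ℝ) / N := by linarith
          exact add_le_add (mul_le_mul_of_nonneg_left (hM j) hs)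
            (mul_le_mul_of_nonneg_left (hM' j) ht0)
        _ = M := by ring
    have hex : ∀ (n : J → ℝ), (∀ j, 0 < n j) → (∑ j, n j = ∫ _ in K, (1 : ℝ)) → ∀ k : ℕ,
        ∃ c : J → ℝ, k ≤ N → (c ∈ box j₀ B ∧ (∀ c' ∈ box j₀ B, Jf K (Y k) n c ≤ Jf K (Y k) n c') ∧
          ∀ j, ∫ _ in cell K (Y k) c j, (1 : ℝ) = n j) := by
      intro n hn hns k
      obtain ⟨c, hc, hmin⟩ := exists_minc hK (Y k) n j₀ hB0
      exact ⟨c, fun hk => ⟨hc, hmin,
        weights hK (hinj k hk) hKR hR.le (hYM k hk) hB hn hns hc hmin⟩⟩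
    choose c hc using hex m hm hsum
    choose c' hc' using hex m' hm' hsum'
    set a : ℕ → ℝ := fun k => ∑ j, ∫ x in cell K (Y k) (c k) j, ⟪x, v j⟫ with ha
    set a' : ℕ → ℝ := fun k => ∑ j, ∫ x in cell K (Y k) (c' k) j, ⟪x, v j⟫ with ha'
    have hab : ∀ k, |a k| ≤ Q := by
      intro k
      refine (Finset.abs_sum_le_sum_abs _ _).trans (Finset.sum_le_sum fun j _ => ?_)
      have hfin : volume (cell K (Y k) (c k) j) < ∞ :=
        (measure_mono (cell_subset K _ _ j)).trans_lt hK.measure_lt_top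
      calc |∫ x in cell K (Y k) (c k) j, ⟪x, v j⟫|
          ≤ R * ‖v j‖ * volume.real (cell K (Y k) (c k) j) := by
            refine norm_setIntegral_le_of_norm_le_const (f := fun x => ⟪x, v j⟫) hfin
              fun x hx => ?_
            have hxR : ‖x‖ ≤ R := by simpa using hKR hx.1
            calc ‖(⟪x, v j⟫ : ℝ)‖ ≤ ‖x‖ * ‖v j‖ := norm_inner_le_norm _ _
              _ ≤ R * ‖v j‖ := by gcongr
        _ ≤ R * ‖v j‖ * volume.real K := by
            gcongr
            · exact hK.measure_lt_top.ne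
            · exact cell_subset K _ _ j
    have hdiff : ∀ k l : ℕ, ∀ j, Y l j - Y k j = (((l : ℝ) - k) / N) • v j := by
      intro k l j
      simp only [hY]
      rw [sub_div]
      module
    have hstep : ∀ k l : ℕ, ∀ e : J → ℝ,
        ∑ j, ∫ x in cell K (Y k) e j, ⟪x, Y l j - Y k j⟫ =
        (((l : ℝ) - k) / N) * ∑ j, ∫ x in cell K (Y k) e j, ⟪x, v j⟫ := by
      intro k l e
      rw [Finset.mul_sum]
      apply Finset.sum_congr rfl
      intro j _
      rw [hdiff, ← integral_const_mul]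
      simp only [inner_smul_right]
    have s1 : ∀ k < N, Gv K (Y k) j₀ B m + 1 / N * a k ≤ Gv K (Y (k + 1)) j₀ B m := by
      intro k hk
      obtain ⟨p1, p2, p3⟩ := hc k hk.le
      have h3 := Gv_site hK (hinj k hk.le) (Y (k + 1)) p1 p2 p3
      have e := hstep k (k + 1) (c k)
      push_cast at e
      rw [add_sub_cancel_left] at e
      rw [← e]
      exact h3
    have s2 : ∀ k < N, Gv K (Y (k + 1)) j₀ B m' - 1 / N * a' (k + 1) ≤ Gv K (Y k) j₀ B m' := by
      intro k hk
      obtain ⟨p1, p2, p3⟩ := hc' (k + 1) hk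
      have h3 := Gv_site hK (hinj (k + 1) hk) (Y k) p1 p2 p3
      have e := hstep (k + 1) k (c' (k + 1))
      push_cast at e
      have e' : ((k : ℝ) - (k + 1)) / N = -(1 / N) := by ring
      rw [e'] at e
      have h4 : ∑ j, ∫ x in cell K (Y (k + 1)) (c' (k + 1)) j, ⟪x, Y k j - Y (k + 1) j⟫ =
        -(1 / N) * a' (k + 1) := e
      rw [← hY] at *
      have h5 := h3
      rw [h4] at h5
      linarith
    have s3 : ∀ k ≤ N, a' k - a k ≤ L := by
      intro k hk
      obtain ⟨p1, p2, p3⟩ := hc k hk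
      obtain ⟨q1, q2, q3⟩ := hc' k hk
      have h3 := baryStab hR hKc hK hKR (hinj k hk) (c k) (c' k) v m m'
        (fun j => (p3 j).symm) (fun j => (q3 j).symm) hm h1 h2
      rw [Finset.sum_sub_distrib] at h3
      have h4 := neg_abs_le (∑ j, (∫ x in cell K (Y k) (c k) j, ⟪x, v j⟫) -
        ∑ j, ∫ x in cell K (Y k) (c' k) j, ⟪x, v j⟫)
      have h5 : |a k - a' k| ≤ L := h3
      have h6 := neg_abs_le (a k - a' k)
      linarith
    -- telescoping
    have tel : ∀ n ≤ N, (Gv K (Y n) j₀ B m' - Gv K (Y 0) j₀ B m') -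
        (Gv K (Y n) j₀ B m - Gv K (Y 0) j₀ B m) ≤ n / N * L + 1 / N * (a n - a 0) := by
      intro n
      induction n with
      | zero => intro _; simp
      | succ n ih =>
        intro hn
        have h3 := ih (by omega)
        have h4 := s1 n (by omega)
        have h5 := s2 n (by omega)
        have h6 := s3 (n + 1) hn
        have h7 : 1 / (N : ℝ) * (a' (n + 1) - a (n + 1)) ≤ 1 / N * L :=
          mul_le_mul_of_nonneg_left h6 (by positivity)
        push_cast
        have e : ((n : ℝ) + 1) / N * L + 1 / N * (a (n + 1) - a 0) =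
          (n / N * L + 1 / N * (a n - a 0)) + 1 / N * L + 1 / N * a (n + 1) - 1 / N * a n := by
          ring
        rw [e]
        rw [mul_sub] at h7
        linarith
    have h3 := tel N le_rfl
    rw [hY0, hYN, div_self hNr.ne', one_mul] at h3
    refine h3.trans ?_
    have h4 := abs_le.1 (hab N)
    have h5 := abs_le.1 (hab 0)
    have h6 : 1 / (N : ℝ) * (a N - a 0) ≤ 1 / N * (2 * Q) :=
      mul_le_mul_of_nonneg_left (by linarith) (by positivity)
    have e : 2 * Q / N = 1 / N * (2 * Q) := by ring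
    rw [e]
    linarith
  apply le_of_forall_pos_le_add
  intro ε hε
  obtain ⟨n₀, hn₀⟩ := exists_nat_gt (2 * Q / ε)
  obtain ⟨N, hN1, hN2, hN3⟩ := good_N hy hy' n₀
  refine (main N hN2 hN3).trans ?_
  gcongr
  have hNr : (0 : ℝ) < N := by exact_mod_cast hN2
  rw [div_lt_iff₀ hε] at hn₀
  rw [div_le_iff₀ hNr]
  have : (n₀ : ℝ) ≤ N := by exact_mod_cast hN1
  nlinarith

end Vale.Agent.P074
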