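import Vale.Agent.P074.Main

/-! The exponent `1/3` is admissible, and admissibility is monotone. -/

open MeasureTheory Set Filter Topology
open scoped ENNReal RealInnerProductSpace

namespace Vale.Agent.P074

variable {d : ℕ}

lemma ae_mem_of_map {ρ μ : Measure (Eu d)} {T : Eu d → Eu d} (hT : Measurable T)
    (hmap : ρ.map T = μ) {Y : Set (Eu d)} (hμ : μ Yᶜ = 0) : ∀ᵐ x ∂ρ, T x ∈ Y := by
  have h1 : ∀ᵐ y ∂(ρ.map T), y ∈ Y := by rw [hmap]; exact hμ
  exact ae_of_ae_map hT.aemeasurable h1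

/-- Facts on couplings of compactly supported measures. -/
lemma coupling_cost {M : ℝ} {Y : Set (Eu d)} (hYM : Y ⊆ Metric.closedBall 0 M)
    {μ ν : Measure (Eu d)} (hμp : IsProbabilityMeasure μ) (hμ : μ Yᶜ = 0) (hν : ν Yᶜ = 0)
    {γ : Measure (Eu d × Eu d)} (h1 : γ.map Prod.fst = μ) (h2 : γ.map Prod.snd = ν) :
    ∫⁻ q, ENNReal.ofReal (‖q.1 - q.2‖ ^ 2) ∂γ =
      ENNReal.ofReal (∫ q, ‖q.1 - q.2‖ ^ 2 ∂γ) ∧
      ∫ q, ‖q.1 - q.2‖ ^ 2 ∂γ ≤ (2 * M) ^ 2 := by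
  have hγ : IsProbabilityMeasure γ := by
    constructor
    have h3 : (γ.map Prod.fst) univ = 1 := by rw [h1]; exact measure_univ
    rwa [Measure.map_apply measurable_fst MeasurableSet.univ, preimage_univ] at h3
  have hY1 : ∀ᵐ q ∂γ, q.1 ∈ Y := by
    have h3 : ∀ᵐ x ∂(γ.map Prod.fst), x ∈ Y := by rw [h1]; exact hμ
    exact ae_of_ae_map measurable_fst.aemeasurable h3
  have hY2 : ∀ᵐ q ∂γ, q.2 ∈ Y := by
    have h3 : ∀ᵐ x ∂(γ.map Prod.snd), x ∈ Y := by rw [h2]; exact hν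
    exact ae_of_ae_map measurable_snd.aemeasurable h3
  have hb : ∀ᵐ q ∂γ, ‖q.1 - q.2‖ ^ 2 ≤ (2 * M) ^ 2 := by
    filter_upwards [hY1, hY2] with q hq1 hq2
    have a1 : ‖q.1‖ ≤ M := by simpa using hYM hq1
    have a2 : ‖q.2‖ ≤ M := by simpa using hYM hq2
    have a3 := norm_sub_le q.1 q.2
    gcongr
    linarith
  have i1 : Integrable (fun q : Eu d × Eu d => ‖q.1 - q.2‖ ^ 2) γ := by
    refine Integrable.of_bound (C := (2 * M) ^ 2)
      (Measurable.aestronglyMeasurable (by fun_prop)) ?_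
    filter_upwards [hb] with q hq
    rwa [Real.norm_eq_abs, abs_of_nonneg (sq_nonneg _)]
  refine ⟨(ofReal_integral_eq_lintegral_ofReal i1
    (Eventually.of_forall fun q => sq_nonneg _)).symm, ?_⟩
  have h3 := integral_mono_ae i1 (integrable_const ((2 * M) ^ 2)) hb
  simpa using h3

/-- The coupling induced by two optimal maps. -/
lemma map_coupling {ρ μ ν : Measure (Eu d)} {S T : Eu d → Eu d} (hS : Measurable S)
    (hT : Measurable T) (h1 : ρ.map S = μ) (h2 : ρ.map T = ν) :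
    (ρ.map (fun x => (S x, T x))).map Prod.fst = μ ∧
      (ρ.map (fun x => (S x, T x))).map Prod.snd = ν := by
  have hm : Measurable (fun x => (S x, T x)) := hS.prodMk hT
  constructor
  · rw [Measure.map_map measurable_fst hm]; exact h1
  · rw [Measure.map_map measurable_snd hm]; exact h2

lemma W2sq_le {M : ℝ} {Y : Set (Eu d)} (hYM : Y ⊆ Metric.closedBall 0 M)
    {ρ μ ν : Measure (Eu d)} (hμp : IsProbabilityMeasure μ) (hμ : μ Yᶜ = 0) (hν : ν Yᶜ = 0)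
    {S T : Eu d → Eu d} (hS : Measurable S)
    (hT : Measurable T) (h1 : ρ.map S = μ) (h2 : ρ.map T = ν) :
    W2sq μ ν ≤ ENNReal.ofReal ((2 * M) ^ 2) := by
  obtain ⟨m1, m2⟩ := map_coupling hS hT h1 h2
  obtain ⟨c1, c2⟩ := coupling_cost hYM hμp hμ hν m1 m2
  have h3 : W2sq μ ν ≤
      ∫⁻ q, ENNReal.ofReal (‖q.1 - q.2‖ ^ 2) ∂(ρ.map (fun x => (S x, T x))) := by
    unfold W2sq
    exact sInf_le ⟨_, m1, m2, rfl⟩
  rw [c1] at h3
  exact h3.trans (ENNReal.ofReal_le_ofReal c2)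

lemma W2_le {M : ℝ} (hM : 0 ≤ M) {Y : Set (Eu d)} (hYM : Y ⊆ Metric.closedBall 0 M)
    {ρ μ ν : Measure (Eu d)} (hμp : IsProbabilityMeasure μ) (hμ : μ Yᶜ = 0) (hν : ν Yᶜ = 0)
    {S T : Eu d → Eu d} (hS : Measurable S)
    (hT : Measurable T) (h1 : ρ.map S = μ) (h2 : ρ.map T = ν) : W2 μ ν ≤ 2 * M := by
  unfold W2
  have h3 := W2sq_le hYM hμp hμ hν hS hT h1 h2
  have h4 : (W2sq μ ν).toReal ≤ (2 * M) ^ 2 :=
    ENNReal.toReal_le_of_le_ofReal (sq_nonneg _) h3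
  calc Real.sqrt (W2sq μ ν).toReal ≤ Real.sqrt ((2 * M) ^ 2) := Real.sqrt_le_sqrt h4
    _ = 2 * M := Real.sqrt_sq (by positivity)

/-- Admissibility is monotone. -/
lemma Admissible.mono {α β : ℝ} (hα : 0 < α) (hαβ : α ≤ β) (h : Admissible d β) :
    Admissible d α := by
  intro K hKc hK hi Y hY hYne
  obtain ⟨C, hC⟩ := h K hKc hK hi Y hY hYne
  obtain ⟨M, hM, hYM⟩ := hY.isBounded.subset_closedBall_lt 0 (0 : Eu d)
  refine ⟨|C| * (2 * M) ^ (β - α), ?_⟩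
  intro μ ν hμp hνp hμ hν S T hS hT
  have h1 := hC μ ν hμp hνp hμ hν S T hS hT
  have hW := W2_le hM.le hYM hμp hμ hν hS.1 hT.1 hS.2.1 hT.2.1
  have hW0 : 0 ≤ W2 μ ν := Real.sqrt_nonneg _
  refine h1.trans ?_
  have e1 : W2 μ ν ^ β = W2 μ ν ^ (β - α) * W2 μ ν ^ α := by
    rw [← Real.rpow_add_of_nonneg hW0 (by linarith) hα.le]; congr 1; ring
  rw [e1]
  have e2 : W2 μ ν ^ (β - α) ≤ (2 * M) ^ (β - α) :=
    Real.rpow_le_rpow hW0 hW (by linarith)
  have e3 : 0 ≤ W2 μ ν ^ (β - α) := Real.rpow_nonneg hW0 _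
  have e4 : 0 ≤ W2 μ ν ^ α := Real.rpow_nonneg hW0 _
  calc C * (W2 μ ν ^ (β - α) * W2 μ ν ^ α) ≤ |C| * (W2 μ ν ^ (β - α) * W2 μ ν ^ α) :=
        mul_le_mul_of_nonneg_right (le_abs_self C) (mul_nonneg e3 e4)
    _ ≤ |C| * ((2 * M) ^ (β - α) * W2 μ ν ^ α) := by gcongr
    _ = _ := by ring

/-- The final optimisation in the scale parameter. -/
lemma opt_scale {a A W : ℝ} (hA : 0 < A) (hW : 0 ≤ W)
    (h : ∀ r : ℝ, 0 < r → a ≤ A * (W ^ 2 / r ^ 2 + r)) :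
    Real.sqrt a ≤ Real.sqrt (2 * A) * W ^ (1 / 3 : ℝ) := by
  set t := W ^ (1 / 3 : ℝ) with ht
  have ht0 : 0 ≤ t := Real.rpow_nonneg hW _
  rcases hW.eq_or_lt with h0 | h0
  · have ha : a ≤ 0 := by
      apply le_of_forall_pos_le_add
      intro ε hε
      have h1 := h (ε / A) (by positivity)
      rw [← h0] at h1
      have e : A * ((0 : ℝ) ^ 2 / (ε / A) ^ 2 + ε / A) = ε := by field_simp; simp
      rw [e] at h1
      linarith
    rw [Real.sqrt_eq_zero_of_nonpos ha]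
    positivity
  · have htp : 0 < t := Real.rpow_pos_of_pos h0 _
    have ht3 : t ^ 3 = W := by
      rw [ht, ← Real.rpow_natCast, ← Real.rpow_mul hW]
      norm_num
    have h1 := h (t ^ 2) (by positivity)
    have e : A * (W ^ 2 / (t ^ 2) ^ 2 + t ^ 2) = 2 * A * t ^ 2 := by
      rw [← ht3]; field_simp; ring
    rw [e] at h1
    calc Real.sqrt a ≤ Real.sqrt (2 * A * t ^ 2) := Real.sqrt_le_sqrt h1
      _ = Real.sqrt (2 * A) * t := by
        rw [Real.sqrt_mul (by positivity), Real.sqrt_sq ht0]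

/-- The exponent `1/3` is admissible in every dimension. -/
theorem admissible_third (hd : 0 < d) : Admissible d (1 / 3) := by
  intro K hKc hK hi Y hY hYne
  obtain ⟨A, hA, hkey⟩ := key_dir hd hKc hK hi hY
  obtain ⟨M, hM, hYM⟩ := hY.isBounded.subset_closedBall_lt 0 (0 : Eu d)
  have hvol : volume K ≠ 0 :=
    (lt_of_lt_of_le (isOpen_interior.measure_pos volume hi) (measure_mono interior_subset)).ne'
  have hκ0 : 0 < (volume K).toReal := ENNReal.toReal_pos hvol hK.measure_lt_top.ne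
  have hfin : IsFiniteMeasure (volume.restrict K) := ⟨by
      rw [Measure.restrict_apply_univ]; exact hK.measure_lt_top⟩
  have hdr : (0 : ℝ) < d := by exact_mod_cast hd
  set A' := (volume K).toReal⁻¹ * (d * A) with hA'
  have hA'0 : 0 < A' := by positivity
  refine ⟨Real.sqrt (2 * A'), ?_⟩
  intro μ ν hμp hνp hμ hν S T hS hT
  have hSY := ae_mem_of_map hS.1 hS.2.1 hμ
  have hTY := ae_mem_of_map hT.1 hT.2.1 hν
  rw [unif_ae_iff hK.measure_lt_top.ne] at hSY hTY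
  -- reduction to coordinates
  set e : Fin d → Eu d := fun i => EuclideanSpace.single i (1 : ℝ) with he
  have hen : ∀ i, ‖e i‖ = 1 := fun i => by rw [he]; simp
  have hsum : ∀ u : Eu d, ‖u‖ ^ 2 = ∑ i, ⟪u, e i⟫ ^ 2 := by
    intro u
    rw [EuclideanSpace.norm_sq_eq]
    apply Finset.sum_congr rfl
    intro i _
    rw [he]; simp only
    rw [EuclideanSpace.inner_single_right]
    simp
  have hI : ∀ i, IntegrableOn (fun x => ⟪S x - T x, e i⟫ ^ 2) K := by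
    intro i
    have m1 : Measurable (fun x => S x - T x) := hS.1.sub hT.1
    refine Integrable.of_bound (C := (2 * M) ^ 2)
      (Measurable.aestronglyMeasurable (by fun_prop)) ?_
    filter_upwards [hSY, hTY] with x hx hx'
    have b1 : ‖S x‖ ≤ M := by simpa using hYM hx
    have b2 : ‖T x‖ ≤ M := by simpa using hYM hx'
    rw [Real.norm_eq_abs, abs_pow]
    have : |⟪S x - T x, e i⟫| ≤ 2 * M := by
      calc |⟪S x - T x, e i⟫| ≤ ‖S x - T x‖ * ‖e i‖ := abs_real_inner_le_norm _ _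
        _ ≤ 2 * M := by
          rw [hen, mul_one]; exact (norm_sub_le _ _).trans (by linarith)
    gcongr
  have eI : ∫ x, ‖S x - T x‖ ^ 2 ∂(unif K) =
      (volume K).toReal⁻¹ * ∑ i, ∫ x in K, ⟪S x - T x, e i⟫ ^ 2 := by
    unfold unif
    rw [integral_smul_measure, ENNReal.toReal_inv, smul_eq_mul]
    simp only [hsum]
    rw [integral_finsetSum _ fun i _ => hI i]
  have hcoup : ∀ γ : Measure (Eu d × Eu d), γ.map Prod.fst = μ → γ.map Prod.snd = ν →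
      ∀ r : ℝ, 0 < r → ∫ x, ‖S x - T x‖ ^ 2 ∂(unif K) ≤
        A' * ((∫ q, ‖q.1 - q.2‖ ^ 2 ∂γ) / r ^ 2 + r) := by
    intro γ g1 g2 r hr
    rw [eI, hA', mul_assoc]
    apply mul_le_mul_of_nonneg_left _ (by positivity)
    calc ∑ i, ∫ x in K, ⟪S x - T x, e i⟫ ^ 2
        ≤ ∑ _ : Fin d, A * ((∫ q, ‖q.1 - q.2‖ ^ 2 ∂γ) / r ^ 2 + r) :=
          Finset.sum_le_sum fun i _ =>
            hkey μ ν hμp hνp hμ hν S T hS hT γ g1 g2 (e i) (hen i) r hr
      _ = _ := by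
        rw [Finset.sum_const, Finset.card_univ, Fintype.card_fin, nsmul_eq_mul]; ring
  set a := ∫ x, ‖S x - T x‖ ^ 2 ∂(unif K) with ha
  have hWfin : W2sq μ ν ≠ ∞ :=
    ((W2sq_le hYM hμp hμ hν hS.1 hT.1 hS.2.1 hT.2.1).trans_lt ENNReal.ofReal_lt_top).ne
  have hW2 : W2 μ ν ^ 2 = (W2sq μ ν).toReal := Real.sq_sqrt ENNReal.toReal_nonneg
  apply opt_scale hA'0 (Real.sqrt_nonneg _)
  intro r hr
  have hr2 : 0 < r ^ 2 := by positivity
  have hlow : ENNReal.ofReal ((a / A' - r) * r ^ 2) ≤ W2sq μ ν := by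
    apply le_sInf
    rintro _ ⟨γ, g1, g2, rfl⟩
    rw [(coupling_cost hYM hμp hμ hν g1 g2).1]
    apply ENNReal.ofReal_le_ofReal
    have h3 := hcoup γ g1 g2 r hr
    rw [← le_div_iff₀ hr2, sub_le_iff_le_add, div_le_iff₀ hA'0]
    linarith
  rw [ENNReal.ofReal_le_iff_le_toReal hWfin, ← hW2, ← le_div_iff₀ hr2, sub_le_iff_le_add,
    div_le_iff₀ hA'0] at hlow
  have e9 : A' * (W2 μ ν ^ 2 / r ^ 2 + r) = (W2 μ ν ^ 2 / r ^ 2 + r) * A' := mul_comm _ _
  rw [show Real.sqrt (W2sq μ ν).toReal = W2 μ ν from rfl, e9]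
  exact hlow

end Vale.Agent.P074
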