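import Vale.Agent.P074.Common

/-! Boundary estimates for convex bodies, and the two interpolation inequalities. -/

open MeasureTheory Set Filter Topology
open scoped ENNReal RealInnerProductSpace

namespace Vale.Agent.P074

variable {d : ℕ}

/-- Translating a convex body by `v` loses at most a volume `C ‖v‖`. -/
lemma trans_vol {K : Set (Eu d)} (hKc : Convex ℝ K) (hK : IsCompact K)
    (hi : (interior K).Nonempty) :
    ∃ C : ℝ, 0 ≤ C ∧ ∀ v : Eu d, volume.real (K \ ((fun x => x + v) ⁻¹' K)) ≤ C * ‖v‖ := by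
  obtain ⟨x₀, hx₀⟩ := hi
  obtain ⟨δ, hδ, hball⟩ := Metric.isOpen_iff.1 isOpen_interior x₀ hx₀
  set δ' := δ / 2 with hδ'
  have hδ'pos : 0 < δ' := by positivity
  have hcb : ∀ z : Eu d, ‖z‖ ≤ δ' → x₀ + z ∈ K := by
    intro z hz
    apply interior_subset
    apply hball
    rw [Metric.mem_ball, dist_eq_norm]
    have : x₀ + z - x₀ = z := by abel
    rw [this]; linarith
  set κ := volume.real K with hκ
  have hκ0 : 0 ≤ κ := measureReal_nonneg
  have hfin : volume K ≠ ∞ := hK.measure_lt_top.ne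
  refine ⟨κ * (d + 1) / δ', by positivity, fun v => ?_⟩
  have hle : volume.real (K \ ((fun x => x + v) ⁻¹' K)) ≤ κ :=
    measureReal_mono sdiff_subset hfin
  rcases le_or_gt ‖v‖ δ' with hv | hv
  · rcases eq_or_ne v 0 with h0 | h0
    · have : K \ ((fun x => x + v) ⁻¹' K) = ∅ := by
        rw [h0]; simp
      rw [this]; simp [h0]
    · set t := ‖v‖ / δ' with ht
      have hvpos : 0 < ‖v‖ := norm_pos_iff.2 h0
      have ht0 : 0 < t := by positivity
      have ht1 : t ≤ 1 := by rw [ht, div_le_one hδ'pos]; exact hv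
      set S := AffineMap.homothety x₀ (1 - t) '' K with hS
      have hx₀K : x₀ ∈ K := interior_subset hx₀
      have hSK : S ⊆ K := by
        rintro _ ⟨k, hk, rfl⟩
        have e : AffineMap.homothety x₀ (1 - t) k = (1 - t) • k + t • x₀ := by
          rw [AffineMap.homothety_apply]
          simp only [vsub_eq_sub, vadd_eq_add]
          module
        rw [e]
        exact hKc hk hx₀K (by linarith) ht0.le (by ring)
      have hSK' : S ⊆ (fun x => x + v) ⁻¹' K := by
        rintro _ ⟨k, hk, rfl⟩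
        have e : AffineMap.homothety x₀ (1 - t) k + v =
            (1 - t) • k + t • (x₀ + t⁻¹ • v) := by
          rw [AffineMap.homothety_apply, smul_add, smul_smul, mul_inv_cancel₀ ht0.ne', one_smul]
          simp only [vsub_eq_sub, vadd_eq_add]
          module
        show AffineMap.homothety x₀ (1 - t) k + v ∈ K
        rw [e]
        refine hKc hk (hcb _ ?_) (by linarith) ht0.le (by ring)
        rw [norm_smul, norm_inv, Real.norm_eq_abs, abs_of_pos ht0, ht]
        field_simp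
        exact le_refl _
      have hSm : MeasurableSet S := by
        have hc : IsCompact S := by
          apply hK.image
          have : (fun x : Eu d => AffineMap.homothety x₀ (1 - t) x) =
              fun x => (1 - t) • (x - x₀) + x₀ := by
            ext1 x
            rw [AffineMap.homothety_apply]; rfl
          show Continuous (fun x : Eu d => AffineMap.homothety x₀ (1 - t) x)
          rw [this]; fun_prop
        exact hc.measurableSet
      have hvol : volume.real S = (1 - t) ^ d * κ := by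
        rw [hS, hκ, measureReal_def, measureReal_def, Measure.addHaar_image_homothety,
          ENNReal.toReal_mul, finrank_euclideanSpace_fin, abs_of_nonneg (by
            have : 0 ≤ 1 - t := by linarith
            positivity), ENNReal.toReal_ofReal (by
            have : 0 ≤ 1 - t := by linarith
            positivity)]
      have h1 : volume.real (K \ S) = κ - (1 - t) ^ d * κ := by
        rw [measureReal_sdiff hSK hSm hfin, hvol]
      have h2 : 1 + (d : ℝ) * (-t) ≤ (1 + (-t)) ^ d :=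
        one_add_mul_le_pow (by linarith) d
      calc volume.real (K \ ((fun x => x + v) ⁻¹' K)) ≤ volume.real (K \ S) :=
            measureReal_mono (sdiff_subset_sdiff_right hSK')
              ((measure_mono sdiff_subset).trans_lt hK.measure_lt_top).ne
        _ = κ - (1 - t) ^ d * κ := h1
        _ ≤ κ * (d * t) := by
          have h3 : (1 + (-t)) ^ d = (1 - t) ^ d := by ring
          rw [h3] at h2
          nlinarith
        _ ≤ κ * ((d + 1) * t) := by gcongr; linarith
        _ = κ * (d + 1) / δ' * ‖v‖ := by rw [ht]; ring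
  · calc _ ≤ κ := hle
      _ ≤ κ * (d + 1) / δ' * ‖v‖ := by
        have h1 : 1 ≤ ‖v‖ / δ' := by rw [one_le_div hδ'pos]; exact hv.le
        have h2 : (1 : ℝ) ≤ (d : ℝ) + 1 := by
          have : (0 : ℝ) ≤ d := Nat.cast_nonneg d
          linarith
        calc κ = κ * (1 * 1) := by ring
          _ ≤ κ * ((d + 1) * (‖v‖ / δ')) := by gcongr
          _ = _ := by ring

/-- A Lipschitz potential and an a.e. selection `T` of its subgradients. -/
def Pot (K : Set (Eu d)) (M : ℝ) (φ : Eu d → ℝ) (T : Eu d → Eu d) : Prop :=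
  (∀ x z, |φ x - φ z| ≤ M * ‖x - z‖) ∧
    ∀ᵐ x ∂(volume.restrict K), ∀ z, φ x + ⟪T x, z - x⟫ ≤ φ z

lemma cont_of_lip {M : ℝ} (hM : 0 ≤ M) {φ : Eu d → ℝ}
    (hφ : ∀ x z, |φ x - φ z| ≤ M * ‖x - z‖) : Continuous φ := by
  have : LipschitzWith M.toNNReal φ := by
    apply LipschitzWith.of_dist_le_mul
    intro x z
    rw [Real.dist_eq, dist_eq_norm, Real.coe_toNNReal _ hM]
    exact hφ x z
  exact this.continuous

lemma pot_norm {K : Set (Eu d)} {M : ℝ} (hM : 0 ≤ M) {φ : Eu d → ℝ} {T : Eu d → Eu d}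
    (h : Pot K M φ T) : ∀ᵐ x ∂(volume.restrict K), ‖T x‖ ≤ M := by
  filter_upwards [h.2] with x hx
  have h1 := hx (x + T x)
  have h2 := h.1 (x + T x) x
  have h3 := le_abs_self (φ (x + T x) - φ x)
  have e : x + T x - x = T x := by abel
  rw [e] at h1 h2
  rw [real_inner_self_eq_norm_sq] at h1
  by_contra hcon
  rw [not_le] at hcon
  have h4 : 0 ≤ ‖T x‖ := norm_nonneg _
  by_cases h0 : ‖T x‖ = 0
  · rw [h0] at hcon; linarith
  · have h5 : 0 < ‖T x‖ := lt_of_le_of_ne h4 (Ne.symm h0)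
    nlinarith

section

variable {K : Set (Eu d)} (hK : IsCompact K) {C : ℝ}
  (hC : ∀ v : Eu d, volume.real (K \ ((fun x => x + v) ⁻¹' K)) ≤ C * ‖v‖)

include hK hC

lemma second_diff {M : ℝ} (hM : 0 ≤ M) {φ : Eu d → ℝ}
    (hφ : ∀ x z, |φ x - φ z| ≤ M * ‖x - z‖) (v : Eu d) :
    ∫ x in K, (φ (x + v) + φ (x - v) - 2 * φ x) ≤ 2 * M * C * ‖v‖ ^ 2 := by
  have hc := cont_of_lip hM hφ
  set D : Eu d → ℝ := fun x => φ (x + v) - φ x with hD
  have hDc : Continuous D := by fun_prop
  have hDb : ∀ x, ‖D x‖ ≤ M * ‖v‖ := by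
    intro x
    have := hφ (x + v) x
    rw [add_sub_cancel_left] at this
    exact this
  set K' := (fun x => x + v) ⁻¹' K with hK'
  have hKm : MeasurableSet K := hK.measurableSet
  have hK'm : MeasurableSet K' := hKm.preimage (by fun_prop)
  have hmp : MeasurePreserving (fun x : Eu d => x + v) volume volume :=
    measurePreserving_add_right volume v
  have hemb : MeasurableEmbedding (fun x : Eu d => x + v) :=
    (MeasurableEquiv.addRight v).measurableEmbedding
  have hK'fin : volume K' < ∞ := by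
    rw [hK', hmp.measure_preimage hKm.nullMeasurableSet]; exact hK.measure_lt_top
  have iD : IntegrableOn D K := hDc.continuousOn.integrableOn_compact hK
  have iD' : IntegrableOn D K' := by
    refine Measure.integrableOn_of_bounded (M := M * ‖v‖) hK'fin.ne hDc.aestronglyMeasurable ?_
    exact Eventually.of_forall hDb
  have e1 : ∫ x in K, D (x - v) = ∫ x in K', D x := by
    have h := hmp.setIntegral_preimage_emb hemb (fun y => D (y - v)) K
    rw [← h]
    simp only [add_sub_cancel_right]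
    rfl
  have e2 : ∫ x in K, (φ (x + v) + φ (x - v) - 2 * φ x) =
      (∫ x in K, D x) - ∫ x in K, D (x - v) := by
    rw [← integral_sub iD]
    · apply integral_congr_ae
      refine Eventually.of_forall fun x => ?_
      simp only [hD, sub_add_cancel]
      ring
    · exact (Continuous.continuousOn (by fun_prop)).integrableOn_compact hK
  have e3 : ∫ x in K, D x = (∫ x in K ∩ K', D x) + ∫ x in K \ K', D x :=
    (integral_inter_add_sdiff hK'm iD).symm
  have e4 : ∫ x in K', D x = (∫ x in K' ∩ K, D x) + ∫ x in K' \ K, D x :=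
    (integral_inter_add_sdiff hKm iD').symm
  have b1 : |∫ x in K \ K', D x| ≤ M * ‖v‖ * volume.real (K \ K') := by
    refine norm_setIntegral_le_of_norm_le_const ?_ fun x _ => hDb x
    exact (measure_mono sdiff_subset).trans_lt hK.measure_lt_top
  have b2 : |∫ x in K' \ K, D x| ≤ M * ‖v‖ * volume.real (K' \ K) := by
    refine norm_setIntegral_le_of_norm_le_const ?_ fun x _ => hDb x
    exact (measure_mono sdiff_subset).trans_lt hK'fin
  have v1 := hC v
  have v2 : volume.real (K' \ K) ≤ C * ‖v‖ := by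
    have h1 := hC (-v)
    rw [norm_neg] at h1
    have h2 : K' \ K = (fun x => x + v) ⁻¹' (K \ ((fun x => x + -v) ⁻¹' K)) := by
      ext x
      simp only [hK', Set.mem_sdiff, mem_preimage, add_neg_cancel_right]
    have h3 : MeasurableSet (K \ ((fun x => x + -v) ⁻¹' K)) :=
      hKm.diff (hKm.preimage (by fun_prop))
    rw [h2, measureReal_def, hmp.measure_preimage h3.nullMeasurableSet]
    exact h1
  rw [e2, e1, e3, e4, inter_comm K' K]
  have c1 := le_abs_self (∫ x in K \ K', D x)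
  have c2 := neg_abs_le (∫ x in K' \ K, D x)
  have hMv : 0 ≤ M * ‖v‖ := by positivity
  have d1 : M * ‖v‖ * volume.real (K \ K') ≤ M * ‖v‖ * (C * ‖v‖) :=
    mul_le_mul_of_nonneg_left v1 hMv
  have d2 : M * ‖v‖ * volume.real (K' \ K) ≤ M * ‖v‖ * (C * ‖v‖) :=
    mul_le_mul_of_nonneg_left v2 hMv
  have d3 : 2 * M * C * ‖v‖ ^ 2 = 2 * (M * ‖v‖ * (C * ‖v‖)) := by ring
  rw [d3]
  linarith

lemma hd_bound {M : ℝ} (hM : 0 ≤ M) {h : Eu d → ℝ}
    (hh : ∀ x z, |h x - h z| ≤ 2 * M * ‖x - z‖) (v : Eu d) :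
    ∫ x in K, (h (x + v) - h x) ^ 2 ≤ 4 * (∫ x in K, h x ^ 2) + 4 * M ^ 2 * C * ‖v‖ ^ 3 := by
  have hc : Continuous h := cont_of_lip (by positivity) hh
  set K' := (fun x => x + v) ⁻¹' K with hK'
  have hKm : MeasurableSet K := hK.measurableSet
  have hK'm : MeasurableSet K' := hKm.preimage (by fun_prop)
  have hmp : MeasurePreserving (fun x : Eu d => x + v) volume volume :=
    measurePreserving_add_right volume v
  have hemb : MeasurableEmbedding (fun x : Eu d => x + v) :=
    (MeasurableEquiv.addRight v).measurableEmbedding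
  have ic : ∀ {g : Eu d → ℝ}, Continuous g → IntegrableOn g K := fun hg =>
    hg.continuousOn.integrableOn_compact hK
  have e0 : ∫ x in K', h (x + v) ^ 2 = ∫ x in K, h x ^ 2 :=
    hmp.setIntegral_preimage_emb hemb (fun y => h y ^ 2) K
  have hK'c : IsCompact K' := by
    have : K' = (Homeomorph.addRight v) ⁻¹' K := rfl
    rw [this]
    exact (Homeomorph.addRight v).isCompact_preimage.2 hK
  have i1 : IntegrableOn (fun x => h (x + v) ^ 2) K' :=
    (Continuous.continuousOn (by fun_prop)).integrableOn_compact hK'c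
  have e1 : ∫ x in K, (h (x + v) - h x) ^ 2 = (∫ x in K ∩ K', (h (x + v) - h x) ^ 2) +
      ∫ x in K \ K', (h (x + v) - h x) ^ 2 :=
    (integral_inter_add_sdiff hK'm (ic (by fun_prop))).symm
  have i2 : IntegrableOn (fun x => 2 * h (x + v) ^ 2) (K ∩ K') :=
    (i1.mono_set inter_subset_right).const_mul 2
  have i3 : IntegrableOn (fun x => 2 * h x ^ 2) (K ∩ K') :=
    (ic (by fun_prop)).mono_set inter_subset_left
  have b1 : ∫ x in K ∩ K', (h (x + v) - h x) ^ 2 ≤
      ∫ x in K ∩ K', (2 * h (x + v) ^ 2 + 2 * h x ^ 2) := by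
    apply integral_mono ((ic (by fun_prop)).mono_set inter_subset_left) (i2.add i3)
    intro x
    show (h (x + v) - h x) ^ 2 ≤ 2 * h (x + v) ^ 2 + 2 * h x ^ 2
    nlinarith [sq_nonneg (h (x + v) + h x)]
  rw [integral_add i2 i3, integral_const_mul, integral_const_mul] at b1
  have b2 : ∫ x in K ∩ K', h (x + v) ^ 2 ≤ ∫ x in K', h (x + v) ^ 2 :=
    setIntegral_mono_set i1 (Eventually.of_forall fun x => sq_nonneg _)
      (Eventually.of_forall fun x hx => hx.2)
  have b3 : ∫ x in K ∩ K', h x ^ 2 ≤ ∫ x in K, h x ^ 2 :=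
    setIntegral_mono_set (ic (by fun_prop)) (Eventually.of_forall fun x => sq_nonneg _)
      (Eventually.of_forall fun x hx => hx.1)
  have b4 : |∫ x in K \ K', (h (x + v) - h x) ^ 2| ≤ (2 * M * ‖v‖) ^ 2 * volume.real (K \ K') := by
    have hfin : volume (K \ K') < ∞ := (measure_mono sdiff_subset).trans_lt hK.measure_lt_top
    refine norm_setIntegral_le_of_norm_le_const (f := fun x => (h (x + v) - h x) ^ 2) hfin
      fun x _ => ?_
    have h1 := hh (x + v) x
    rw [add_sub_cancel_left] at h1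
    rw [Real.norm_eq_abs, abs_pow]
    gcongr
  have b5 : (2 * M * ‖v‖) ^ 2 * volume.real (K \ K') ≤ (2 * M * ‖v‖) ^ 2 * (C * ‖v‖) :=
    mul_le_mul_of_nonneg_left (hC v) (sq_nonneg _)
  have b6 := le_abs_self (∫ x in K \ K', (h (x + v) - h x) ^ 2)
  have e7 : (2 * M * ‖v‖) ^ 2 * (C * ‖v‖) = 4 * M ^ 2 * C * ‖v‖ ^ 3 := by ring
  rw [e1]
  linarith

omit hK hC in
/-- Pointwise consequences of the subgradient inequality. -/
lemma pw {M : ℝ} {φ ψ : Eu d → ℝ} {T T' : Eu d → Eu d}
    (hφ : ∀ x z, |φ x - φ z| ≤ M * ‖x - z‖) (hψ : ∀ x z, |ψ x - ψ z| ≤ M * ‖x - z‖)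
    {x : Eu d} (h1 : ∀ z, φ x + ⟪T x, z - x⟫ ≤ φ z) (h2 : ∀ z, ψ x + ⟪T' x, z - x⟫ ≤ ψ z)
    (w : Eu d) :
    let Δ := fun f : Eu d → ℝ => f (x + w) + f (x - w) - 2 * f x
    0 ≤ Δ φ ∧ 0 ≤ Δ ψ ∧ Δ φ ≤ 2 * M * ‖w‖ ∧ Δ ψ ≤ 2 * M * ‖w‖ ∧
      ⟪T x - T' x, w⟫ ≤ (φ (x + w) - φ x) - (ψ (x + w) - ψ x) + Δ ψ ∧
      -⟪T x - T' x, w⟫ ≤ -((φ (x + w) - φ x) - (ψ (x + w) - ψ x)) + Δ φ := by
  intro Δ
  have a1 := h1 (x + w)
  have a2 := h1 (x - w)
  have a3 := h2 (x + w)
  have a4 := h2 (x - w)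
  have e1 : x + w - x = w := by abel
  have e2 : x - w - x = -w := by abel
  rw [e1] at a1 a3
  rw [e2, inner_neg_right] at a2 a4
  have c1 := hφ (x + w) x
  have c2 := hφ (x - w) x
  have c3 := hψ (x + w) x
  have c4 := hψ (x - w) x
  rw [e1] at c1 c3
  rw [e2, norm_neg] at c2 c4
  have d1 := abs_le.1 c1
  have d2 := abs_le.1 c2
  have d3 := abs_le.1 c3
  have d4 := abs_le.1 c4
  simp only [Δ, inner_sub_left]
  refine ⟨by linarith, by linarith, by linarith, by linarith, by linarith, by linarith⟩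

/-- `L²` interpolation: the gradients are controlled by the potentials. -/
lemma interp {M : ℝ} (hM : 0 ≤ M) {φ ψ : Eu d → ℝ} {T T' : Eu d → Eu d}
    (h1 : Pot K M φ T) (h2 : Pot K M ψ T') (z : ℝ) {e : Eu d} (he : ‖e‖ = 1) {r : ℝ}
    (hr : 0 < r) :
    ∫ x in K, ⟪T x - T' x, e⟫ ^ 2 ≤
      8 * (∫ x in K, (φ x - ψ x + z) ^ 2) / r ^ 2 + 40 * M ^ 2 * C * r := by
  set h : Eu d → ℝ := fun x => φ x - ψ x + z with hh
  have hcφ := cont_of_lip hM h1.1
  have hcψ := cont_of_lip hM h2.1
  have hhc : Continuous h := by fun_prop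
  have hhl : ∀ x y, |h x - h y| ≤ 2 * M * ‖x - y‖ := by
    intro x y
    have e1 : h x - h y = (φ x - φ y) - (ψ x - ψ y) := by simp only [hh]; ring
    rw [e1]
    calc |(φ x - φ y) - (ψ x - ψ y)| ≤ |φ x - φ y| + |ψ x - ψ y| := abs_sub _ _
      _ ≤ M * ‖x - y‖ + M * ‖x - y‖ := add_le_add (h1.1 x y) (h2.1 x y)
      _ = _ := by ring
  set v := r • e with hv
  have hvn : ‖v‖ = r := by rw [hv, norm_smul, he, mul_one, Real.norm_eq_abs, abs_of_pos hr]
  have ic : ∀ {g : Eu d → ℝ}, Continuous g → IntegrableOn g K := fun hg =>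
    hg.continuousOn.integrableOn_compact hK
  have s1 := second_diff hK hC hM h1.1 v
  have s2 := second_diff hK hC hM h2.1 v
  have s3 := hd_bound hK hC hM hhl v
  rw [hvn] at s1 s2 s3
  have key : ∫ x in K, (r * ⟪T x - T' x, e⟫) ^ 2 ≤ ∫ x in K, (2 * (h (x + v) - h x) ^ 2 +
      8 * M * r * ((φ (x + v) + φ (x - v) - 2 * φ x) + (ψ (x + v) + ψ (x - v) - 2 * ψ x))) := by
    apply integral_mono_of_nonneg (Eventually.of_forall fun x => sq_nonneg _)
      (ic (by fun_prop))
    filter_upwards [h1.2, h2.2] with x hx1 hx2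
    obtain ⟨p1, p2, p3, p4, p5, p6⟩ := pw h1.1 h2.1 hx1 hx2 v
    have e1 : ⟪T x - T' x, v⟫ = r * ⟪T x - T' x, e⟫ := by
      rw [hv, inner_smul_right]
    have e2 : (φ (x + v) - φ x) - (ψ (x + v) - ψ x) = h (x + v) - h x := by
      simp only [hh]; ring
    rw [e1, e2] at p5 p6
    rw [hvn] at p3 p4
    set a := r * ⟪T x - T' x, e⟫ with ha
    set b := h (x + v) - h x with hb
    set s := φ (x + v) + φ (x - v) - 2 * φ x with hs
    set t := ψ (x + v) + ψ (x - v) - 2 * ψ x with ht
    have q1 : |a| ≤ |b| + (s + t) := by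
      rw [abs_le]
      have := le_abs_self b
      have := neg_abs_le b
      constructor <;> linarith
    have q2 : a ^ 2 ≤ (|b| + (s + t)) ^ 2 := by
      rw [← sq_abs a]; gcongr
    have q3 : (s + t) ^ 2 ≤ 4 * M * r * (s + t) := by nlinarith
    have q4 := sq_abs b
    show a ^ 2 ≤ 2 * b ^ 2 + 8 * M * r * (s + t)
    nlinarith [sq_nonneg (|b| - (s + t))]
  rw [integral_add (ic (by fun_prop)) (ic (by fun_prop)), integral_const_mul,
    integral_const_mul, integral_add (ic (by fun_prop)) (ic (by fun_prop))] at key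
  have e3 : ∫ x in K, (r * ⟪T x - T' x, e⟫) ^ 2 = r ^ 2 * ∫ x in K, ⟪T x - T' x, e⟫ ^ 2 := by
    rw [← integral_const_mul]
    congr 1
    ext x
    ring
  rw [e3] at key
  have hMr : 0 ≤ 8 * M * r := by positivity
  have k2 : 8 * M * r * ((∫ x in K, φ (x + v) + φ (x - v) - 2 * φ x) +
      ∫ x in K, ψ (x + v) + ψ (x - v) - 2 * ψ x) ≤
      8 * M * r * (2 * M * C * r ^ 2 + 2 * M * C * r ^ 2) :=
    mul_le_mul_of_nonneg_left (add_le_add s1 s2) hMr
  have fin : r ^ 2 * ∫ x in K, ⟪T x - T' x, e⟫ ^ 2 ≤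
      8 * (∫ x in K, h x ^ 2) + 40 * M ^ 2 * C * r ^ 3 := by
    calc _ ≤ 2 * (4 * (∫ x in K, h x ^ 2) + 4 * M ^ 2 * C * r ^ 3) +
        8 * M * r * (2 * M * C * r ^ 2 + 2 * M * C * r ^ 2) := by linarith
      _ = _ := by ring
  have hr2 : 0 < r ^ 2 := by positivity
  have : 8 * (∫ x in K, h x ^ 2) / r ^ 2 + 40 * M ^ 2 * C * r =
      (8 * (∫ x in K, h x ^ 2) + 40 * M ^ 2 * C * r ^ 3) / r ^ 2 := by
    field_simp
  rw [this, le_div_iff₀ hr2]
  linarith

end

/-! ### The Legendre transform relative to `K` -/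

/-- The Legendre transform relative to `K`. -/
noncomputable def star (K : Set (Eu d)) (φ : Eu d → ℝ) (y : Eu d) : ℝ :=
  ⨆ x : K, (⟪(x : Eu d), y⟫ - φ x)

section

variable {K : Set (Eu d)} (hK : IsCompact K) {φ : Eu d → ℝ} (hφ : Continuous φ)

include hK hφ

lemma star_bdd (y : Eu d) : BddAbove (range fun x : K => (⟪(x : Eu d), y⟫ - φ x)) := by
  have hc : ContinuousOn (fun x : Eu d => ⟪x, y⟫ - φ x) K := by fun_prop
  have h := hK.bddAbove_image hc
  have : range (fun x : K => (⟪(x : Eu d), y⟫ - φ x)) = (fun x : Eu d => ⟪x, y⟫ - φ x) '' K := by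
    ext t; simp
  rw [this]; exact h

lemma star_le {x : Eu d} (hx : x ∈ K) (y : Eu d) : ⟪x, y⟫ - φ x ≤ star K φ y :=
  le_ciSup (star_bdd hK hφ y) (⟨x, hx⟩ : K)

lemma star_eq {x : Eu d} (hx : x ∈ K) {t : Eu d} (ht : ∀ z, φ x + ⟪t, z - x⟫ ≤ φ z) :
    star K φ t = ⟪x, t⟫ - φ x := by
  apply le_antisymm _ (star_le hK hφ hx t)
  have : Nonempty K := ⟨⟨x, hx⟩⟩
  apply ciSup_le
  intro z
  have := ht z
  rw [inner_sub_right, real_inner_comm (z : Eu d) t, real_inner_comm x t] at this
  linarith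

lemma star_lip {R : ℝ} (hKR : K ⊆ Metric.closedBall 0 R) (hne : K.Nonempty) (y y' : Eu d) :
    |star K φ y - star K φ y'| ≤ R * ‖y - y'‖ := by
  have : Nonempty K := hne.to_subtype
  have key : ∀ a b : Eu d, star K φ a - star K φ b ≤ R * ‖a - b‖ := by
    intro a b
    rw [sub_le_iff_le_add]
    apply ciSup_le
    intro z
    have h1 := star_le hK hφ z.2 b
    have h2 : ⟪(z : Eu d), a - b⟫ ≤ R * ‖a - b‖ := by
      have h3 : ‖(z : Eu d)‖ ≤ R := by simpa using hKR z.2
      calc ⟪(z : Eu d), a - b⟫ ≤ ‖(z : Eu d)‖ * ‖a - b‖ := real_inner_le_norm _ _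
        _ ≤ _ := by gcongr
    rw [inner_sub_right] at h2
    linarith
  rw [abs_le]
  have h1 := key y y'
  have h2 := key y' y
  rw [norm_sub_rev] at h2
  constructor <;> linarith

end

/-- `L¹` stability of maps in terms of the duality gap. -/
lemma lone {K : Set (Eu d)} (hK : IsCompact K) {C : ℝ}
    (hC : ∀ v : Eu d, volume.real (K \ ((fun x => x + v) ⁻¹' K)) ≤ C * ‖v‖)
    {R : ℝ} (hKR : K ⊆ Metric.closedBall 0 R) (hne : K.Nonempty)
    {M : ℝ} (hM : 0 ≤ M) {φ ψ : Eu d → ℝ} {T T' : Eu d → Eu d}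
    (h1 : Pot K M φ T) (h2 : Pot K M ψ T') (mT : Measurable T) (mT' : Measurable T')
    {e : Eu d} (he : ‖e‖ = 1) {r : ℝ} (hr : 0 < r) :
    2 * r * ∫ x in K, |⟪T x - T' x, e⟫| ≤
      (∫ x in K, ((star K φ (T' x) - star K φ (T x)) + (star K ψ (T x) - star K ψ (T' x)))) +
        12 * M * C * r ^ 2 := by
  have hcφ := cont_of_lip hM h1.1
  have hcψ := cont_of_lip hM h2.1
  have hR0 : 0 ≤ R := by
    obtain ⟨x, hx⟩ := hne
    have h3 : ‖x‖ ≤ R := by simpa using hKR hx
    exact (norm_nonneg x).trans h3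
  set v := r • e with hv
  have hvn : ‖v‖ = r := by rw [hv, norm_smul, he, mul_one, Real.norm_eq_abs, abs_of_pos hr]
  have ic : ∀ {g : Eu d → ℝ}, Continuous g → IntegrableOn g K := fun hg =>
    hg.continuousOn.integrableOn_compact hK
  have s1 := second_diff hK hC hM h1.1 v
  have s2 := second_diff hK hC hM h2.1 v
  rw [hvn] at s1 s2
  have hKm := hK.measurableSet
  set bad : Set (Eu d) := (K \ ((fun x => x + v) ⁻¹' K)) ∪ (K \ ((fun x => x + -v) ⁻¹' K))
    with hbad
  have hbadm : MeasurableSet bad := (hKm.diff (hKm.preimage (by fun_prop))).union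
    (hKm.diff (hKm.preimage (by fun_prop)))
  have hbadv : volume.real bad ≤ 2 * C * r := by
    have b1 := hC v
    have b2 := hC (-v)
    rw [norm_neg, hvn] at b2
    rw [hvn] at b1
    calc volume.real bad ≤ _ := measureReal_union_le _ _
      _ ≤ C * r + C * r := add_le_add b1 b2
      _ = _ := by ring
  set G : Eu d → ℝ := fun x =>
    (star K φ (T' x) - star K φ (T x)) + (star K ψ (T x) - star K ψ (T' x)) with hG
  have hsφ : Continuous (star K φ) := cont_of_lip hR0 (star_lip hK hcφ hKR hne)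
  have hsψ : Continuous (star K ψ) := cont_of_lip hR0 (star_lip hK hcψ hKR hne)
  have hGm : Measurable G := by
    have m1 := hsφ.measurable.comp mT
    have m2 := hsφ.measurable.comp mT'
    have m3 := hsψ.measurable.comp mT
    have m4 := hsψ.measurable.comp mT'
    exact (m2.sub m1).add (m3.sub m4)
  have n1 := pot_norm hM h1
  have n2 := pot_norm hM h2
  have : IsFiniteMeasure (volume.restrict K) := ⟨by
      rw [Measure.restrict_apply_univ]; exact hK.measure_lt_top⟩
  have iG : IntegrableOn G K := by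
    refine Integrable.of_bound (C := R * (2 * M) + R * (2 * M)) hGm.aestronglyMeasurable ?_
    filter_upwards [n1, n2] with x hx1 hx2
    have hd : ‖T x - T' x‖ ≤ 2 * M := (norm_sub_le _ _).trans (by linarith)
    calc ‖G x‖ ≤ |star K φ (T' x) - star K φ (T x)| + |star K ψ (T x) - star K ψ (T' x)| :=
          abs_add_le _ _
      _ ≤ R * ‖T' x - T x‖ + R * ‖T x - T' x‖ :=
          add_le_add (star_lip hK hcφ hKR hne _ _) (star_lip hK hcψ hKR hne _ _)
      _ ≤ _ := by rw [norm_sub_rev (T' x)]; gcongr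
  have iB : IntegrableOn (bad.indicator fun _ => 4 * r * M) K :=
    (integrable_const (4 * r * M)).indicator hbadm
  have key : ∫ x in K, 2 * r * |⟪T x - T' x, e⟫| ≤ ∫ x in K, (G x +
      ((φ (x + v) + φ (x - v) - 2 * φ x) + (ψ (x + v) + ψ (x - v) - 2 * ψ x)) +
      bad.indicator (fun _ => 4 * r * M) x) := by
    have i0 : IntegrableOn (fun x => G x + ((φ (x + v) + φ (x - v) - 2 * φ x) +
        (ψ (x + v) + ψ (x - v) - 2 * ψ x))) K := iG.add (ic (by fun_prop))
    apply integral_mono_of_nonneg (Eventually.of_forall fun x => by positivity)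
      (i0.add iB)
    filter_upwards [h1.2, h2.2, n1, n2, ae_restrict_mem hKm] with x hx1 hx2 hn1 hn2 hxK
    obtain ⟨p1, p2, p3, p4, p5, p6⟩ := pw h1.1 h2.1 hx1 hx2 v
    have e1 : ⟪T x - T' x, v⟫ = r * ⟪T x - T' x, e⟫ := by
      rw [hv, inner_smul_right]
    have f1 := star_eq hK hcφ hxK hx1
    have f2 := star_eq hK hcψ hxK hx2
    have tot : 2 * r * |⟪T x - T' x, e⟫| = 2 * |⟪T x - T' x, v⟫| := by
      rw [e1, abs_mul, abs_of_pos hr]; ring
    show 2 * r * |⟪T x - T' x, e⟫| ≤ G x + ((φ (x + v) + φ (x - v) - 2 * φ x) +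
      (ψ (x + v) + ψ (x - v) - 2 * ψ x)) + bad.indicator (fun _ => 4 * r * M) x
    by_cases hb : x ∈ bad
    · rw [indicator_of_mem hb]
      have g1 := star_le hK hcφ hxK (T' x)
      have g2 := star_le hK hcψ hxK (T x)
      have hG0 : 0 ≤ G x := by
        simp only [hG]; rw [f1, f2]; linarith
      have hd : |⟪T x - T' x, e⟫| ≤ 2 * M := by
        calc |⟪T x - T' x, e⟫| ≤ ‖T x - T' x‖ * ‖e‖ := abs_real_inner_le_norm _ _
          _ ≤ 2 * M := by
            rw [he, mul_one]; exact (norm_sub_le _ _).trans (by linarith)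
      have hd2 : 2 * r * |⟪T x - T' x, e⟫| ≤ 2 * r * (2 * M) := by gcongr
      linarith
    · rw [indicator_of_notMem hb, add_zero]
      have hxv : x + v ∈ K := by
        by_contra hcon
        exact hb (Or.inl ⟨hxK, hcon⟩)
      have hxv' : x - v ∈ K := by
        by_contra hcon
        apply hb (Or.inr ⟨hxK, ?_⟩)
        rwa [mem_preimage, ← sub_eq_add_neg]
      have g1 := star_le hK hcφ hxv (T' x)
      have g2 := star_le hK hcφ hxv' (T' x)
      have g3 := star_le hK hcψ hxv (T x)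
      have g4 := star_le hK hcψ hxv' (T x)
      have a1 := hx1 (x + v)
      have a2 := hx1 (x - v)
      have a3 := hx2 (x + v)
      have a4 := hx2 (x - v)
      have e4 : x + v - x = v := by abel
      have e5 : x - v - x = -v := by abel
      rw [e4] at a1 a3
      rw [e5, inner_neg_right] at a2 a4
      rw [tot]
      simp only [hG]
      rw [f1, f2]
      rw [inner_add_left] at g1 g3
      rw [inner_sub_left] at g2 g4
      rw [inner_sub_left]
      rw [real_inner_comm (T' x) v] at g1 g2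
      rw [real_inner_comm (T x) v] at g3 g4
      rcases abs_cases (⟪T x, v⟫ - ⟪T' x, v⟫) with ⟨h, _⟩ | ⟨h, _⟩ <;> rw [h] <;> linarith
  have e6 : ∫ x in K, bad.indicator (fun _ => 4 * r * M) x ≤ 4 * r * M * (2 * C * r) := by
    rw [integral_indicator_const _ hbadm, smul_eq_mul, mul_comm]
    apply mul_le_mul_of_nonneg_left _ (by positivity)
    refine le_trans ?_ hbadv
    rw [measureReal_restrict_apply hbadm]
    exact measureReal_mono inter_subset_left
      ((measure_mono (union_subset sdiff_subset sdiff_subset)).trans_lt hK.measure_lt_top).ne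
  have iA : IntegrableOn (fun x => (φ (x + v) + φ (x - v) - 2 * φ x) +
        (ψ (x + v) + ψ (x - v) - 2 * ψ x)) K := ic (by fun_prop)
  have iGA : IntegrableOn (fun x => G x + ((φ (x + v) + φ (x - v) - 2 * φ x) +
        (ψ (x + v) + ψ (x - v) - 2 * ψ x))) K := iG.add iA
  have iA1 : IntegrableOn (fun x => φ (x + v) + φ (x - v) - 2 * φ x) K := ic (by fun_prop)
  have iA2 : IntegrableOn (fun x => ψ (x + v) + ψ (x - v) - 2 * ψ x) K := ic (by fun_prop)
  rw [integral_add iGA iB, integral_add iG iA, integral_add iA1 iA2,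
    integral_const_mul] at key
  have e7 : 12 * M * C * r ^ 2 = 2 * M * C * r ^ 2 + 2 * M * C * r ^ 2 +
    4 * r * M * (2 * C * r) := by ring
  rw [e7]
  linarith

end Vale.Agent.P074
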