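import Vale.Agent.P074.Common

open MeasureTheory Set Filter Topology
open scoped ENNReal RealInnerProductSpace

namespace Vale.Agent.P074.Upper

/-- Volume of boxes. -/
lemma vol_box {m : ℕ} (s : Fin m → Set ℝ) (hs : ∀ i, MeasurableSet (s i)) :
    volume {x : Eu m | ∀ i, x i ∈ s i} = ∏ i, volume (s i) := by
  have h := (PiLp.volume_preserving_ofLp (Fin m)).measure_preimage
    (MeasurableSet.univ_pi hs).nullMeasurableSet
  rw [volume_pi_pi] at h
  rw [← h]
  congr 1
  ext x
  simp

variable {n : ℕ}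

/-- The cube `[-1, 1]^(n+2)`. -/
def cube (n : ℕ) : Set (Eu (n + 2)) := {x | ∀ i, x i ∈ Icc (-1 : ℝ) 1}

lemma vol_cube : volume (cube n) = 2 ^ (n + 2) := by
  rw [cube, vol_box _ (fun _ => measurableSet_Icc)]
  simp only [Real.volume_Icc, Finset.prod_const, Finset.card_univ, Fintype.card_fin]
  norm_num

lemma convex_cube : Convex ℝ (cube n) := by
  intro x hx y hy a b ha hb hab i
  exact convex_Icc (-1 : ℝ) 1 (hx i) (hy i) ha hb hab

lemma isCompact_cube : IsCompact (cube n) := by
  have h : cube n = (EuclideanSpace.equiv (Fin (n + 2)) ℝ).toHomeomorph ⁻¹'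
      (Set.pi univ fun _ => Icc (-1 : ℝ) 1) := by
    ext x
    simp only [cube, mem_ofPred_eq, mem_preimage, Set.mem_univ_pi]
    rfl
  rw [h, Homeomorph.isCompact_preimage]
  exact isCompact_univ_pi fun _ => isCompact_Icc

lemma coord_le_norm (x : Eu (n + 2)) (i : Fin (n + 2)) : |x i| ≤ ‖x‖ := by
  simpa using PiLp.norm_apply_le x i

lemma interior_cube : (interior (cube n)).Nonempty := by
  refine ⟨0, ?_⟩
  rw [mem_interior]
  refine ⟨Metric.ball 0 1, ?_, Metric.isOpen_ball, by simp⟩
  intro x hx i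
  have h1 : ‖x‖ < 1 := by simpa using hx
  have h2 := coord_le_norm x i
  rw [abs_le] at h2
  constructor <;> linarith [h2.1, h2.2]

lemma meas_cube : MeasurableSet (cube n) := isCompact_cube.measurableSet

instance : IsProbabilityMeasure (unif (cube n)) :=
  unif_prob (by rw [vol_cube]; simp) (by rw [vol_cube]; simp)

noncomputable def e1 : Eu (n + 2) := EuclideanSpace.single 0 1
noncomputable def e2 : Eu (n + 2) := EuclideanSpace.single 1 1

lemma inner_e1 (x : Eu (n + 2)) : ⟪e1, x⟫ = x 0 := by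
  simp [e1, EuclideanSpace.inner_single_left]

lemma inner_e2 (x : Eu (n + 2)) : ⟪e2, x⟫ = x 1 := by
  simp [e2, EuclideanSpace.inner_single_left]

lemma e1_0 : (e1 : Eu (n + 2)) 0 = 1 := by simp [e1]
lemma e1_1 : (e1 : Eu (n + 2)) 1 = 0 := by simp [e1]
lemma e2_0 : (e2 : Eu (n + 2)) 0 = 0 := by simp [e2]
lemma e2_1 : (e2 : Eu (n + 2)) 1 = 1 := by simp [e2]

lemma norm_e1 : ‖(e1 : Eu (n + 2))‖ = 1 := by simp [e1]
lemma norm_e2 : ‖(e2 : Eu (n + 2))‖ = 1 := by simp [e2]

/-- The convex potential. -/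
noncomputable def pot (s w : ℝ) (x : Eu (n + 2)) : ℝ := max |x 0| (w * (1 + s * x 1))

open scoped Classical in
/-- The optimal map. -/
noncomputable def tm (s w : ℝ) (x : Eu (n + 2)) : Eu (n + 2) :=
  if |x 0| ≤ w * (1 + s * x 1) then (s * w) • e2 else if 0 < x 0 then e1 else -e1

lemma measurable_coord (i : Fin (n + 2)) : Measurable (fun x : Eu (n + 2) => x i) := by
  fun_prop

lemma meas_tm (s w : ℝ) : Measurable (tm (n := n) s w) := by
  unfold tm
  refine Measurable.ite ?_ measurable_const (Measurable.ite ?_ measurable_const measurable_const)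
  · exact measurableSet_le (by fun_prop) (by fun_prop)
  · exact measurableSet_lt measurable_const (by fun_prop)

lemma cont_pot (s w : ℝ) : Continuous (pot (n := n) s w) := by
  unfold pot; fun_prop

lemma convex_pot (s w : ℝ) : ConvexOn ℝ univ (pot (n := n) s w) := by
  refine ⟨convex_univ, ?_⟩
  intro x _ y _ a b ha hb hab
  simp only [pot, smul_eq_mul, PiLp.add_apply, PiLp.smul_apply]
  have hx1 := le_max_left |x 0| (w * (1 + s * x 1))
  have hx2 := le_max_right |x 0| (w * (1 + s * x 1))
  have hy1 := le_max_left |y 0| (w * (1 + s * y 1))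
  have hy2 := le_max_right |y 0| (w * (1 + s * y 1))
  set p := max |x 0| (w * (1 + s * x 1))
  set q := max |y 0| (w * (1 + s * y 1))
  apply max_le
  · calc |a * x 0 + b * y 0| ≤ |a * x 0| + |b * y 0| := abs_add_le _ _
      _ = a * |x 0| + b * |y 0| := by rw [abs_mul, abs_mul, abs_of_nonneg ha, abs_of_nonneg hb]
      _ ≤ a * p + b * q := by gcongr
  · calc w * (1 + s * (a * x 1 + b * y 1))
        = a * (w * (1 + s * x 1)) + b * (w * (1 + s * y 1)) := by
          linear_combination (-w) * hab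
      _ ≤ a * p + b * q := by gcongr

lemma hasGradientAt_affine (v : Eu (n + 2)) (k : ℝ) (x : Eu (n + 2)) :
    HasGradientAt (fun z => ⟪v, z⟫ + k) v x := by
  rw [hasGradientAt_iff_hasFDerivAt]
  have h : HasFDerivAt (fun z : Eu (n + 2) => ⟪v, z⟫) (innerSL ℝ v) x :=
    (innerSL ℝ v).hasFDerivAt
  have h2 := h.add_const k
  refine h2.congr_fderiv ?_
  ext z
  simp

lemma cube_coord {x : Eu (n + 2)} (hx : x ∈ cube n) (i : Fin (n + 2)) : -1 ≤ x i ∧ x i ≤ 1 := hx i

lemma slope_nonneg {s w : ℝ} (hs : s = 1 ∨ s = -1) (hw : 0 < w) {x : Eu (n + 2)}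
    (hx : x ∈ cube n) : 0 ≤ w * (1 + s * x 1) := by
  have h := cube_coord hx 1
  apply mul_nonneg hw.le
  rcases hs with rfl | rfl <;> linarith [h.1, h.2]

lemma grad_ae {s w : ℝ} (hs : s = 1 ∨ s = -1) (hw : 0 < w) :
    ∀ᵐ x ∂(unif (cube n)), HasGradientAt (pot s w) (tm s w x) x := by
  apply unif_ae meas_cube
  have n1 : volume {x : Eu (n + 2) | ⟪e1 - (w * s) • e2, x⟫ = w} = 0 := by
    apply hyper_null
    intro h
    have := congrArg (fun z : Eu (n + 2) => z 0) h
    simp [e1_0, e2_0] at this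
  have n2 : volume {x : Eu (n + 2) | ⟪-e1 - (w * s) • e2, x⟫ = w} = 0 := by
    apply hyper_null
    intro h
    have := congrArg (fun z : Eu (n + 2) => z 0) h
    simp [e1_0, e2_0] at this
  have m1 : ∀ᵐ x : Eu (n + 2), ¬ (⟪e1 - (w * s) • e2, x⟫ = w) := by
    rw [ae_iff]; simpa using n1
  have m2 : ∀ᵐ x : Eu (n + 2), ¬ (⟪-e1 - (w * s) • e2, x⟫ = w) := by
    rw [ae_iff]; simpa using n2
  filter_upwards [m1, m2] with x h1 h2 hx
  simp only [inner_sub_left, inner_neg_left, inner_smul_left, inner_e1, inner_e2, conj_trivial]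
    at h1 h2
  have c0 : Continuous (fun z : Eu (n + 2) => z 0) := by fun_prop
  have c1 : Continuous (fun z : Eu (n + 2) => w * (1 + s * z 1)) := by fun_prop
  rcases lt_trichotomy |x 0| (w * (1 + s * x 1)) with h | h | h
  · have ht : tm s w x = (s * w) • e2 := by simp [tm, h.le]
    rw [ht]
    refine (hasGradientAt_affine ((s * w) • e2) w x).congr_of_eventuallyEq ?_
    have : ∀ᶠ z in 𝓝 x, |z 0| < w * (1 + s * z 1) :=
      c0.abs.continuousAt.eventually_lt c1.continuousAt h
    filter_upwards [this] with z hz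
    simp only [pot, max_eq_right hz.le, inner_smul_left, inner_e2, conj_trivial]
    ring
  · exfalso
    rcases abs_cases (x 0) with ⟨ha, -⟩ | ⟨ha, -⟩
    · exact h1 (by linarith)
    · exact h2 (by linarith)
  · have hp := slope_nonneg hs hw hx
    have hx0 : x 0 ≠ 0 := by
      intro h0
      rw [h0, abs_zero] at h
      linarith
    have hev : ∀ᶠ z in 𝓝 x, w * (1 + s * z 1) < |z 0| :=
      c1.continuousAt.eventually_lt c0.abs.continuousAt h
    rcases lt_or_gt_of_ne hx0 with hneg | hpos
    · have ht : tm s w x = -e1 := by simp [tm, not_le.2 h, not_lt.2 hneg.le]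
      rw [ht]
      refine (hasGradientAt_affine (-e1) 0 x).congr_of_eventuallyEq ?_
      have : ∀ᶠ z in 𝓝 x, z 0 < 0 :=
        c0.continuousAt.eventually_lt continuousAt_const hneg
      filter_upwards [this, hev] with z hz hz2
      rw [abs_of_neg hz] at hz2
      simp only [pot, abs_of_neg hz, max_eq_left hz2.le, inner_neg_left, inner_e1]
      ring
    · have ht : tm s w x = e1 := by simp [tm, not_le.2 h, hpos]
      rw [ht]
      refine (hasGradientAt_affine e1 0 x).congr_of_eventuallyEq ?_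
      have : ∀ᶠ z in 𝓝 x, 0 < z 0 :=
        continuousAt_const.eventually_lt c0.continuousAt hpos
      filter_upwards [this, hev] with z hz hz2
      rw [abs_of_pos hz] at hz2
      simp only [pot, abs_of_pos hz, max_eq_left hz2.le, inner_e1]
      ring

open scoped Classical in
lemma isOT {s w : ℝ} (hs : s = 1 ∨ s = -1) (hw : 0 < w) :
    IsOTMap (unif (cube n)) ((unif (cube n)).map (tm s w)) (tm s w) := by
  refine ⟨meas_tm s w, rfl, ?_, pot s w, convex_pot s w, grad_ae hs hw⟩
  intro S hS hST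
  obtain ⟨R, hR⟩ := (isCompact_cube (n := n)).isBounded.exists_norm_le
  have hs0 : s ≠ 0 := by rcases hs with rfl | rfl <;> norm_num
  have hne1 : (e1 : Eu (n + 2)) ≠ (s * w) • e2 := by
    intro h
    have := congrArg (fun z : Eu (n + 2) => z 0) h
    simp [e1_0, e2_0] at this
  have hne2 : (-e1 : Eu (n + 2)) ≠ (s * w) • e2 := by
    intro h
    have := congrArg (fun z : Eu (n + 2) => z 0) h
    simp [e1_0, e2_0] at this
  have hmc : Measurable (fun y : Eu (n + 2) => if y = (s * w) • e2 then -w else (0 : ℝ)) :=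
    Measurable.ite (measurableSet_eq) measurable_const measurable_const
  refine isMin_of_dual (R := R) ?_ {(s * w) • e2, e1, -e1} (meas_tm s w) ?_ (cont_pot s w) hmc
    ?_ ?_ hS hST
  · filter_upwards [unif_ae_mem (meas_cube (n := n))] with x hx using hR x hx
  · intro x
    unfold tm
    split_ifs <;> simp
  · intro x y hy
    simp only [Finset.mem_insert, Finset.mem_singleton] at hy
    have p1 : |x 0| ≤ pot s w x := le_max_left _ _
    have p2 : w * (1 + s * x 1) ≤ pot s w x := le_max_right _ _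
    rcases hy with rfl | rfl | rfl
    · simp only [if_true, inner_smul_right]
      rw [real_inner_comm, inner_e2]
      linarith
    · rw [if_neg hne1, real_inner_comm, inner_e1]
      linarith [le_abs_self (x 0)]
    · rw [if_neg hne2, inner_neg_right, real_inner_comm, inner_e1]
      linarith [neg_le_abs (x 0)]
  · filter_upwards [unif_ae_mem (meas_cube (n := n))] with x hx
    have hp := slope_nonneg hs hw hx
    by_cases h : |x 0| ≤ w * (1 + s * x 1)
    · have ht : tm s w x = (s * w) • e2 := by simp [tm, h]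
      rw [ht, if_pos rfl, pot, max_eq_right h, inner_smul_right, real_inner_comm, inner_e2]
      ring
    · rw [not_le] at h
      by_cases h0 : 0 < x 0
      · have ht : tm s w x = e1 := by simp [tm, not_le.2 h, h0]
        rw [ht, if_neg hne1, pot, max_eq_left h.le, real_inner_comm, inner_e1, abs_of_pos h0]
        ring
      · have ht : tm s w x = -e1 := by simp [tm, not_le.2 h, h0]
        rw [ht, if_neg hne2, pot, max_eq_left h.le, inner_neg_right, real_inner_comm, inner_e1,
          abs_of_nonpos (not_lt.1 h0)]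
        ring

/-- The reflection in the second coordinate. -/
noncomputable def refl : Eu (n + 2) ≃ₗᵢ[ℝ] Eu (n + 2) :=
  LinearIsometryEquiv.piLpCongrRight 2
    (fun i => if i = 1 then LinearIsometryEquiv.neg ℝ else LinearIsometryEquiv.refl ℝ ℝ)

lemma refl_0 (x : Eu (n + 2)) : refl x 0 = x 0 := by
  simp [refl]

lemma refl_1 (x : Eu (n + 2)) : refl x 1 = -x 1 := by
  simp [refl]

lemma refl_i (x : Eu (n + 2)) (i : Fin (n + 2)) : refl x i = x i ∨ refl x i = -x i := by
  by_cases h : i = 1
  · right; subst h; exact refl_1 x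
  · left; simp [refl, h]

lemma refl_cube (x : Eu (n + 2)) : refl x ∈ cube n ↔ x ∈ cube n := by
  simp only [cube, mem_ofPred_eq, mem_Icc]
  apply forall_congr'
  intro i
  rcases refl_i x i with h | h <;> rw [h]
  constructor <;> rintro ⟨h1, h2⟩ <;> constructor <;> linarith

lemma map_refl : (unif (cube n)).map refl = unif (cube n) := by
  have hmp : MeasurePreserving (refl : Eu (n + 2) → Eu (n + 2)) volume volume :=
    refl.measurePreserving
  have hpre : (refl : Eu (n + 2) → Eu (n + 2)) ⁻¹' cube n = cube n := by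
    ext x; exact refl_cube x
  have h := hmp.restrict_preimage meas_cube
  rw [hpre] at h
  unfold unif
  rw [Measure.map_smul, h.map_eq]

lemma tm_refl (w : ℝ) (x : Eu (n + 2)) (h : ¬ |x 0| ≤ w * (1 + -1 * x 1)) :
    tm 1 w (refl x) = tm (-1) w x := by
  have h' : ¬ |refl x 0| ≤ w * (1 + 1 * refl x 1) := by
    rw [refl_0, refl_1]
    intro h2
    apply h
    linarith
  rw [tm, tm, if_neg h, if_neg h', refl_0]

lemma W2_le {w : ℝ} (hw : 0 < w) (hw2 : w ≤ 1 / 2) :
    (W2sq ((unif (cube n)).map (tm (-1) w)) ((unif (cube n)).map (tm 1 w))).toReal ≤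
      8 * w ^ 3 := by
  have mr : Measurable (refl : Eu (n + 2) → Eu (n + 2)) := refl.continuous.measurable
  have mp : Measurable (fun x : Eu (n + 2) => (tm (-1) w x, tm 1 w (refl x))) :=
    (meas_tm _ _).prodMk ((meas_tm _ _).comp mr)
  have hle : W2sq ((unif (cube n)).map (tm (-1) w)) ((unif (cube n)).map (tm 1 w)) ≤
      ENNReal.ofReal (8 * w ^ 3) := by
    apply (sInf_le ?_ : _ ≤ ∫⁻ x, ENNReal.ofReal (‖tm (-1) w x - tm 1 w (refl x)‖ ^ 2)
      ∂(unif (cube n))).trans
    · -- estimate of the cost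
      have hsub : ∀ x : Eu (n + 2), x ∈ cube n →
          ENNReal.ofReal (‖tm (-1) w x - tm 1 w (refl x)‖ ^ 2) ≤
          ({x | ∀ i, x i ∈ (if i = 0 then Icc (-(2 * w)) (2 * w) else Icc (-1) 1)} :
            Set (Eu (n + 2))).indicator (fun _ => ENNReal.ofReal (4 * w ^ 2)) x := by
        intro x hx
        by_cases h : |x 0| ≤ w * (1 + -1 * x 1)
        · rw [indicator_of_mem]
          · apply ENNReal.ofReal_le_ofReal
            have h' : |refl x 0| ≤ w * (1 + 1 * refl x 1) := by
              rw [refl_0, refl_1]; linarith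
            have t1 : tm (-1) w x = (-1 * w) • e2 := by simp only [tm, if_pos h]
            have t2 : tm 1 w (refl x) = (1 * w) • e2 := by simp only [tm, if_pos h']
            rw [t1, t2, ← sub_smul, norm_smul, norm_e2, Real.norm_eq_abs, mul_one, sq_abs]
            nlinarith
          · intro i
            by_cases hi : i = 0
            · subst hi
              rw [if_pos rfl]
              have h1 := cube_coord hx 1
              have h2 : |x 0| ≤ 2 * w := by nlinarith [h1.1]
              rw [abs_le] at h2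
              exact ⟨h2.1, h2.2⟩
            · rw [if_neg hi]; exact hx i
        · rw [tm_refl w x h, sub_self, norm_zero]
          simp
      have hvol : unif (cube n) {x | ∀ i, x i ∈ (if i = 0 then Icc (-(2 * w)) (2 * w) else
          Icc (-1) 1)} ≤ ENNReal.ofReal (2 * w) := by
        unfold unif
        rw [Measure.smul_apply, smul_eq_mul, vol_cube]
        have h1 := Measure.restrict_apply_le (μ := (volume : Measure (Eu (n + 2)))) (cube n)
          {x | ∀ i, x i ∈ (if i = 0 then Icc (-(2 * w)) (2 * w) else Icc (-1) 1)}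
        have h2 : volume {x : Eu (n + 2) | ∀ i, x i ∈ (if i = 0 then Icc (-(2 * w)) (2 * w) else
            Icc (-1) 1)} = ENNReal.ofReal (4 * w) * 2 ^ (n + 1) := by
          rw [vol_box _ (fun i => by split_ifs <;> exact measurableSet_Icc), Fin.prod_univ_succ]
          simp only [if_true, Fin.succ_ne_zero, if_false, Real.volume_Icc, Finset.prod_const,
            Finset.card_univ, Fintype.card_fin]
          congr 2
          · ring
          · norm_num
        calc (2 ^ (n + 2) : ℝ≥0∞)⁻¹ * (volume.restrict (cube n)) _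
            ≤ (2 ^ (n + 2) : ℝ≥0∞)⁻¹ * (ENNReal.ofReal (4 * w) * 2 ^ (n + 1)) := by
              gcongr
              rw [← h2]; exact h1
          _ = ENNReal.ofReal (2 * w) := by
              have h4 : ENNReal.ofReal (4 * w) = 2 * ENNReal.ofReal (2 * w) := by
                rw [show (4 * w : ℝ) = 2 * (2 * w) by ring, ENNReal.ofReal_mul (by norm_num)]
                norm_num
              rw [h4]
              have h5 : (2 * ENNReal.ofReal (2 * w) * 2 ^ (n + 1) : ℝ≥0∞) =
                  2 ^ (n + 2) * ENNReal.ofReal (2 * w) := by ring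
              rw [h5, ← mul_assoc, ENNReal.inv_mul_cancel (by simp) (by simp), one_mul]
      calc ∫⁻ x, ENNReal.ofReal (‖tm (-1) w x - tm 1 w (refl x)‖ ^ 2) ∂(unif (cube n))
          ≤ ∫⁻ x, ({x | ∀ i, x i ∈ (if i = 0 then Icc (-(2 * w)) (2 * w) else Icc (-1) 1)} :
            Set (Eu (n + 2))).indicator (fun _ => ENNReal.ofReal (4 * w ^ 2)) x
              ∂(unif (cube n)) := by
            apply lintegral_mono_ae
            filter_upwards [unif_ae_mem (meas_cube (n := n))] with x hx using hsub x hx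
        _ ≤ ENNReal.ofReal (4 * w ^ 2) * unif (cube n) {x | ∀ i, x i ∈ (if i = 0 then
            Icc (-(2 * w)) (2 * w) else Icc (-1) 1)} := lintegral_indicator_const_le _ _
        _ ≤ ENNReal.ofReal (4 * w ^ 2) * ENNReal.ofReal (2 * w) := by gcongr
        _ = ENNReal.ofReal (8 * w ^ 3) := by
            rw [← ENNReal.ofReal_mul (by positivity)]
            congr 1; ring
    · refine ⟨(unif (cube n)).map (fun x => (tm (-1) w x, tm 1 w (refl x))), ?_, ?_, ?_⟩
      · rw [Measure.map_map measurable_fst mp]; rfl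
      · rw [Measure.map_map measurable_snd mp]
        conv_rhs => rw [← map_refl]
        rw [Measure.map_map (meas_tm _ _) mr]
        rfl
      · rw [lintegral_map _ mp]
        fun_prop
  calc _ ≤ (ENNReal.ofReal (8 * w ^ 3)).toReal := ENNReal.toReal_mono ENNReal.ofReal_ne_top hle
    _ = 8 * w ^ 3 := ENNReal.toReal_ofReal (by positivity)

lemma L2_ge {w : ℝ} (hw : 0 < w) (hw2 : w ≤ 1 / 2) :
    w / 32 ≤ ∫ x, ‖tm (-1) w x - tm 1 w x‖ ^ 2 ∂(unif (cube n)) := by
  set B : Set (Eu (n + 2)) := {x | ∀ i, x i ∈ (if i = 0 then Icc (3 * w / 4) w else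
    if i = 1 then Icc (1 / 2) 1 else Icc (-1) 1)} with hB
  have hBm : MeasurableSet B := by
    have : B = ⋂ i, (fun x : Eu (n + 2) => x i) ⁻¹' (if i = 0 then Icc (3 * w / 4) w else
        if i = 1 then Icc (1 / 2) 1 else Icc (-1) 1) := by
      ext x; simp [hB]
    rw [this]
    apply MeasurableSet.iInter
    intro i
    apply measurable_coord i
    split_ifs <;> exact measurableSet_Icc
  have hBcube : B ⊆ cube n := by
    intro x hx i
    have h := hx i
    by_cases h0 : i = 0
    · rw [if_pos h0] at h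
      exact ⟨by linarith [h.1], by linarith [h.2]⟩
    · by_cases h1 : i = 1
      · rw [if_neg h0, if_pos h1] at h
        exact ⟨by linarith [h.1], h.2⟩
      · rw [if_neg h0, if_neg h1] at h; exact h
  have hvol : (unif (cube n)).real B = w / 32 := by
    have h2 : volume B = ENNReal.ofReal (w / 8) * 2 ^ n := by
      rw [hB, vol_box _ (fun i => by split_ifs <;> exact measurableSet_Icc), Fin.prod_univ_succ,
        Fin.prod_univ_succ]
      have s0 : (0 : Fin (n + 1)).succ = (1 : Fin (n + 2)) := rfl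
      have s1 : ∀ i : Fin n, i.succ.succ ≠ (1 : Fin (n + 2)) := by
        intro i h
        rw [← s0] at h
        exact Fin.succ_ne_zero _ (Fin.succ_injective _ h)
      simp only [if_true, Fin.succ_ne_zero, if_false, s0, s1, Real.volume_Icc, Finset.prod_const,
        Finset.card_univ, Fintype.card_fin, one_ne_zero]
      rw [← mul_assoc, ← ENNReal.ofReal_mul (by linarith)]
      congr 2
      · ring
      · norm_num
    have h3 : unif (cube n) B = ENNReal.ofReal (w / 32) := by
      unfold unif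
      rw [Measure.smul_apply, smul_eq_mul, vol_cube, Measure.restrict_apply hBm,
        inter_eq_left.2 hBcube, h2]
      have h4 : ENNReal.ofReal (w / 8) = 4 * ENNReal.ofReal (w / 32) := by
        rw [show (w / 8 : ℝ) = 4 * (w / 32) by ring, ENNReal.ofReal_mul (by norm_num)]
        norm_num
      rw [h4]
      have h5 : (4 * ENNReal.ofReal (w / 32) * 2 ^ n : ℝ≥0∞) =
          2 ^ (n + 2) * ENNReal.ofReal (w / 32) := by ring
      rw [h5, ← mul_assoc, ENNReal.inv_mul_cancel (by simp) (by simp), one_mul]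
    rw [Measure.real, h3, ENNReal.toReal_ofReal (by positivity)]
  have hval : ∀ x ∈ B, 1 ≤ ‖tm (-1) w x - tm 1 w x‖ ^ 2 := by
    intro x hx
    have h0 := hx 0
    rw [if_pos rfl] at h0
    have h1 := hx 1
    rw [if_neg (by simp), if_pos rfl] at h1
    have hx0 : 0 < x 0 := by linarith [h0.1]
    have c1 : ¬ |x 0| ≤ w * (1 + -1 * x 1) := by
      rw [abs_of_pos hx0, not_le]
      nlinarith [h0.1, h1.1]
    have c2 : |x 0| ≤ w * (1 + 1 * x 1) := by
      rw [abs_of_pos hx0]
      nlinarith [h0.2, h1.1]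
    have t1 : tm (-1) w x = e1 := by simp only [tm, if_neg c1, if_pos hx0]
    have t2 : tm 1 w x = (1 * w) • e2 := by simp only [tm, if_pos c2]
    rw [t1, t2, norm_sub_sq_real, norm_e1, inner_smul_right, inner_e1, e2_0]
    have : 0 ≤ ‖(1 * w) • (e2 : Eu (n + 2))‖ ^ 2 := by positivity
    linarith
  have hbd : ∀ (s : ℝ) (x : Eu (n + 2)), ‖tm s w x‖ ≤ 1 + |s * w| := by
    intro s x
    unfold tm
    split_ifs
    · rw [norm_smul, norm_e2, Real.norm_eq_abs]; linarith
    · rw [norm_e1]; linarith [abs_nonneg (s * w)]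
    · rw [norm_neg, norm_e1]; linarith [abs_nonneg (s * w)]
  have hint : Integrable (fun x => ‖tm (-1) w x - tm 1 w x‖ ^ 2) (unif (cube n)) := by
    have hm : Measurable (fun x : Eu (n + 2) => ‖tm (-1) w x - tm 1 w x‖ ^ 2) :=
      ((meas_tm _ _).sub (meas_tm _ _)).norm.pow_const 2
    refine Integrable.of_bound (C := (1 + |(-1) * w| + (1 + |1 * w|)) ^ 2)
      hm.aestronglyMeasurable (Eventually.of_forall fun x => ?_)
    rw [Real.norm_eq_abs, abs_of_nonneg (by positivity)]
    have := (norm_sub_le (tm (-1) w x) (tm 1 w x)).trans (add_le_add (hbd _ _) (hbd _ _))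
    gcongr
  calc w / 32 = ∫ x in B, (1 : ℝ) ∂(unif (cube n)) := by
        rw [setIntegral_const, hvol]; simp
    _ ≤ ∫ x in B, ‖tm (-1) w x - tm 1 w x‖ ^ 2 ∂(unif (cube n)) := by
        apply setIntegral_mono_on (by simp) hint.integrableOn hBm
        exact hval
    _ ≤ ∫ x, ‖tm (-1) w x - tm 1 w x‖ ^ 2 ∂(unif (cube n)) :=
        setIntegral_le_integral hint (Eventually.of_forall fun x => by positivity)

/-- No exponent above `1/3` is admissible. -/
theorem not_admissible (n : ℕ) (α : ℝ) (h : Admissible (n + 2) α) : α ≤ 1 / 3 := by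
  by_contra hα
  rw [not_le] at hα
  obtain ⟨C, hC⟩ := h (cube n) convex_cube isCompact_cube interior_cube
    (Metric.closedBall 0 1) (isCompact_closedBall _ _) ⟨0, by simp⟩
  have hbd : ∀ s : ℝ, (s = 1 ∨ s = -1) → ∀ w : ℝ, 0 < w → w ≤ 1 / 2 → ∀ x : Eu (n + 2),
      tm s w x ∈ Metric.closedBall (0 : Eu (n + 2)) 1 := by
    intro s hs w hw hw2 x
    rw [mem_closedBall_zero_iff]
    unfold tm
    split_ifs
    · rw [norm_smul, norm_e2, Real.norm_eq_abs, mul_one]
      rcases hs with rfl | rfl
      · rw [one_mul, abs_of_pos hw]; linarith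
      · rw [neg_one_mul, abs_neg, abs_of_pos hw]; linarith
    · rw [norm_e1]
    · rw [norm_neg, norm_e1]
  have key : ∀ w : ℝ, 0 < w → w ≤ 1 / 2 →
      Real.sqrt (w / 32) ≤ |C| * (Real.sqrt (8 * w ^ 3)) ^ α := by
    intro w hw hw2
    have hp : ∀ s : ℝ, IsProbabilityMeasure ((unif (cube n)).map (tm s w)) := fun s =>
      Measure.isProbabilityMeasure_map (meas_tm s w).aemeasurable
    have hsupp : ∀ s : ℝ, (s = 1 ∨ s = -1) →
        ((unif (cube n)).map (tm s w)) (Metric.closedBall 0 1)ᶜ = 0 := by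
      intro s hs
      rw [Measure.map_apply (meas_tm s w) Metric.isClosed_closedBall.measurableSet.compl]
      have : tm s w ⁻¹' (Metric.closedBall (0 : Eu (n + 2)) 1)ᶜ = ∅ := by
        ext x
        simp only [mem_preimage, mem_compl_iff, mem_empty_iff_false, iff_false, not_not]
        exact hbd s hs w hw hw2 x
      rw [this]; simp
    have h1 := hC _ _ (hp (-1)) (hp 1) (hsupp _ (Or.inr rfl)) (hsupp _ (Or.inl rfl)) _ _
      (isOT (Or.inr rfl) hw) (isOT (Or.inl rfl) hw)
    have h2 := L2_ge (n := n) hw hw2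
    have h3 := W2_le (n := n) hw hw2
    calc Real.sqrt (w / 32) ≤ _ := Real.sqrt_le_sqrt h2
      _ ≤ C * _ := h1
      _ ≤ |C| * _ := mul_le_mul_of_nonneg_right (le_abs_self C)
          (Real.rpow_nonneg (Real.sqrt_nonneg _) _)
      _ ≤ |C| * (Real.sqrt (8 * w ^ 3)) ^ α := by
          apply mul_le_mul_of_nonneg_left _ (abs_nonneg C)
          apply Real.rpow_le_rpow (Real.sqrt_nonneg _) (Real.sqrt_le_sqrt h3) (by linarith)
  -- rewrite as a bound on powers of `w`
  have key2 : ∀ w : ℝ, 0 < w → w ≤ 1 / 2 →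
      (1 / 32 : ℝ) ^ (1 / 2 : ℝ) ≤ |C| * (8 : ℝ) ^ (α / 2) * w ^ ((3 * α - 1) / 2) := by
    intro w hw hw2
    have h := key w hw hw2
    rw [Real.sqrt_eq_rpow, Real.sqrt_eq_rpow, ← Real.rpow_mul (by positivity),
      show w / 32 = (1 / 32) * w by ring, Real.mul_rpow (by norm_num) hw.le,
      Real.mul_rpow (by norm_num) (by positivity), ← Real.rpow_natCast w 3,
      ← Real.rpow_mul hw.le] at h
    have hwpos : 0 < w ^ (1 / 2 : ℝ) := Real.rpow_pos_of_pos hw _
    have e : w ^ (((3 : ℕ) : ℝ) * (1 / 2 * α)) = w ^ ((3 * α - 1) / 2) * w ^ (1 / 2 : ℝ) := by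
      rw [← Real.rpow_add hw]
      congr 1
      push_cast
      ring
    rw [e, show (1 / 2 * α : ℝ) = α / 2 by ring] at h
    have h' : (1 / 32 : ℝ) ^ (1 / 2 : ℝ) * w ^ (1 / 2 : ℝ) ≤
        (|C| * (8 : ℝ) ^ (α / 2) * w ^ ((3 * α - 1) / 2)) * w ^ (1 / 2 : ℝ) := by
      calc _ ≤ _ := h
        _ = _ := by ring
    exact le_of_mul_le_mul_right h' hwpos
  have hβ : 0 < (3 * α - 1) / 2 := by linarith
  have hlim : Tendsto (fun w : ℝ => |C| * (8 : ℝ) ^ (α / 2) * w ^ ((3 * α - 1) / 2))
      (𝓝[>] 0) (𝓝 0) := by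
    have h1 : ContinuousAt (fun w : ℝ => w ^ ((3 * α - 1) / 2)) 0 :=
      Real.continuousAt_rpow_const 0 _ (Or.inr hβ.le)
    have h2 : Tendsto (fun w : ℝ => w ^ ((3 * α - 1) / 2)) (𝓝[>] 0) (𝓝 0) := by
      have := h1.tendsto
      rw [Real.zero_rpow hβ.ne'] at this
      exact this.mono_left nhdsWithin_le_nhds
    simpa using h2.const_mul (|C| * (8 : ℝ) ^ (α / 2))
  have hev : ∀ᶠ w : ℝ in 𝓝[>] 0, (1 / 32 : ℝ) ^ (1 / 2 : ℝ) ≤
      |C| * (8 : ℝ) ^ (α / 2) * w ^ ((3 * α - 1) / 2) := by
    have h1 : ∀ᶠ w : ℝ in 𝓝[>] 0, w ≤ 1 / 2 := by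
      apply mem_nhdsWithin_of_mem_nhds
      exact Iic_mem_nhds (by norm_num)
    filter_upwards [h1, self_mem_nhdsWithin] with w hw2 hw using key2 w hw hw2
  have := ge_of_tendsto hlim hev
  have hpos : (0 : ℝ) < (1 / 32 : ℝ) ^ (1 / 2 : ℝ) := Real.rpow_pos_of_pos (by norm_num) _
  linarith

end Vale.Agent.P074.Upper
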