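import Vale.Agent.P074.Bary

/-! Existence of weights for prescribed masses of the Laguerre cells. -/

open MeasureTheory Set Filter Topology
open scoped ENNReal RealInnerProductSpace

namespace Vale.Agent.P074

variable {d : ℕ} {J : Type*} [Fintype J] [Nonempty J]

/-- The convex potential with sites `y` and weights `c`. -/
noncomputable def pot (y : J → Eu d) (c : J → ℝ) (x : Eu d) : ℝ := ⨆ j, (⟪x, y j⟫ - c j)

lemma pot_ge (y : J → Eu d) (c : J → ℝ) (x : Eu d) (j : J) : ⟪x, y j⟫ - c j ≤ pot y c x :=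
  le_ciSup (f := fun j => ⟪x, y j⟫ - c j) (Set.finite_range _).bddAbove j

lemma pot_le {y : J → Eu d} {c : J → ℝ} {x : Eu d} {a : ℝ} (h : ∀ j, ⟪x, y j⟫ - c j ≤ a) :
    pot y c x ≤ a := ciSup_le h

lemma pot_cell {K : Set (Eu d)} {y : J → Eu d} {c : J → ℝ} {j : J} {x : Eu d}
    (hx : x ∈ cell K y c j) : pot y c x = ⟪x, y j⟫ - c j :=
  le_antisymm (pot_le hx.2) (pot_ge y c x j)

lemma pot_lip {y : J → Eu d} {M : ℝ} (hM : ∀ j, ‖y j‖ ≤ M) (c : J → ℝ) (x z : Eu d) :
    |pot y c x - pot y c z| ≤ M * ‖x - z‖ := by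
  have key : ∀ a b : Eu d, pot y c a - pot y c b ≤ M * ‖a - b‖ := by
    intro a b
    rw [sub_le_iff_le_add]
    apply pot_le
    intro j
    have h1 := pot_ge y c b j
    have h2 : ⟪a - b, y j⟫ ≤ M * ‖a - b‖ := by
      calc ⟪a - b, y j⟫ ≤ ‖a - b‖ * ‖y j‖ := real_inner_le_norm _ _
        _ ≤ ‖a - b‖ * M := by gcongr; exact hM j
        _ = _ := mul_comm _ _
    rw [inner_sub_left] at h2
    linarith
  rw [abs_le]
  have h1 := key x z
  have h2 := key z x
  rw [norm_sub_rev] at h2
  constructor <;> linarith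

lemma pot_cont (y : J → Eu d) (c : J → ℝ) : Continuous (pot y c) := by
  have hM : ∀ j, ‖y j‖ ≤ ∑ k, ‖y k‖ := fun j =>
    Finset.single_le_sum (f := fun k => ‖y k‖) (fun _ _ => norm_nonneg _) (Finset.mem_univ j)
  have h := pot_lip hM c
  have : LipschitzWith (∑ k, ‖y k‖).toNNReal (pot y c) := by
    apply LipschitzWith.of_dist_le_mul
    intro x z
    rw [Real.dist_eq, dist_eq_norm, Real.coe_toNNReal _ (by positivity)]
    exact h x z
  exact this.continuous

lemma pot_mono {y : J → Eu d} {c c' : J → ℝ} (h : ∀ j, c j ≤ c' j) (x : Eu d) :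
    pot y c' x ≤ pot y c x := by
  apply pot_le
  intro j
  have := pot_ge y c x j
  have := h j
  linarith

lemma pot_const {y : J → Eu d} {c c' : J → ℝ} {a : ℝ} (h : ∀ j, c' j = c j - a) (x : Eu d) :
    pot y c' x = pot y c x + a := by
  apply le_antisymm
  · apply pot_le
    intro j
    have := pot_ge y c x j
    rw [h]; linarith
  · rw [← le_sub_iff_add_le]
    apply pot_le
    intro j
    have := pot_ge y c' x j
    rw [h] at this; linarith

lemma pot_lipc (y : J → Eu d) (c c' : J → ℝ) (x : Eu d) :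
    |pot y c x - pot y c' x| ≤ ‖c - c'‖ := by
  have key : ∀ a b : J → ℝ, pot y a x - pot y b x ≤ ‖a - b‖ := by
    intro a b
    rw [sub_le_iff_le_add]
    apply pot_le
    intro j
    have h1 := pot_ge y b x j
    have h2 := norm_le_pi_norm (a - b) j
    rw [Pi.sub_apply, Real.norm_eq_abs] at h2
    have h3 := neg_abs_le (a j - b j)
    linarith
  rw [abs_le]
  have h1 := key c c'
  have h2 := key c' c
  rw [norm_sub_rev] at h2
  constructor <;> linarith

/-- The dual functional. -/
noncomputable def Jf (K : Set (Eu d)) (y : J → Eu d) (m c : J → ℝ) : ℝ :=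
  (∫ x in K, pot y c x) + ∑ j, m j * c j

/-- The box of admissible weights. -/
def box (j₀ : J) (B : ℝ) : Set (J → ℝ) := {c | c j₀ = 0 ∧ ∀ j, |c j| ≤ B}

lemma intK {K : Set (Eu d)} (hK : IsCompact K) {g : Eu d → ℝ} (hg : Continuous g) :
    IntegrableOn g K := hg.continuousOn.integrableOn_compact hK

lemma Jf_cont {K : Set (Eu d)} (hK : IsCompact K) (y : J → Eu d) (m : J → ℝ) :
    Continuous (Jf K y m) := by
  have h1 : Continuous fun c : J → ℝ => ∫ x in K, pot y c x := by
    have : LipschitzWith (volume.real K).toNNReal (fun c : J → ℝ => ∫ x in K, pot y c x) := by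
      apply LipschitzWith.of_dist_le_mul
      intro c c'
      rw [Real.dist_eq, dist_eq_norm, Real.coe_toNNReal _ measureReal_nonneg,
        ← integral_sub (intK hK (pot_cont y c)) (intK hK (pot_cont y c')), mul_comm]
      exact norm_setIntegral_le_of_norm_le_const (f := fun x => pot y c x - pot y c' x)
        hK.measure_lt_top fun x _ => pot_lipc y c c' x
    exact this.continuous
  unfold Jf
  fun_prop

lemma box_compact (j₀ : J) (B : ℝ) : IsCompact (box j₀ B) := by
  have h1 : IsCompact (Set.pi univ fun _ : J => Icc (-B) B) :=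
    isCompact_univ_pi fun _ => isCompact_Icc
  have h2 : IsClosed {c : J → ℝ | c j₀ = 0} := isClosed_eq (by fun_prop) (by fun_prop)
  have h3 : box j₀ B = (Set.pi univ fun _ : J => Icc (-B) B) ∩ {c : J → ℝ | c j₀ = 0} := by
    ext c
    simp only [box, Set.mem_ofPred_eq, mem_inter_iff, Set.mem_pi, Set.mem_univ, Set.mem_Icc,
      abs_le, forall_true_left]
    tauto
  rw [h3]
  exact h1.inter_right h2

lemma box_nonempty (j₀ : J) {B : ℝ} (hB : 0 ≤ B) : (box j₀ B).Nonempty :=
  ⟨0, rfl, fun j => by simpa using hB⟩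

lemma exists_minc {K : Set (Eu d)} (hK : IsCompact K) (y : J → Eu d) (m : J → ℝ) (j₀ : J)
    {B : ℝ} (hB : 0 ≤ B) : ∃ c ∈ box j₀ B, ∀ c' ∈ box j₀ B, Jf K y m c ≤ Jf K y m c' :=
  (box_compact j₀ B).exists_isMinOn (box_nonempty j₀ hB) (Jf_cont hK y m).continuousOn

/-- If raising the weight `c j` does not decrease the functional then the cell of `j` has
volume at most `m j`. -/
lemma raise [DecidableEq J] {K : Set (Eu d)} (hK : IsCompact K) {y : J → Eu d}
    (hy : Function.Injective y) {m c : J → ℝ} {j : J} (hm : 0 ≤ m j) {δ₀ : ℝ} (hδ₀ : 0 < δ₀)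
    (h : ∀ δ, 0 < δ → δ < δ₀ → Jf K y m c ≤ Jf K y m (c + Pi.single j δ)) :
    ∫ _ in cell K y c j, (1 : ℝ) ≤ m j := by
  have hint : ∀ A : Set (Eu d), ∫ _ in A, (1 : ℝ) = volume.real A := by
    intro A; simp [measureReal_def]
  rw [hint]
  have hKcl := hK.isClosed
  have step : ∀ δ, 0 < δ → δ < δ₀ → volume.real (cell K y (c + Pi.single j δ) j) ≤ m j := by
    intro δ h0 h1
    have h2 := h δ h0 h1
    set c' := c + Pi.single j δ with hc'
    have hcc' : ∀ k, c k ≤ c' k := by
      intro k
      rw [hc', Pi.add_apply]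
      rcases eq_or_ne k j with rfl | hk
      · rw [Pi.single_eq_same]; linarith
      · rw [Pi.single_eq_of_ne hk]; linarith
    have hcj : c' j = c j + δ := by rw [hc', Pi.add_apply, Pi.single_eq_same]
    have hsum : ∑ k, m k * c' k = ∑ k, m k * c k + m j * δ := by
      have : ∀ k, m k * c' k = m k * c k + m k * (Pi.single j δ : J → ℝ) k := by
        intro k; rw [hc', Pi.add_apply]; ring
      simp only [this]
      rw [Finset.sum_add_distrib]
      congr 1
      rw [Finset.sum_eq_single j]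
      · rw [Pi.single_eq_same]
      · intro b _ hb; rw [Pi.single_eq_of_ne hb]; ring
      · intro hj; exact absurd (Finset.mem_univ j) hj
    have hmeas := cell_meas hKcl y c' j
    have : IsFiniteMeasure (volume.restrict K) := ⟨by
      rw [Measure.restrict_apply_univ]; exact hK.measure_lt_top⟩
    have i2 : IntegrableOn ((cell K y c' j).indicator fun _ => δ) K :=
      (integrable_const δ).indicator hmeas
    have hle : ∫ x in K, pot y c' x ≤ ∫ x in K, (pot y c x -
        (cell K y c' j).indicator (fun _ => δ) x) := by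
      apply setIntegral_mono_on (intK hK (pot_cont y c'))
        ((intK hK (pot_cont y c)).sub i2) hKcl.measurableSet
      intro x _
      show pot y c' x ≤ pot y c x - (cell K y c' j).indicator (fun _ => δ) x
      by_cases hx : x ∈ cell K y c' j
      · rw [indicator_of_mem hx, pot_cell hx, hcj]
        have := pot_ge y c x j
        linarith
      · rw [indicator_of_notMem hx, sub_zero]
        exact pot_mono hcc' x
    have e2 : ∫ x in K, (cell K y c' j).indicator (fun _ => δ) x =
        δ * volume.real (cell K y c' j) := by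
      rw [integral_indicator_const _ hmeas, smul_eq_mul, mul_comm,
        measureReal_restrict_apply hmeas, inter_eq_left.2 (cell_subset K y c' j)]
    rw [integral_sub (intK hK (pot_cont y c)) i2, e2] at hle
    unfold Jf at h2
    rw [hsum] at h2
    have h3 : δ * volume.real (cell K y c' j) ≤ δ * m j := by linarith
    exact le_of_mul_le_mul_left h3 h0
  -- limit δ → 0
  set U : ℕ → Set (Eu d) := fun n => cell K y (c + Pi.single j (δ₀ / (n + 2))) j with hU
  have hUmono : Monotone U := by
    intro a b hab x hx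
    refine ⟨hx.1, fun k => ?_⟩
    have h1 := hx.2 k
    have h2 : δ₀ / ((b : ℝ) + 2) ≤ δ₀ / ((a : ℝ) + 2) := by
      have : (a : ℝ) ≤ b := by exact_mod_cast hab
      gcongr
    simp only [Pi.add_apply, Pi.single_eq_same] at h1 ⊢
    rcases eq_or_ne k j with rfl | hk
    · rw [Pi.single_eq_same]
    · rw [Pi.single_eq_of_ne hk] at h1 ⊢
      linarith
  have hUvol : ∀ n, volume (U n) ≤ ENNReal.ofReal (m j) := by
    intro n
    have h1 := step (δ₀ / (n + 2)) (by positivity) (by
      rw [div_lt_iff₀ (by positivity)]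
      have : (0 : ℝ) ≤ n := Nat.cast_nonneg n
      nlinarith)
    rw [measureReal_def] at h1
    exact (ENNReal.le_ofReal_iff_toReal_le
      ((measure_mono (cell_subset K y _ j)).trans_lt hK.measure_lt_top).ne hm).2 h1
  have hUnion : volume (⋃ n, U n) ≤ ENNReal.ofReal (m j) := by
    rw [hUmono.measure_iUnion]
    exact iSup_le hUvol
  have hcover : cell K y c j ⊆ (⋃ n, U n) ∪ ⋃ k ∈ {k : J | k ≠ j},
      {x : Eu d | ⟪y k - y j, x⟫ = c k - c j} := by
    intro x hx
    by_cases hex : ∃ k, k ≠ j ∧ ⟪x, y k⟫ - c k = ⟪x, y j⟫ - c j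
    · obtain ⟨k, hk, he⟩ := hex
      right
      refine mem_iUnion₂.2 ⟨k, hk, ?_⟩
      show ⟪y k - y j, x⟫ = c k - c j
      rw [inner_sub_left, real_inner_comm x (y k), real_inner_comm x (y j)] 
      linarith
    · left
      push Not at hex
      -- a positive gap
      have hgap : ∃ g : ℝ, 0 < g ∧ ∀ k, k ≠ j → ⟪x, y k⟫ - c k + g ≤ ⟪x, y j⟫ - c j := by
        have h1 : ∀ k, ∃ g : ℝ, 0 < g ∧ (k ≠ j → ⟪x, y k⟫ - c k + g ≤ ⟪x, y j⟫ - c j) := by
          intro k
          by_cases hk : k = j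
          · exact ⟨1, one_pos, fun h => absurd hk h⟩
          · have h2 := lt_of_le_of_ne (hx.2 k) (hex k hk)
            exact ⟨(⟪x, y j⟫ - c j) - (⟪x, y k⟫ - c k), by linarith, fun _ => by linarith⟩
        choose g hg0 hg using h1
        obtain ⟨k₀, hk₀⟩ := Finite.exists_min g
        exact ⟨g k₀, hg0 k₀, fun k hk => by have := hg k hk; have := hk₀ k; linarith⟩
      obtain ⟨g, hg0, hg⟩ := hgap
      obtain ⟨n, hn⟩ := exists_nat_gt (δ₀ / g)
      refine mem_iUnion.2 ⟨n, hx.1, fun k => ?_⟩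
      have hn2 : δ₀ / ((n : ℝ) + 2) ≤ g := by
        rw [div_le_iff₀ (by positivity)]
        rw [div_lt_iff₀ hg0] at hn
        nlinarith
      simp only [Pi.add_apply, Pi.single_eq_same]
      rcases eq_or_ne k j with rfl | hk
      · rw [Pi.single_eq_same]
      · rw [Pi.single_eq_of_ne hk]
        have := hg k hk
        linarith
  have hnull : volume (⋃ k ∈ {k : J | k ≠ j}, {x : Eu d | ⟪y k - y j, x⟫ = c k - c j}) = 0 := by
    rw [measure_biUnion_null_iff (Set.toFinite _).countable]
    intro k hk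
    exact hyper_null _ (sub_ne_zero.2 fun h => hk (hy h)) _
  have hfinal : volume (cell K y c j) ≤ ENNReal.ofReal (m j) := by
    calc volume (cell K y c j) ≤ _ := measure_mono hcover
      _ ≤ _ := measure_union_le _ _
      _ ≤ ENNReal.ofReal (m j) := by rw [hnull, add_zero]; exact hUnion
  rw [measureReal_def]
  exact ENNReal.toReal_le_of_le_ofReal hm hfinal

lemma int_one (A : Set (Eu d)) : ∫ _ in A, (1 : ℝ) = volume.real A := by
  simp [measureReal_def]

lemma Jf_shift {K : Set (Eu d)} (hK : IsCompact K) (y : J → Eu d) {m c c' : J → ℝ}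
    (hsum : ∑ j, m j = ∫ _ in K, (1 : ℝ)) {a : ℝ} (h : ∀ j, c' j = c j - a) :
    Jf K y m c' = Jf K y m c := by
  unfold Jf
  have h1 : ∫ x in K, pot y c' x = (∫ x in K, pot y c x) + a * ∫ _ in K, (1 : ℝ) := by
    rw [← integral_const_mul, ← integral_add (intK hK (pot_cont y c))
      ((intK hK continuous_const).const_mul a)]
    apply integral_congr_ae
    refine Eventually.of_forall fun x => ?_
    show pot y c' x = pot y c x + a * 1
    rw [pot_const h, mul_one]
  have h2 : ∑ j, m j * c' j = ∑ j, m j * c j - a * ∑ j, m j := by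
    rw [Finset.mul_sum, ← Finset.sum_sub_distrib]
    apply Finset.sum_congr rfl
    intro j _
    rw [h]; ring
  rw [h1, h2, hsum]; ring

/-- A minimiser over the box has cells of the prescribed volumes. -/
lemma weights {K : Set (Eu d)} (hK : IsCompact K) {y : J → Eu d}
    (hy : Function.Injective y) {R M : ℝ} (hKR : K ⊆ Metric.closedBall 0 R) (hR : 0 ≤ R)
    (hM : ∀ j, ‖y j‖ ≤ M) {B : ℝ} (hB : 2 * R * M < B) {m c : J → ℝ} (hm : ∀ j, 0 < m j)
    (hsum : ∑ j, m j = ∫ _ in K, (1 : ℝ)) {j₀ : J} (hc : c ∈ box j₀ B)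
    (hmin : ∀ c' ∈ box j₀ B, Jf K y m c ≤ Jf K y m c') :
    ∀ j, ∫ _ in cell K y c j, (1 : ℝ) = m j := by
  classical
  set D := 2 * R * M with hD
  have hM0 : 0 ≤ M := (norm_nonneg _).trans (hM j₀)
  have hD0 : 0 ≤ D := by positivity
  have hin : ∀ x ∈ K, ∀ j k, ⟪x, y j⟫ - ⟪x, y k⟫ ≤ D := by
    intro x hx j k
    have hxR : ‖x‖ ≤ R := by simpa using hKR hx
    rw [← inner_sub_right]
    calc ⟪x, y j - y k⟫ ≤ ‖x‖ * ‖y j - y k‖ := real_inner_le_norm _ _
      _ ≤ R * (M + M) := by
        gcongr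
        exact (norm_sub_le _ _).trans (add_le_add (hM j) (hM k))
      _ = D := by rw [hD]; ring
  have hup : ∀ j, c j ≤ D := by
    intro j
    by_contra hcon
    rw [not_le] at hcon
    have hj : j ≠ j₀ := by
      rintro rfl
      rw [hc.1] at hcon; linarith
    set c' := Function.update c j D with hc'
    have hcj : c' j = D := Function.update_self _ _ _
    have hck : ∀ k, k ≠ j → c' k = c k := fun k hk => Function.update_of_ne hk _ _
    have hbox : c' ∈ box j₀ B := by
      refine ⟨by rw [hck _ hj.symm]; exact hc.1, fun k => ?_⟩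
      rcases eq_or_ne k j with rfl | hk
      · rw [hcj, abs_of_nonneg hD0]; exact hB.le
      · rw [hck k hk]; exact hc.2 k
    have h1 := hmin c' hbox
    have h2 : ∫ x in K, pot y c' x ≤ ∫ x in K, pot y c x := by
      apply setIntegral_mono_on (intK hK (pot_cont y c')) (intK hK (pot_cont y c))
        hK.isClosed.measurableSet
      intro x hx
      apply pot_le
      intro k
      rcases eq_or_ne k j with rfl | hk
      · rw [hcj]
        have h3 := pot_ge y c x j₀
        rw [hc.1] at h3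
        have h4 := hin x hx k j₀
        linarith
      · rw [hck k hk]; exact pot_ge y c x k
    have h3 : ∑ k, m k * c' k < ∑ k, m k * c k := by
      apply Finset.sum_lt_sum
      · intro k _
        rcases eq_or_ne k j with rfl | hk
        · rw [hcj]
          exact mul_le_mul_of_nonneg_left hcon.le (hm k).le
        · rw [hck k hk]
      · refine ⟨j, Finset.mem_univ j, ?_⟩
        rw [hcj]
        exact mul_lt_mul_of_pos_left hcon (hm j)
    unfold Jf at h1
    linarith
  have hδ₀ : 0 < B - D := by linarith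
  have hV : ∀ j, j ≠ j₀ → ∫ _ in cell K y c j, (1 : ℝ) ≤ m j := by
    intro j hj
    apply raise hK hy (hm j).le hδ₀
    intro δ h0 h1
    apply hmin
    refine ⟨?_, fun k => ?_⟩
    · rw [Pi.add_apply, Pi.single_eq_of_ne hj.symm, add_zero]; exact hc.1
    · rw [Pi.add_apply]
      rcases eq_or_ne k j with rfl | hk
      · rw [Pi.single_eq_same, abs_le]
        have := hup k
        have := (abs_le.1 (hc.2 k)).1
        constructor <;> linarith
      · rw [Pi.single_eq_of_ne hk, add_zero]; exact hc.2 k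
  have hVsum : ∑ j, ∫ _ in cell K y c j, (1 : ℝ) = ∑ j, m j := by
    rw [hsum]
    exact cell_sum hK.isClosed hy c (intK hK continuous_const)
  have hV0 : m j₀ ≤ ∫ _ in cell K y c j₀, (1 : ℝ) := by
    by_contra hcon
    rw [not_le] at hcon
    have : ∑ j, ∫ _ in cell K y c j, (1 : ℝ) < ∑ j, m j := by
      apply Finset.sum_lt_sum
      · intro j _
        rcases eq_or_ne j j₀ with rfl | hj
        · exact hcon.le
        · exact hV j hj
      · exact ⟨j₀, Finset.mem_univ _, hcon⟩
    linarith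
  have hne : (cell K y c j₀).Nonempty := by
    by_contra hcon
    rw [Set.not_nonempty_iff_eq_empty] at hcon
    rw [hcon] at hV0
    simp only [Measure.restrict_empty, integral_zero_measure] at hV0
    have := hm j₀
    linarith
  obtain ⟨x, hx⟩ := hne
  have hlow : ∀ k, -D ≤ c k := by
    intro k
    have h1 := hx.2 k
    rw [hc.1] at h1
    have h2 := hin x hx.1 j₀ k
    linarith
  have hVj₀ : ∫ _ in cell K y c j₀, (1 : ℝ) ≤ m j₀ := by
    apply raise hK hy (hm j₀).le hδ₀
    intro δ h0 h1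
    have hshift := Jf_shift hK y hsum (c := c + Pi.single j₀ δ)
      (c' := fun k => (c + Pi.single j₀ δ : J → ℝ) k - δ) (a := δ) (fun k => rfl)
    rw [← hshift]
    apply hmin
    refine ⟨?_, fun k => ?_⟩
    · show (c + Pi.single j₀ δ : J → ℝ) j₀ - δ = 0
      rw [Pi.add_apply, Pi.single_eq_same, hc.1]; ring
    · show |(c + Pi.single j₀ δ : J → ℝ) k - δ| ≤ B
      rw [Pi.add_apply]
      rcases eq_or_ne k j₀ with rfl | hk
      · rw [Pi.single_eq_same, hc.1, abs_le]
        constructor <;> linarith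
      · rw [Pi.single_eq_of_ne hk, abs_le]
        have := hup k
        have := hlow k
        constructor <;> linarith
  have hall : ∀ j ∈ Finset.univ, ∫ _ in cell K y c j, (1 : ℝ) ≤ m j := by
    intro j _
    rcases eq_or_ne j j₀ with rfl | hj
    · exact hVj₀
    · exact hV j hj
  intro j
  exact (Finset.sum_eq_sum_iff_of_le hall).1 hVsum j (Finset.mem_univ j)

/-! ### The value function -/

/-- The minimal value of the dual functional. -/
noncomputable def Gv (K : Set (Eu d)) (y : J → Eu d) (j₀ : J) (B : ℝ) (m : J → ℝ) : ℝ :=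
  sInf (Jf K y m '' box j₀ B)

lemma Gv_le {K : Set (Eu d)} (hK : IsCompact K) (y : J → Eu d) (j₀ : J) {B : ℝ}
    (m : J → ℝ) {c : J → ℝ} (hc : c ∈ box j₀ B) : Gv K y j₀ B m ≤ Jf K y m c :=
  csInf_le ((box_compact j₀ B).bddBelow_image (Jf_cont hK y m).continuousOn) ⟨c, hc, rfl⟩

lemma Gv_eq {K : Set (Eu d)} (hK : IsCompact K) (y : J → Eu d) (j₀ : J) {B : ℝ}
    (m : J → ℝ) {c : J → ℝ} (hc : c ∈ box j₀ B)
    (hmin : ∀ c' ∈ box j₀ B, Jf K y m c ≤ Jf K y m c') : Gv K y j₀ B m = Jf K y m c := by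
  apply le_antisymm (Gv_le hK y j₀ m hc)
  have hne : (Jf K y m '' box j₀ B).Nonempty := ⟨_, c, hc, rfl⟩
  apply le_csInf hne
  rintro _ ⟨c', hc', rfl⟩
  exact hmin c' hc'

lemma Gv_add {K : Set (Eu d)} (hK : IsCompact K) (y : J → Eu d) (j₀ : J) {B : ℝ}
    (m w : J → ℝ) {c : J → ℝ} (hc : c ∈ box j₀ B)
    (hmin : ∀ c' ∈ box j₀ B, Jf K y m c ≤ Jf K y m c') :
    Gv K y j₀ B (m + w) ≤ Gv K y j₀ B m + ∑ j, w j * c j := by
  rw [Gv_eq hK y j₀ m hc hmin]
  refine (Gv_le hK y j₀ (m + w) hc).trans (le_of_eq ?_)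
  unfold Jf
  have : ∀ j, (m + w) j * c j = m j * c j + w j * c j := by
    intro j; rw [Pi.add_apply]; ring
  simp only [this]
  rw [Finset.sum_add_distrib]; ring

lemma Gv_congr {K : Set (Eu d)} (y : J → Eu d) (j₀ : J) {B : ℝ} {m m' : J → ℝ}
    (h : ∀ j, j ≠ j₀ → m j = m' j) : Gv K y j₀ B m = Gv K y j₀ B m' := by
  unfold Gv
  congr 1
  apply Set.image_congr
  intro c hc
  unfold Jf
  congr 1
  apply Finset.sum_congr rfl
  intro j _
  rcases eq_or_ne j j₀ with rfl | hj
  · rw [hc.1]; ring
  · rw [h j hj]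

lemma Gv_lip {K : Set (Eu d)} (hK : IsCompact K) (y : J → Eu d) (j₀ : J) {B : ℝ}
    (hB : 0 ≤ B) : LipschitzWith (Fintype.card J * B).toNNReal (Gv K y j₀ B) := by
  have key : ∀ m m' : J → ℝ, Gv K y j₀ B m - Gv K y j₀ B m' ≤
      Fintype.card J * B * ‖m - m'‖ := by
    intro m m'
    obtain ⟨c, hc, hmin⟩ := exists_minc hK y m' j₀ hB
    have h1 := Gv_add hK y j₀ m' (m - m') hc hmin
    rw [add_sub_cancel] at h1
    have h2 : ∑ j, (m - m') j * c j ≤ ∑ _ : J, ‖m - m'‖ * B := by
      apply Finset.sum_le_sum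
      intro j _
      calc (m - m') j * c j ≤ |(m - m') j * c j| := le_abs_self _
        _ = ‖(m - m') j‖ * |c j| := by rw [abs_mul]; rfl
        _ ≤ ‖m - m'‖ * B := by
          gcongr
          · exact norm_le_pi_norm _ j
          · exact hc.2 j
    rw [Finset.sum_const, Finset.card_univ, nsmul_eq_mul] at h2
    have e : (Fintype.card J : ℝ) * B * ‖m - m'‖ = Fintype.card J * (‖m - m'‖ * B) := by ring
    rw [e]
    linarith
  apply LipschitzWith.of_dist_le_mul
  intro m m'
  rw [Real.dist_eq, dist_eq_norm, Real.coe_toNNReal _ (by positivity), abs_le]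
  have h1 := key m m'
  have h2 := key m' m
  rw [norm_sub_rev] at h2
  constructor <;> linarith

end Vale.Agent.P074
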